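import Vale.Agent.P032.H492.TwoJ

/-!
# P032: a pair without plain ends on the circle about a two-pair point

`full_of_noX` : all points of `S(z)` with at least four colours have the palette of `z`, and no
point of `S(z)` has the palette `{a, b, x}` with `x ∉ T z`: then `z` is full.
-/

open Set Filter Topology Metric

noncomputable section

namespace Vale.Agent.P032.Six

variable {U : Fin 6 → Set ℂ} {T : ℂ → Set (Fin 6)}

/-- the ends of an exact `ab`-arc, if there are no plain ends -/
theorem Irr.arc_end492 (h : Irr U T) {z : ℂ} {a b c d : Fin 6} (hz : DPt T z a b c d)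
    (hJ : ∀ v, dist v z = 1 → 4 ≤ (T v).ncard → T v = T z)
    (hX : ∀ v, dist v z = 1 → ∀ x, x ∉ T z → T v ≠ {a, b, x}) {θ o ε : ℝ} (ho : o = 1 ∨ o = -1)
    (hε : 0 < ε) (hg : ∀ t ∈ Ioo 0 ε, T (z + cis (θ - o * t)) = {a, b}) :
    ∃ l, 0 < l ∧ ε ≤ l ∧ l ≤ Real.pi / 3 ∧ (∀ t ∈ Ioo 0 l, T (z + cis (θ - o * t)) = {a, b}) ∧
      T (z + cis (θ - o * l)) = T z := by
  have hP : ({a, b} : Set (Fin 6)).ncard = 2 := Set.ncard_pair hz.ab
  have hPz : ({a, b} : Set (Fin 6)) ⊆ T z := by
    rw [hz.pal]
    intro i hi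
    simp only [mem_insert_iff, mem_singleton_iff] at hi ⊢
    tauto
  obtain ⟨l, hl0, hεl, hl, hlt, hss⟩ := h.exists_arc ho hP hPz hε hg
  refine ⟨l, hl0, hεl, hl, hlt, hJ _ (dist_add_cis z _) ?_⟩
  set v := z + cis (θ - o * l) with hv
  have hvz : dist v z = 1 := dist_add_cis z _
  by_contra hcon
  have h3 : (T v).ncard ≤ 3 := by omega
  obtain ⟨g, hgv, hgP⟩ := exists_of_ssubset hss
  have hTv : T v = {a, b, g} := by
    symm
    refine Set.eq_of_subset_of_ncard_le ?_ ?_ (Set.toFinite _)
    · rintro i (rfl | rfl | hi)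
      · exact hss.subset (by simp)
      · exact hss.subset (by simp)
      · rw [mem_singleton_iff] at hi; subst hi; exact hgv
    · have h4 : ({a, b, g} : Set (Fin 6)).ncard = 3 := by
        have e : ({a, b, g} : Set (Fin 6)) = insert g {a, b} := by
          ext i; simp only [mem_insert_iff, mem_singleton_iff]; tauto
        rw [e, Set.ncard_insert_of_notMem hgP, hP]
      omega
  by_cases hgz : g ∈ T z
  · -- the fourth colour
    obtain ⟨p, hp⟩ := hz.arc2
    obtain ⟨q, hq, hq1, hq2⟩ := hp.exists_off_line (y := v)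
    have hgcd : g = c ∨ g = d := by
      rw [hz.pal] at hgz
      rcases hgz with rfl | rfl | rfl | h5
      · exact absurd (by simp) hgP
      · exact absurd (by simp) hgP
      · exact Or.inl rfl
      · exact Or.inr h5
    rcases hgcd with rfl | rfl
    · refine h.third_notMem (d := d) hvz h3 ?_ hq.1 (h.sub q (by rw [hq.mem]; simp)) hq1 hq2
      rw [hz.pal, hTv]
      intro i hi
      simp only [mem_insert_iff, mem_singleton_iff] at hi ⊢
      tauto
    · refine h.third_notMem (d := c) hvz h3 ?_ hq.1 (h.sub q (by rw [hq.mem]; simp)) hq1 hq2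
      rw [hz.pal, hTv]
      intro i hi
      simp only [mem_insert_iff, mem_singleton_iff] at hi ⊢
      tauto
  · exact hX v hvz g hgz hTv

theorem cis_add492 (s t : ℝ) : cis (s + t) = cis s * cis t := cis_add169 s t

/-- **a pair without plain ends**: the two-pair point is full -/
theorem Irr.full_of_noX (h : Irr U T) {z : ℂ} {a b c d : Fin 6} (hz : DPt T z a b c d)
    (hJ : ∀ v, dist v z = 1 → 4 ≤ (T v).ncard → T v = T z)
    (hX : ∀ v, dist v z = 1 → ∀ x, x ∉ T z → T v ≠ {a, b, x}) : Full T z := by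
  have hpi := Real.pi_pos
  -- the maximal arc about a point with the palette `ab`
  have hext : ∀ θ : ℝ, T (z + cis θ) = {a, b} → ∃ α β : ℝ, α < θ ∧ θ < β ∧ β - α ≤ Real.pi / 3 ∧
      (∀ s ∈ Ioo α β, T (z + cis s) = {a, b}) ∧ T (z + cis α) = T z ∧ T (z + cis β) = T z := by
    intro θ hθ
    have harc := h.arc_of_eq hz.ab (by rw [hz.pal]; simp) (by rw [hz.pal]; simp)
      (dist_add_cis z θ) hθ
    obtain ⟨η, hη, hball⟩ := harc.exists_eta
    have hb1 : ∀ t ∈ Ioo 0 η, T (z + cis (θ - 1 * t)) = {a, b} := by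
      intro t ht
      refine hball _ ?_
      rw [one_mul, show θ - t - θ = -t by ring, abs_neg, abs_of_pos ht.1]
      exact ht.2
    have hb2 : ∀ t ∈ Ioo 0 η, T (z + cis (θ - -1 * t)) = {a, b} := by
      intro t ht
      refine hball _ ?_
      rw [neg_one_mul, sub_neg_eq_add, add_sub_cancel_left, abs_of_pos ht.1]
      exact ht.2
    obtain ⟨l1, hl1, -, -, ha1, he1⟩ := h.arc_end492 hz hJ hX (Or.inl rfl) hη hb1
    obtain ⟨l2, hl2, -, -, ha2, he2⟩ := h.arc_end492 hz hJ hX (Or.inr rfl) hη hb2
    have hall : ∀ s ∈ Ioo (θ - l1) (θ + l2), T (z + cis s) = {a, b} := by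
      intro s hs
      rcases lt_trichotomy s θ with h1 | h1 | h1
      · have := ha1 (θ - s) ⟨by linarith, by linarith [hs.1]⟩
        rwa [one_mul, sub_sub_cancel] at this
      · rw [h1]; exact hθ
      · have := ha2 (s - θ) ⟨by linarith, by linarith [hs.2]⟩
        rwa [neg_one_mul, sub_neg_eq_add, add_sub_cancel] at this
    have e1 : T (z + cis (θ - l1)) = T z := by rwa [one_mul] at he1
    have e2 : T (z + cis (θ + l2)) = T z := by rwa [neg_one_mul, sub_neg_eq_add] at he2
    have hb3 : ∀ t ∈ Ioo 0 (l1 + l2), T (z + cis (θ - l1 - -1 * t)) = {a, b} := by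
      intro t ht
      rw [neg_one_mul, sub_neg_eq_add]
      exact hall _ ⟨by linarith [ht.1], by linarith [ht.2]⟩
    obtain ⟨l, -, hl, hl3, -⟩ := h.arc_end492 hz hJ hX (Or.inr rfl) (by linarith) hb3
    exact ⟨θ - l1, θ + l2, by linarith, by linarith, by linarith, hall, e1, e2⟩
  -- the first arc
  obtain ⟨p, hp⟩ := hz.arc1
  obtain ⟨θ₀, hθ₀⟩ := exists_cis (u := p - z) (by rw [← dist_eq_norm]; exact hp.1)
  have hpθ : z + cis θ₀ = p := by rw [← hθ₀]; ring
  obtain ⟨α, β, hα, hβ, hlen, hall, hTα, hTβ⟩ := hext θ₀ (by rw [hpθ]; exact hp.mem)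
  have hαβ : α < β := hα.trans hβ
  have hvne : z + cis α ≠ z + cis β := by
    intro h1
    have h2 : cis (β - α) = 1 := by
      have h3 : cis β = cis α := (add_left_cancel h1).symm
      have h4 : cis β = cis α * cis (β - α) := by rw [← cis_add492, add_sub_cancel]
      have h5 : cis α ≠ 0 := by rw [← norm_ne_zero_iff, norm_cis]; norm_num
      rw [h3] at h4
      exact mul_left_cancel₀ h5 (by rw [mul_one]; exact h4.symm)
    refine cis_ne_one492 (s := β - α) ?_ ?_ h2
    · rw [abs_of_pos (by linarith)]; linarith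
    · rw [abs_of_pos (by linarith)]; linarith
  -- the only points of the palette of `z`
  have hends : ∀ q, dist q z = 1 → T q = T z → q = z + cis α ∨ q = z + cis β := by
    intro q hq hqT
    by_contra hcon
    push Not at hcon
    exact h.no_three_J hz (dist_add_cis z α) (dist_add_cis z β) hq hTα hTβ hqT hvne hcon.1.symm
      hcon.2.symm
  have hcard : ({a, b} : Set (Fin 6)) ≠ T z := by
    intro h1
    have h2 : c ∈ ({a, b} : Set (Fin 6)) := by rw [h1, hz.pal]; simp
    rcases h2 with h3 | h3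
    · exact hz.ac h3.symm
    · exact hz.bc h3.symm
  have hcd : ({a, b} : Set (Fin 6)) ≠ {c, d} := by
    intro h1
    have h2 : a ∈ ({c, d} : Set (Fin 6)) := by rw [← h1]; simp
    rcases h2 with h3 | h3
    · exact hz.ac h3
    · exact hz.ad h3
  refine ⟨a, b, c, d, α, β, hz, hαβ.ne', by rw [abs_of_pos (by linarith)]; exact hlen, hTα, hTβ,
    ?_, ?_, hends⟩
  · rw [uIoo_of_lt hαβ]
    exact hall
  · rw [uIoo_of_lt hαβ]
    intro q hq hqT
    obtain ⟨θ', hθ'⟩ := exists_cis (u := q - z) (by rw [← dist_eq_norm]; exact hq)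
    have hqθ : q = z + cis θ' := by rw [← hθ']; ring
    obtain ⟨α', β', hα', hβ', hlen', hall', hTα', hTβ'⟩ := hext θ' (by rw [← hqθ]; exact hqT)
    -- `z + cis α'` is the left end
    have hleft : z + cis α' = z + cis α := by
      rcases hends _ (dist_add_cis z α') hTα' with h1 | h1
      · exact h1
      · exfalso
        have h2 : cis α' = cis β := add_left_cancel h1
        obtain ⟨τ, hτ, -, hT2⟩ := h.j_sides hz (dist_add_cis z β) hTβ
        have ev : ∀ᶠ t : ℝ in 𝓝[>] 0, 0 < t ∧ t < β - α ∧ t < β' - α' := by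
          filter_upwards [self_mem_nhdsWithin,
            mem_nhdsWithin_of_mem_nhds (Iio_mem_nhds (show (0 : ℝ) < β - α by linarith)),
            mem_nhdsWithin_of_mem_nhds (Iio_mem_nhds (show (0 : ℝ) < β' - α' by linarith))]
            with t h3 h4 h5
          exact ⟨h3, h4, h5⟩
        obtain ⟨t, ht, ht0, ht1, ht2⟩ := (hT2.and ev).exists
        have e1 : ∀ σ : ℝ, hb z (z + cis β) σ t = z + cis β * cis (σ * t) := by
          intro σ; rw [hb]; ring
        rw [e1] at ht
        rcases hτ with rfl | rfl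
        · have h3 := hall (β - t) ⟨by linarith, by linarith⟩
          rw [show β - t = β + -1 * t by ring, cis_add492] at h3
          exact hcd (h3.symm.trans ht)
        · rw [neg_neg, one_mul, ← h2, ← cis_add492] at ht
          have h3 := hall' (α' + t) ⟨by linarith, by linarith⟩
          exact hcd (h3.symm.trans ht)
    have hc : cis α' = cis α := add_left_cancel hleft
    have hsh : ∀ s, cis (α + s) = cis (α' + s) := by
      intro s; rw [cis_add492, cis_add492, hc]
    refine ⟨α + (θ' - α'), ⟨by linarith, ?_⟩, ?_⟩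
    · by_contra hcon
      push Not at hcon
      have h3 := hall' (α' + (β - α)) ⟨by linarith, by linarith⟩
      rw [← hsh, add_sub_cancel, hTβ] at h3
      exact hcard h3.symm
    · rw [hsh, add_sub_cancel]
      exact hqθ

/-- the form with the two free colours -/
theorem full_of_noX (h : Irr U T) {z : ℂ} {a b c d e f : Fin 6} (hz : DPt T z a b c d)
    (nd : [a, b, c, d, e, f].Nodup)
    (hJ : ∀ v, dist v z = 1 → 4 ≤ (T v).ncard → T v = T z)
    (hX : ∀ v, dist v z = 1 → T v ≠ {a, b, e} ∧ T v ≠ {a, b, f}) : Full T z := by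
  refine h.full_of_noX hz hJ fun v hv x hx => ?_
  have hx2 : x = e ∨ x = f := by
    have h1 : ([a, b, c, d, e, f] : List (Fin 6)).toFinset = Finset.univ :=
      Finset.eq_univ_of_card _ (by rw [List.toFinset_card_of_nodup nd]; rfl)
    have h2 : x ∈ ([a, b, c, d, e, f] : List (Fin 6)).toFinset := by rw [h1]; simp
    rw [hz.pal] at hx
    simp only [List.mem_toFinset, List.mem_cons, List.not_mem_nil, or_false, mem_insert_iff,
      mem_singleton_iff] at h2 hx
    tauto
  rcases hx2 with rfl | rfl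
  · exact (hX v hv).1
  · exact (hX v hv).2

end Vale.Agent.P032.Six
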