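import Vale.Agent.P032.H484.HE
import Vale.Agent.P032.H416.DF
import Vale.Agent.P032.H538.State1

/-!
# P032: the two branches of a circle at a two-pair point

`V` a two-pair point with pairs `ab | cd`, `y` at distance one; `wc y V φ` the point of `S(y)` at angle `φ`
from `V`; a branch of `S(y)` at `V` is `wc y V (σ * θ)`, `θ → 0+`, `σ = 1` or `σ = -1`.

* `Irr.opp492` : `a` is absent near `V` on one branch, `b` on the other one.
* `Irr.branch492` : one branch carries only colours of `{a, x}`, the other one only of `{b, x'}`,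
  `{x, x'} = {c, d}`.
* `Irr.no_harm_J492` : `y` with `T y = T V` is not harmless.
* `Irr.not_pair492` : an accumulation point of points with exact palette `{a, b}` has no point with this
  palette on its circle.
* `Irr.branchK492`, `Irr.branchJ492` : the exact branches at links of type K and J.
* `Irr.branchH492` : the same for a harmless point.
-/

open Set Filter Topology Metric

noncomputable section

namespace Vale.Agent.P032.H492

open Vale.Agent.P032.Six Vale.Agent.P032.S5.H767 Vale.Agent.P032.H460 Vale.Agent.P032.H484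

variable {U : Fin 6 → Set ℂ} {T : ℂ → Set (Fin 6)} {V y : ℂ} {a b c d g : Fin 6}

theorem sb1 (a b c : Fin 6) : ({a, c} : Set (Fin 6)) ⊆ {a, b, c} := by
  intro i hi
  simp only [mem_insert_iff, mem_singleton_iff] at hi ⊢
  tauto

theorem sb3 (a b c d : Fin 6) : ({a, c} : Set (Fin 6)) ⊆ {a, b, c, d} := by
  intro i hi
  simp only [mem_insert_iff, mem_singleton_iff] at hi ⊢
  tauto

theorem sb4 (a b c d : Fin 6) : ({b, d} : Set (Fin 6)) ⊆ {a, b, c, d} := by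
  intro i hi
  simp only [mem_insert_iff, mem_singleton_iff] at hi ⊢
  tauto

theorem sb5 (a b c d : Fin 6) : ({a, d} : Set (Fin 6)) ⊆ {a, b, c, d} := by
  intro i hi
  simp only [mem_insert_iff, mem_singleton_iff] at hi ⊢
  tauto

/-- **opposite branches**: the colours `c`, `d` of a pair of `V` -/
theorem _root_.Vale.Agent.P032.Six.Irr.opp492 (h : Irr U T) (hV : DPt T V a b c d)
    (hVy : dist V y = 1) : ∃ σ : ℝ, (σ = 1 ∨ σ = -1) ∧
      (∀ᶠ θ : ℝ in 𝓝[>] 0, c ∉ Pal U (wc y V (σ * θ))) ∧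
      ∀ᶠ θ : ℝ in 𝓝[>] 0, d ∉ Pal U (wc y V (-σ * θ)) := by
  have hyV : dist y V = 1 := by rw [dist_comm]; exact hVy
  obtain ⟨p0, hp0⟩ := hV.arc2
  obtain ⟨p, hp, ⟨hpy, hpy2⟩, -⟩ := arc_generic (y := y) (y' := y) hp0
  obtain ⟨q0, hq0⟩ := hV.arc1
  obtain ⟨q, hq, ⟨hqy, hqy2⟩, hqp, hqp2⟩ := arc_generic (y := y) (y' := p) hq0
  have hA : cr (y - V) (p - V) ≠ 0 := cr_ne hyV hp.1 (Ne.symm hpy) (by rwa [add_comm])
  have hD : cr (p - V) (q - V) ≠ 0 := cr_ne hp.1 hq.1 (Ne.symm hqp) (by rwa [add_comm])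
  have hanti : ∀ u v : ℂ, cr u v = - cr v u := fun u v => by unfold cr; ring
  -- the sides of `S(p)`
  have key : (∀ᶠ x in 𝓝 V, 1 < dist x p → c ∉ Pal U x) ∧ (∀ᶠ x in 𝓝 V, dist x p < 1 → d ∉ Pal U x) ∨
      (∀ᶠ x in 𝓝 V, 1 < dist x p → d ∉ Pal U x) ∧ ∀ᶠ x in 𝓝 V, dist x p < 1 → c ∉ Pal U x := by
    obtain ⟨s', hs', hrc, hrd⟩ : ∃ s : ℝ, (s = 1 ∨ s = -1) ∧
        Ray (U c) V (s * (Complex.I * (q - V))) ∧ Ray (U d) V (-(s * (Complex.I * (q - V)))) := by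
      rcases h.d0 hV.swap hq with ⟨k1, k2⟩ | ⟨k1, k2⟩
      · exact ⟨1, Or.inl rfl, by simpa using k1, by simpa using k2⟩
      · exact ⟨-1, Or.inr rfl, by simpa using k2, by simpa using k1⟩
    have hs0 : s' ≠ 0 := by rcases hs' with rfl | rfl <;> norm_num
    have ed : cr (q - V) (p - V) = -cr (p - V) (q - V) := hanti _ _
    rcases lt_or_gt_of_ne (mul_ne_zero hs0 hD) with k | k
    · refine Or.inl (arc_side h hp hrc hrd ?_)
      rw [H484.ip_I, ed]; linarith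
    · have hp' : Arc T V p {d, c} := by rw [pair_comm]; exact hp
      refine Or.inr (arc_side h hp' hrd (by rw [neg_neg]; exact hrc) ?_)
      have h2 : ip (-(s' * (Complex.I * (q - V)))) (p - V) =
        - ip (s' * (Complex.I * (q - V))) (p - V) := by unfold ip; simp; ring
      rw [h2, H484.ip_I, ed]; linarith
  -- the branch outside `S(p)`
  obtain ⟨τ, hτ, hτA⟩ : ∃ τ : ℝ, (τ = 1 ∨ τ = -1) ∧ 0 < τ * cr (y - V) (p - V) := by
    rcases lt_or_gt_of_ne hA with h1 | h1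
    · exact ⟨-1, Or.inr rfl, by linarith⟩
    · exact ⟨1, Or.inl rfl, by linarith⟩
  have hτ' : -τ = 1 ∨ -τ = -1 := by rcases hτ with rfl | rfl <;> norm_num
  have ho := wc_out hVy hp.1 hτ hτA
  have hi := wc_in hVy hp.1 hτ' (by linarith)
  rcases key with ⟨k1, k2⟩ | ⟨k1, k2⟩
  · refine ⟨τ, hτ, ?_, ?_⟩
    · filter_upwards [(wc_tendsto y V τ).eventually k1, ho] with θ h1 h2 using h1 h2
    · filter_upwards [(wc_tendsto y V (-τ)).eventually k2, hi] with θ h1 h2 using h1 h2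
  · refine ⟨-τ, hτ', ?_, ?_⟩
    · filter_upwards [(wc_tendsto y V (-τ)).eventually k2, hi] with θ h1 h2 using h1 h2
    · rw [neg_neg]
      filter_upwards [(wc_tendsto y V τ).eventually k1, ho] with θ h1 h2 using h1 h2

/-- no colour of `V` is present near `V` on both branches -/
theorem _root_.Vale.Agent.P032.Six.Irr.opp492' (h : Irr U T) (hV : DPt T V a b c d)
    (hVy : dist V y = 1) {i : Fin 6} (hi : i ∈ T V)
    (h1 : ∀ᶠ w in 𝓝[sphere y 1] V, i ∈ T w) : False := by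
  have key : ∀ {i j k l : Fin 6}, DPt T V k l i j → (∀ᶠ w in 𝓝[sphere y 1] V, i ∈ T w) → False := by
    intro i j k l hV' h1
    obtain ⟨σ, -, h2, -⟩ := h.opp492 hV' hVy
    have h3 : Tendsto (fun θ : ℝ => wc y V (σ * θ)) (𝓝[>] 0) (𝓝[sphere y 1] V) :=
      tendsto_nhdsWithin_iff.2 ⟨wc_tendsto y V σ, Eventually.of_forall fun θ => dist_wc hVy _⟩
    obtain ⟨θ, h4, h5⟩ := ((h3.eventually h1).and h2).exists
    exact h5 (h.sub _ h4)
  rw [hV.pal] at hi
  rcases hi with rfl | rfl | rfl | hi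
  · exact key hV.swap h1
  · exact key (hV.swap.swap34) h1
  · exact key hV h1
  · rw [mem_singleton_iff] at hi
    subst hi
    exact key hV.swap34 h1

/-- **harmless points of type J do not exist** -/
theorem _root_.Vale.Agent.P032.Six.Irr.no_harm_J492 (h : Irr U T) (hV : DPt T V a b c d)
    (hVy : dist V y = 1) (hT : T y = T V) {A : Set (Fin 6)} (hA : Six.Harm T y A) : False := by
  obtain ⟨i, hi⟩ := Set.nonempty_of_ncard_ne_zero (s := A) (by rw [hA.cardA]; omega)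
  refine h.opp492' hV hVy (i := i) (hT ▸ hA.sub hi) ?_
  filter_upwards [mem_nhdsWithin_of_mem_nhds (h.nhd V), self_mem_nhdsWithin] with w h1 h2
  exact hA.h1 w h2 (hT ▸ h1) hi

/-- an accumulation point of exact `ab`-points has no exact `ab`-point on its circle -/
theorem _root_.Vale.Agent.P032.Six.Irr.not_pair492 (h : Irr U T) {p : ℂ} {P : Set (Fin 6)}
    (hP : P.ncard ≤ 3) (hy : y ∈ closure {x | T x = P}) (hp : dist p y = 1) : T p ≠ P := by
  intro hpP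
  obtain ⟨x, hx, hxP⟩ := mem_closure_iff_nhds.1 hy _ (h.no_layer hp)
  have h1 : T x = P := hxP
  have h2 := hx (by rw [hpP, h1])
  rw [h1] at h2
  omega

/-- at the end `y` of an exact `ab`-arc of `S(V)`, `ab` is no pair of `y` -/
theorem _root_.Vale.Agent.P032.Six.Irr.not_dpt492 (h : Irr U T) (hab : a ≠ b)
    (hy : y ∈ closure (Ex T V {a, b})) {m n : Fin 6} (hD : DPt T y a b m n) : False := by
  obtain ⟨p, hp, hpJ⟩ := hD.arc1
  refine h.not_pair492 (P := {a, b}) (by rw [Set.ncard_pair hab]; omega)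
    (closure_mono (fun x hx => ex_self hx) hy) hp (hpJ.self_of_nhdsWithin hp)

/-- the same for a harmless point -/
theorem _root_.Vale.Agent.P032.Six.Irr.not_harm492 (h : Irr U T) (hab : a ≠ b)
    (hy : y ∈ closure (Ex T V {a, b})) (hD : Six.Harm T y {a, b}) : False := by
  obtain ⟨p, hp, hpJ⟩ := hD.arc
  refine h.not_pair492 (P := {a, b}) (by rw [Set.ncard_pair hab]; omega)
    (closure_mono (fun x hx => ex_self hx) hy) hp (hpJ.self_of_nhdsWithin hp)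

/-- the branches of `S(y)` at `V` -/
theorem _root_.Vale.Agent.P032.Six.Irr.branch492 (h : Irr U T) (hV : DPt T V a b c d)
    (hVy : dist V y = 1) : ∃ σ : ℝ, (σ = 1 ∨ σ = -1) ∧
      ((∀ᶠ θ : ℝ in 𝓝[>] 0, T (wc y V (σ * θ)) ⊆ {a, c}) ∧
        (∀ᶠ θ : ℝ in 𝓝[>] 0, T (wc y V (-σ * θ)) ⊆ {b, d}) ∨
      (∀ᶠ θ : ℝ in 𝓝[>] 0, T (wc y V (σ * θ)) ⊆ {a, d}) ∧
        (∀ᶠ θ : ℝ in 𝓝[>] 0, T (wc y V (-σ * θ)) ⊆ {b, c})) := by
  obtain ⟨σ, hσ, h1, h2⟩ := h.opp492 hV hVy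
  obtain ⟨τ, hτ, h3, h4⟩ := h.opp492 hV.swap hVy
  have key : ∀ (ρ : ℝ) (i j k l : Fin 6), T V = {i, j, k, l} →
      (∀ᶠ θ : ℝ in 𝓝[>] 0, k ∉ Pal U (wc y V (ρ * θ))) →
      (∀ᶠ θ : ℝ in 𝓝[>] 0, l ∉ Pal U (wc y V (ρ * θ))) →
      ∀ᶠ θ : ℝ in 𝓝[>] 0, T (wc y V (ρ * θ)) ⊆ {i, j} := by
    intro ρ i j k l hT k1 k2
    filter_upwards [k1, k2, (wc_tendsto y V ρ).eventually (h.nhd V)] with θ e1 e2 e3 x hx
    have e4 := e3 hx
    rw [hT] at e4
    rcases e4 with rfl | rfl | rfl | e4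
    · simp
    · simp
    · exact absurd (h.sub _ hx) e1
    · rw [mem_singleton_iff] at e4
      subst e4
      exact absurd (h.sub _ hx) e2
  have hp := hV.pal
  -- `τ` : `a` absent on `τ`, `b` absent on `-τ`; `σ` : `c` absent on `σ`, `d` absent on `-σ`
  have hcase : σ = τ ∨ σ = -τ := by
    rcases hσ with rfl | rfl <;> rcases hτ with rfl | rfl <;> norm_num
  refine ⟨-τ, by rcases hτ with rfl | rfl <;> norm_num, ?_⟩
  rcases hcase with rfl | rfl
  · refine Or.inl ⟨key (-σ) a c b d ?_ h4 h2, ?_⟩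
    · rw [hp]; ext i; simp only [mem_insert_iff, mem_singleton_iff]; tauto
    · rw [neg_neg]
      exact key σ b d a c (by rw [hp]; ext i; simp only [mem_insert_iff, mem_singleton_iff]; tauto)
        h3 h1
  · refine Or.inr ⟨key (-τ) a d b c ?_ h4 h1, ?_⟩
    · rw [hp]; ext i; simp only [mem_insert_iff, mem_singleton_iff]; tauto
    · rw [neg_neg] at h2 ⊢
      exact key τ b c a d (by rw [hp]; ext i; simp only [mem_insert_iff, mem_singleton_iff]; tauto)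
        h3 h2

/-- **the branches at a link of type K**: `y = (ac | bg)`, `g` not at `V` -/
theorem _root_.Vale.Agent.P032.Six.Irr.branchK492 (h : Irr U T) (hV : DPt T V a b c d)
    (hVy : dist V y = 1) (hy : DPt T y a c b g) (hg : g ∉ T V) : ∃ σ : ℝ, (σ = 1 ∨ σ = -1) ∧
      (∀ᶠ θ : ℝ in 𝓝[>] 0, T (wc y V (σ * θ)) = {a, c}) ∧
      ∀ᶠ θ : ℝ in 𝓝[>] 0, T (wc y V (-σ * θ)) ⊆ {b, d} := by
  have hnear := (pv_of_dpt h hy).near
  -- a branch whose palettes are in `T y`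
  have key : ∀ (ρ : ℝ) (P : Set (Fin 6)), P ⊆ {a, b, c} →
      (∀ᶠ θ : ℝ in 𝓝[>] 0, T (wc y V (ρ * θ)) ⊆ P) →
      ∀ᶠ θ : ℝ in 𝓝[>] 0, {a, c} ⊆ T (wc y V (ρ * θ)) := by
    intro ρ P hP h1
    filter_upwards [h1] with θ h2
    have h3 : T (wc y V (ρ * θ)) ⊆ {a, b, c} := h2.trans hP
    have h0 : ({a, b, c} : Set (Fin 6)) ⊆ T y := by
      rw [hy.pal]
      intro i hi
      simp only [mem_insert_iff, mem_singleton_iff] at hi ⊢
      tauto
    rcases hnear _ (dist_wc hVy _) (h3.trans h0) with h4 | h4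
    · exact sub_of_closure h h4
    · exfalso
      have h5 : g ∈ T (wc y V (ρ * θ)) := sub_of_closure h h4 (by simp)
      apply hg
      have h6 := h3 h5
      rw [hV.pal]
      simp only [mem_insert_iff, mem_singleton_iff] at h6 ⊢
      tauto
  obtain ⟨σ, hσ, ⟨h1, h2⟩ | ⟨h1, h2⟩⟩ := h.branch492 hV hVy
  · refine ⟨σ, hσ, ?_, h2⟩
    filter_upwards [h1, key σ {a, c} (sb1 a b c) h1] with θ k1 k2 using k1.antisymm k2
  · exfalso
    have h3 := key (-σ) {b, c} (subset_insert _ _) h2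
    obtain ⟨θ, k1, k2⟩ := (h2.and h3).exists
    have k3 := k1 (k2 (show a ∈ ({a, c} : Set (Fin 6)) by simp))
    rcases k3 with k3 | k3
    · exact hV.ab k3
    · exact hV.ac k3

/-- **the branches at a link of type J**: `y = (ac | bd)` -/
theorem _root_.Vale.Agent.P032.Six.Irr.branchJ492 (h : Irr U T) (hV : DPt T V a b c d)
    (hVy : dist V y = 1) (hy : DPt T y a c b d) : ∃ σ : ℝ, (σ = 1 ∨ σ = -1) ∧
      (∀ᶠ θ : ℝ in 𝓝[>] 0, T (wc y V (σ * θ)) = {a, c}) ∧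
      ∀ᶠ θ : ℝ in 𝓝[>] 0, T (wc y V (-σ * θ)) = {b, d} := by
  have hnear := (pv_of_dpt h hy).near
  have key : ∀ (ρ : ℝ) (P : Set (Fin 6)), P ⊆ {a, b, c, d} →
      (∀ᶠ θ : ℝ in 𝓝[>] 0, T (wc y V (ρ * θ)) ⊆ P) →
      ∀ᶠ θ : ℝ in 𝓝[>] 0, {a, c} ⊆ T (wc y V (ρ * θ)) ∨ {b, d} ⊆ T (wc y V (ρ * θ)) := by
    intro ρ P hP h1
    filter_upwards [h1] with θ h2
    have h0 : ({a, b, c, d} : Set (Fin 6)) ⊆ T y := by
      rw [hy.pal]
      intro i hi
      simp only [mem_insert_iff, mem_singleton_iff] at hi ⊢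
      tauto
    rcases hnear _ (dist_wc hVy _) ((h2.trans hP).trans h0) with h4 | h4
    · exact Or.inl (sub_of_closure h h4)
    · exact Or.inr (sub_of_closure h h4)
  have nm : ∀ i j k l : Fin 6, i ≠ j → i ≠ k → i ≠ l → ¬ ({i, j} : Set (Fin 6)) ⊆ {k, l} := by
    intro i j k l _ h2 h3 h4
    rcases h4 (show i ∈ ({i, j} : Set (Fin 6)) by simp) with h5 | h5
    · exact h2 h5
    · exact h3 h5
  have hca := Ne.symm hV.ac
  have hba := Ne.symm hV.ab
  have hda := Ne.symm hV.ad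
  have hcb := Ne.symm hV.bc
  have hdb := Ne.symm hV.bd
  have hdc := Ne.symm hV.cd
  obtain ⟨σ, hσ, ⟨h1, h2⟩ | ⟨h1, h2⟩⟩ := h.branch492 hV hVy
  · refine ⟨σ, hσ, ?_, ?_⟩
    · filter_upwards [h1, key σ {a, c} (sb3 a b c d) h1] with θ k1 k2
      rcases k2 with k2 | k2
      · exact k1.antisymm k2
      · exact absurd (k2.trans k1) (nm _ _ _ _ hV.bd hba hV.bc)
    · filter_upwards [h2, key (-σ) {b, d} (sb4 a b c d) h2] with θ k1 k2
      rcases k2 with k2 | k2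
      · exact absurd (k2.trans k1) (nm _ _ _ _ hV.ac hV.ab hV.ad)
      · exact k1.antisymm k2
  · exfalso
    obtain ⟨θ, k1, k2⟩ := (h1.and (key σ {a, d} (sb5 a b c d) h1)).exists
    rcases k2 with k2 | k2
    · rw [pair_comm] at k2
      exact nm _ _ _ _ hca hca hV.cd (k2.trans k1)
    · exact nm _ _ _ _ hV.bd hba hV.bd (k2.trans k1)

/-- **the branches at a harmless point** `y` with `T y = {a, b, c, g}`, an accumulation point of
exact `ab`-points: the pair of `y` is `{a, c}` or `{b, c}`. -/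
theorem _root_.Vale.Agent.P032.Six.Irr.branchH492 (h : Irr U T) (hV : DPt T V a b c d)
    (hVy : dist V y = 1) (hT : T y = {a, b, c, g})
    (hy : y ∈ closure (Ex T V {a, b})) {A : Set (Fin 6)} (hA : Six.Harm T y A) :
    ∃ σ : ℝ, (σ = 1 ∨ σ = -1) ∧ (A = {a, c} ∧
      (∀ᶠ θ : ℝ in 𝓝[>] 0, T (wc y V (σ * θ)) = {a, c}) ∧
      (∀ᶠ θ : ℝ in 𝓝[>] 0, T (wc y V (-σ * θ)) ⊆ {b, d}) ∨ A = {b, c} ∧
      (∀ᶠ θ : ℝ in 𝓝[>] 0, T (wc y V (σ * θ)) = {b, c}) ∧
      ∀ᶠ θ : ℝ in 𝓝[>] 0, T (wc y V (-σ * θ)) ⊆ {a, d}) := by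
  have key : ∀ (ρ : ℝ) (i : Fin 6), (i = a ∨ i = b) →
      (∀ᶠ θ : ℝ in 𝓝[>] 0, T (wc y V (ρ * θ)) ⊆ {i, c}) → A = {i, c} ∧
      ∀ᶠ θ : ℝ in 𝓝[>] 0, T (wc y V (ρ * θ)) = {i, c} := by
    intro ρ i hi h1
    have h2 : ∀ᶠ θ : ℝ in 𝓝[>] 0, A ⊆ T (wc y V (ρ * θ)) := by
      filter_upwards [h1] with θ h2
      refine hA.h1 _ (dist_wc hVy _) (h2.trans ?_)
      rw [hT]
      intro j hj
      simp only [mem_insert_iff, mem_singleton_iff] at hj ⊢
      rcases hi with rfl | rfl <;> tauto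
    obtain ⟨θ, k1, k2⟩ := (h1.and h2).exists
    have hic : i ≠ c := by
      rcases hi with rfl | rfl
      · exact hV.ac
      · exact hV.bc
    have hAe : A = {i, c} := Set.eq_of_subset_of_ncard_le (k2.trans k1)
      (by rw [hA.cardA, Set.ncard_pair hic]) (Set.toFinite _)
    refine ⟨hAe, ?_⟩
    filter_upwards [h1, h2] with θ k3 k4
    exact k3.antisymm (hAe ▸ k4)
  obtain ⟨σ, hσ, ⟨h1, h2⟩ | ⟨h1, h2⟩⟩ := h.branch492 hV hVy
  · obtain ⟨h3, h4⟩ := key σ a (Or.inl rfl) h1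
    exact ⟨σ, hσ, Or.inl ⟨h3, h4, h2⟩⟩
  · obtain ⟨h3, h4⟩ := key (-σ) b (Or.inr rfl) h2
    refine ⟨-σ, by rcases hσ with rfl | rfl <;> norm_num, Or.inr ⟨h3, h4, ?_⟩⟩
    rw [neg_neg]
    exact h1

/-- **harmless end, K-type**: `V` is an end of the exact arc of `S(y)` -/
theorem _root_.Vale.Agent.P032.Six.Irr.end_harm492 (h : Irr U T) (hV : DPt T V a b c d)
    (hVy : dist V y = 1) (hT : T y = {a, b, c, g})
    (hy : y ∈ closure (Ex T V {a, b})) {A : Set (Fin 6)} (hA : Six.Harm T y A) :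
    (A = {a, c} ∨ A = {b, c}) ∧ V ∈ closure {w | dist w y = 1 ∧ T w = A} := by
  obtain ⟨σ, -, ⟨rfl, h1, -⟩ | ⟨rfl, h1, -⟩⟩ := h.branchH492 hV hVy hT hy hA
  · refine ⟨Or.inl rfl, mem_closure_of_tendsto (wc_tendsto y V σ) ?_⟩
    filter_upwards [h1] with θ h2 using ⟨dist_wc hVy _, h2⟩
  · refine ⟨Or.inr rfl, mem_closure_of_tendsto (wc_tendsto y V σ) ?_⟩
    filter_upwards [h1] with θ h2 using ⟨dist_wc hVy _, h2⟩

/-- `V` is an end of the exact `ac`-arc of `S(y)`, `y` of type K -/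
theorem _root_.Vale.Agent.P032.Six.Irr.end_of492 (h : Irr U T) (hV : DPt T V a b c d)
    (hVy : dist V y = 1) (hy : DPt T y a c b g) (hg : g ∉ T V) :
    V ∈ closure (Ex T y {a, c}) := by
  have hnear := (pv_of_dpt h hy).near
  obtain ⟨σ, -, h1, -⟩ := h.branchK492 hV hVy hy hg
  refine isClosed_closure.mem_of_tendsto (wc_tendsto y V σ) ?_
  filter_upwards [h1] with θ h2
  have h0 : T (wc y V (σ * θ)) ⊆ T y := by
    rw [h2, hy.pal]
    intro i hi
    simp only [mem_insert_iff, mem_singleton_iff] at hi ⊢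
    tauto
  rcases hnear _ (dist_wc hVy _) h0 with h3 | h3
  · exact h3
  · exfalso
    have h4 : b ∈ T (wc y V (σ * θ)) := sub_of_closure h h3 (by simp)
    rw [h2] at h4
    rcases h4 with h4 | h4
    · exact hV.ab h4.symm
    · exact hV.bc h4

/-- **a point `y` with `T y ∩ T V = {a, b}`**: `c` near `V` on one branch of `S(y)`, `d` on the other -/
theorem _root_.Vale.Agent.P032.Six.Irr.branchE492 (h : Irr U T) (hV : DPt T V a b c d)
    (hVy : dist V y = 1) (ha : a ∈ T y) (hb : b ∈ T y) :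
    ∃ σ : ℝ, (σ = 1 ∨ σ = -1) ∧ (∀ᶠ θ : ℝ in 𝓝[>] 0, c ∈ T (wc y V (σ * θ))) ∧
      ∀ᶠ θ : ℝ in 𝓝[>] 0, d ∈ T (wc y V (-σ * θ)) := by
  have key : ∀ (ρ : ℝ) (i j : Fin 6), i ∈ T y →
      (∀ᶠ θ : ℝ in 𝓝[>] 0, T (wc y V (ρ * θ)) ⊆ {i, j}) →
      ∀ᶠ θ : ℝ in 𝓝[>] 0, j ∈ T (wc y V (ρ * θ)) := by
    intro ρ i j hi h1
    filter_upwards [h1] with θ h2
    by_contra hj
    have h3 : T (wc y V (ρ * θ)) ⊆ {i} := by
      intro l hl
      rcases h2 hl with h4 | h4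
      · exact h4
      · rw [mem_singleton_iff] at h4
        subst h4
        exact absurd hl hj
    exact h.mx.notMem' (h.mem_of_single h3) (dist_wc hVy _) (h.sub y hi)
  obtain ⟨σ, hσ, ⟨h1, h2⟩ | ⟨h1, h2⟩⟩ := h.branch492 hV hVy
  · exact ⟨σ, hσ, key σ a c ha h1, key (-σ) b d hb h2⟩
  · refine ⟨-σ, by rcases hσ with rfl | rfl <;> norm_num, key (-σ) b c hb h2, ?_⟩
    rw [neg_neg]
    exact key σ a d ha h1

end Vale.Agent.P032.H492
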