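import Vale.Agent.P032.H492.Border

/-!
# P032, X: change of the resolution at a finite set of two-pair points

`DSt.index_set` : changing the choice of the separated pairs at a finite set `S` of two-pair points
of the open disc of `x` changes the state by the sum over `S` of the boundaries of the palettes.
`DSt.toggle_zero` : the value at a face is zero, if the number of toggled points is even and there is
no such face with the new choice.
-/

open Set Filter Topology Metric

noncomputable section

namespace Vale.Agent.P032.Six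

open Vale.Agent.P032.S5 Vale.Agent.P032.Carr Vale.Agent.P032.H492

variable {U : Fin 6 → Set ℂ} {T : ℂ → Set (Fin 6)} {f f' : ℂ → Set (Fin 6)} {Z : Set ℂ} {c : ℂ}
  {R δ₀ δ₀' : ℝ} {x V : ℂ} {t b d : Fin 6}

/-- mixing two choices of pairs -/
theorem ChF.update (F : ChF T f) (F' : ChF T f') (P : ℂ → Prop) [DecidablePred P] :
    ChF T (fun z => if P z then f z else f' z) where
  harm := fun z A hA => by
    by_cases h : P z
    · simp only [h, if_true]; exact F.harm z A hA
    · simp only [h, if_false]; exact F'.harm z A hA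
  two := fun z a b c d hz => by
    by_cases h : P z
    · simp only [h, if_true]; exact F.two z a b c d hz
    · simp only [h, if_false]; exact F'.two z a b c d hz

open Classical in
/-- the other pair at the points of `S` is a choice of pairs -/
theorem ChF.flip (F : ChF T f) (S : Finset ℂ) (hS : ∀ V ∈ S, ∃ a b m n, DPt T V a b m n) :
    ChF T (fun z => if z ∈ S then T z \ f z else f z) where
  harm := fun z A hA => by
    by_cases h : z ∈ S
    · obtain ⟨a, b, m, n, hz⟩ := hS z h
      exact absurd hz fun hz => not_harm_of_dpt hA hz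
    · simp only [h, if_false]; exact F.harm z A hA
  two := fun z a b c d hz => by
    by_cases h : z ∈ S
    · simp only [h, if_true]
      have h1 := hz.ab
      have h2 := hz.ac
      have h3 := hz.ad
      have h4 := hz.bc
      have h5 := hz.bd
      have h6 := hz.cd
      rcases F.two z a b c d hz with hf | hf
      · right
        rw [hf, hz.pal]
        ext i
        simp only [Set.mem_sdiff, mem_insert_iff, mem_singleton_iff, not_or]
        constructor
        · rintro ⟨h7, h8, h9⟩
          tauto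
        · rintro (rfl | rfl)
          · exact ⟨by tauto, fun e => h2 e.symm, fun e => h4 e.symm⟩
          · exact ⟨by tauto, fun e => h3 e.symm, fun e => h5 e.symm⟩
      · left
        rw [hf, hz.pal]
        ext i
        simp only [Set.mem_sdiff, mem_insert_iff, mem_singleton_iff, not_or]
        constructor
        · rintro ⟨h7, h8, h9⟩
          tauto
        · rintro (rfl | rfl)
          · exact ⟨by tauto, h2, h3⟩
          · exact ⟨by tauto, h4, h5⟩
    · simp only [h, if_false]; exact F.two z a b c d hz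

open Classical in
/-- **one point** (any colour avoidable on the circle) -/
theorem DSt.index_oneA (D : DSt U T Z f c R δ₀) (D' : DSt U T Z f' c R δ₀')
    (hV : ∃ a b m n, DPt T V a b m n) (hne : f' V ≠ f V) (hff : ∀ z, z ≠ V → f' z = f z)
    (hx : dist x c ≤ R - 1) (hxV : dist V x < 1) (ht : Av T x t) (htb : t ≠ b) (htd : t ≠ d)
    (hbd : b ≠ d) :
    lamT T Z f' δ₀' t x b d = lamT T Z f δ₀ t x b d +
      (if ({t, b, d} : Set (Fin 6)) ⊆ T V then 1 else 0) := by
  obtain ⟨a, b', m, n, hz⟩ := hV
  have hVZ : V ∈ Z := D.memZ hx hxV.le hz.ncard.ge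
  have key : ∀ {a b' m n : Fin 6}, DPt T V a b' m n → f V = {m, n} → f' V = {a, b'} →
      lamT T Z f' δ₀' t x b d = lamT T Z f δ₀ t x b d +
      (if ({t, b, d} : Set (Fin 6)) ⊆ T V then 1 else 0) := by
    intro a b' m n hz e1 e2
    have h1 := D.df.irr.index492 (s := {t, b, d}) (t := t) D.hm D'.hm hz hVZ
      (fun z _ hzV => hff z hzV)
      (by filter_upwards [D.df.isolated4 hz] with w hw hwZ; exact hw (D.zs.four w hwZ)) e1 e2
      (D.rg hx) ht hxV (by simp) (Finset.card_eq_three.2 ⟨t, b, d, htb, htd, hbd,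
        rfl⟩)
    rw [lamT_eq ⟨htb, htd, hbd⟩, lamT_eq ⟨htb, htd, hbd⟩]
    have h2 : (({t, b, d} : Finset (Fin 6)) ⊆ {a, b', m, n}) ↔
        ({t, b, d} : Set (Fin 6)) ⊆ T V := by
      rw [hz.pal, ← Finset.coe_subset]
      simp
    rw [if_congr h2 rfl rfl] at h1
    rw [← h1]
    have : ∀ p q : ZMod 2, p = q + (p + q) := by decide
    exact this _ _
  rcases D.ch.two V a b' m n hz with e1 | e1 <;> rcases D'.ch.two V a b' m n hz with e2 | e2
  · exact absurd (e2.trans e1.symm) hne
  · exact key hz.swap e1 e2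
  · exact key hz e1 e2
  · exact absurd (e2.trans e1.symm) hne

open Classical in
/-- **Change of the resolution at a finite set** (any colour avoidable on the circle) -/
theorem DSt.index_setA (D : DSt U T Z f c R δ₀) (D' : DSt U T Z f' c R δ₀') (S : Finset ℂ)
    (hS : ∀ V ∈ S, (∃ a b m n, DPt T V a b m n) ∧ f' V ≠ f V) (hff : ∀ z, z ∉ S → f' z = f z)
    (hx : dist x c ≤ R - 1) (hSx : ∀ V ∈ S, dist V x < 1) (ht : Av T x t) (htb : t ≠ b)
    (htd : t ≠ d) (hbd : b ≠ d) :
    lamT T Z f' δ₀' t x b d = lamT T Z f δ₀ t x b d +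
      ∑ V ∈ S, (if ({t, b, d} : Set (Fin 6)) ⊆ T V then 1 else 0) := by
  induction S using Finset.induction_on generalizing f' δ₀' with
  | empty =>
    have hff' : f' = f := funext fun z => hff z (by simp)
    subst hff'
    rw [Finset.sum_empty, add_zero]
    rw [lamT_eq ⟨htb, htd, hbd⟩, lamT_eq ⟨htb, htd, hbd⟩]
    have hr := D.rg hx
    have hav := ht
    have p0 := D.hm.pos
    have p0' := D'.hm.pos
    rw [← D.hm.lam_eq (A := {t}) hr hav (δ := min (δ₀ / 2) (δ₀' / 2)) (lt_min (by linarith)
      (by linarith)) (min_le_left _ _) (D.hm.av hav _) (by simp),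
      ← D'.hm.lam_eq (A := {t}) hr hav (δ := min (δ₀ / 2) (δ₀' / 2)) (lt_min (by linarith)
      (by linarith)) (min_le_right _ _) (D'.hm.av hav _) (by simp)]
  | insert V S hVS ih =>
    have F : ChF T (fun z => if z = V then f z else f' z) := D.ch.update D'.ch _
    obtain ⟨δ₁, H₁⟩ := D.df.exists_Hm F D.zs
    have D₁ : DSt U T Z (fun z => if z = V then f z else f' z) c R δ₁ := ⟨D.df, F, D.zs, H₁⟩
    have h1 := ih (f' := fun z => if z = V then f z else f' z) (δ₀' := δ₁) D₁
      (fun W hW => by
        have hWV : W ≠ V := by rintro rfl; exact hVS hW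
        have := hS W (Finset.mem_insert_of_mem hW)
        simpa [hWV] using this)
      (fun z hz => by
        by_cases hzV : z = V
        · simp [hzV]
        · simp only [hzV, if_false]
          exact hff z (by simp [hzV, hz]))
      (fun W hW => hSx W (Finset.mem_insert_of_mem hW))
    have h2 := D₁.index_oneA (V := V) D' (hS V (Finset.mem_insert_self _ _)).1
      (by simpa using (hS V (Finset.mem_insert_self _ _)).2)
      (fun z hz => by simp [hz]) hx (hSx V (Finset.mem_insert_self _ _)) ht htb htd hbd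
    rw [h2, h1, Finset.sum_insert hVS]
    ring

open Classical in
/-- **Change of the resolution at a finite set** -/
theorem DSt.index_set (D : DSt U T Z f c R δ₀) (D' : DSt U T Z f' c R δ₀') (S : Finset ℂ)
    (hS : ∀ V ∈ S, (∃ a b m n, DPt T V a b m n) ∧ f' V ≠ f V) (hff : ∀ z, z ∉ S → f' z = f z)
    (hx : dist x c ≤ R - 1) (hSx : ∀ V ∈ S, dist V x < 1) (ht : t ∈ T x) (htb : t ≠ b)
    (htd : t ≠ d) (hbd : b ≠ d) :
    lamT T Z f' δ₀' t x b d = lamT T Z f δ₀ t x b d +
      ∑ V ∈ S, (if ({t, b, d} : Set (Fin 6)) ⊆ T V then 1 else 0) :=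
  D.index_setA D' S hS hff hx hSx (av_T D.df.irr ht) htb htd hbd

open Classical in
/-- the value at a face, if the number of toggled points is even -/
theorem DSt.toggle (D : DSt U T Z f c R δ₀) (hx : dist x c ≤ R - 1) (ht : Av T x t)
    (htb : t ≠ b) (htd : t ≠ d) (hbd : b ≠ d) (S : Finset ℂ)
    (hS : ∀ V ∈ S, (∃ a b m n, DPt T V a b m n) ∧ dist V x < 1 ∧
      ({t, b, d} : Set (Fin 6)) ⊆ T V)
    (hev : Even S.card)
    (hno : ∀ g δ₁, DSt U T Z g c R δ₁ → (∀ z ∈ S, g z = T z \ f z) → (∀ z, z ∉ S → g z = f z) →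
      lamT T Z g δ₁ t x b d = 0) :
    lamT T Z f δ₀ t x b d = 0 := by
  set g : ℂ → Set (Fin 6) := fun z => if z ∈ S then T z \ f z else f z with hg
  have F : ChF T g := D.ch.flip S fun V hV => (hS V hV).1
  obtain ⟨δ₁, H₁⟩ := D.df.exists_Hm F D.zs
  have D₁ : DSt U T Z g c R δ₁ := ⟨D.df, F, D.zs, H₁⟩
  have h1 := D.index_setA D₁ S (fun V hV => ⟨(hS V hV).1, fun hcon => by
      rw [hg] at hcon
      simp only [hV, if_true] at hcon
      obtain ⟨a, b', m, n, hz⟩ := (hS V hV).1
      obtain ⟨i, hi⟩ := Set.nonempty_of_ncard_ne_zero (s := f V) (by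
        have := (D.ch.circle D.df hz.ncard.ge).1
        omega)
      have hi' := hi
      rw [← hcon] at hi'
      exact hi'.2 hi⟩)
    (fun z hz => by simp [hg, hz]) hx (fun V hV => (hS V hV).2.1) ht htb htd hbd
  have h2 : lamT T Z g δ₁ t x b d = 0 := hno g δ₁ D₁ (fun z hz => by simp [hg, hz])
    (fun z hz => by simp [hg, hz])
  rw [h2, Finset.sum_congr rfl (fun V hV => if_pos (hS V hV).2.2)] at h1
  simp only [Finset.sum_const, nsmul_eq_mul, mul_one] at h1
  have h3 : ((S.card : ℕ) : ZMod 2) = 0 := by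
    obtain ⟨k, hk⟩ := hev
    rw [hk]
    push_cast
    exact CharTwo.add_self_eq_zero _
  rw [h3, add_zero] at h1
  exact h1.symm

open Classical in
/-- **The value at a face is zero** if the toggled points are even in number and there is no such
face with the new choice -/
theorem DSt.toggle_zero (D : DSt U T Z f c R δ₀) (hx : dist x c ≤ R - 1) (ht : t ∈ T x)
    (htb : t ≠ b) (htd : t ≠ d) (hbd : b ≠ d) (S : Finset ℂ)
    (hS : ∀ V ∈ S, (∃ a b m n, DPt T V a b m n) ∧ dist V x < 1 ∧
      ({t, b, d} : Set (Fin 6)) ⊆ T V ∧ T V \ f V ⊆ {t, b, d})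
    (hev : Even S.card)
    (hno : ∀ u ∈ closedBall x 1, u ∉ S → FcD T f u {t, b, d} →
      (∃ᶠ w in 𝓝[closedBall x 1 \ {u}] u, t ∈ T w) → False) :
    lamT T Z f δ₀ t x b d = 0 := by
  set g : ℂ → Set (Fin 6) := fun z => if z ∈ S then T z \ f z else f z with hg
  have F : ChF T g := D.ch.flip S fun V hV => (hS V hV).1
  obtain ⟨δ₁, H₁⟩ := D.df.exists_Hm F D.zs
  have D₁ : DSt U T Z g c R δ₁ := ⟨D.df, F, D.zs, H₁⟩
  have h1 := D.index_set D₁ S (fun V hV => ⟨(hS V hV).1, fun hcon => by
      rw [hg] at hcon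
      simp only [hV, if_true] at hcon
      obtain ⟨a, b', m, n, hz⟩ := (hS V hV).1
      obtain ⟨i, hi⟩ := Set.nonempty_of_ncard_ne_zero (s := f V) (by
        have := (D.ch.circle D.df hz.ncard.ge).1
        omega)
      have hi' := hi
      rw [← hcon] at hi'
      exact hi'.2 hi⟩)
    (fun z hz => by simp [hg, hz]) hx (fun V hV => (hS V hV).2.1) ht htb htd hbd
  have h2 : lamT T Z g δ₁ t x b d = 0 := by
    by_contra hne
    obtain ⟨u, hu, hF, hw⟩ := D₁.supp hx ht hne
    by_cases huS : u ∈ S
    · obtain ⟨⟨a, b', m, n, hz⟩, h3, h4, h5⟩ := hS u huS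
      refine hF.2 hz.ncard.ge ?_
      simp only [hg, huS, if_true]
      exact h5
    · refine hno u hu huS ⟨hF.1, ?_⟩ hw
      have := hF.2
      simpa [hg, huS] using this
  rw [h2, Finset.sum_congr rfl (fun V hV => if_pos (hS V hV).2.2.1)] at h1
  simp only [Finset.sum_const, nsmul_eq_mul, mul_one] at h1
  have h3 : ((S.card : ℕ) : ZMod 2) = 0 := by
    obtain ⟨k, hk⟩ := hev
    rw [hk]
    push_cast
    exact CharTwo.add_self_eq_zero _
  rw [h3, add_zero] at h1
  exact h1.symm

end Vale.Agent.P032.Six
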