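import Vale.Agent.P032.H538.State2
import Vale.Agent.P032.S5.H180.BaseH

/-!
# P032: recolouring inside a region of `U I` does not change the states

The sets `U i` may overlap, so `T` may use other colours than `I` inside a region `Q ⊆ U I`
(islands).  `recA` : the colour `I` added on the closed set `E ⊇ Q`; `recB` : moreover only the
colour `I` in `Q`.  `DSt.lam_recol` : `T` and `recB` have the same states.
-/

open Set Filter Topology Metric

noncomputable section

namespace Vale.Agent.P032.H492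

open Vale.Agent.P032.Six Vale.Agent.P032.S5 Vale.Agent.P032.Carr

/-- the colour `I` added on `E` -/
def recA (T : ℂ → Set (Fin 6)) (I : Fin 6) (E : Set ℂ) (x : ℂ) : Set (Fin 6) :=
  {i | (i = I ∧ x ∈ E) ∨ i ∈ T x}

/-- the colour `I` added on `E`, only this colour in `Q` -/
def recB (T : ℂ → Set (Fin 6)) (I : Fin 6) (E Q : Set ℂ) (x : ℂ) : Set (Fin 6) :=
  {i | (i = I ∧ x ∈ E) ∨ (i ∈ T x ∧ x ∉ Q)}

/-- the data of a region: `Q` open, in the closed set `E` and in `U I`; `I` is in the palettes of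
`E \ Q` -/
structure Reg (U : Fin 6 → Set ℂ) (T : ℂ → Set (Fin 6)) (I : Fin 6) (E Q : Set ℂ) : Prop where
  closed : IsClosed E
  opn : IsOpen Q
  sub : Q ⊆ E
  int : Q ⊆ U I
  bd : ∀ x ∈ E, x ∉ Q → I ∈ T x

variable {U : Fin 6 → Set ℂ} {T : ℂ → Set (Fin 6)} {I : Fin 6} {E Q : Set ℂ} {x : ℂ}

theorem Reg.recA_off (G : Reg U T I E Q) (hx : x ∉ Q) : recA T I E x = T x := by
  ext i
  constructor
  · rintro (⟨rfl, h1⟩ | h1)
    · exact G.bd x h1 hx
    · exact h1
  · exact fun h1 => Or.inr h1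

theorem Reg.recB_off (G : Reg U T I E Q) (hx : x ∉ Q) : recB T I E Q x = T x := by
  ext i
  constructor
  · rintro (⟨rfl, h1⟩ | h1)
    · exact G.bd x h1 hx
    · exact h1.1
  · exact fun h1 => Or.inr ⟨h1, hx⟩

theorem Reg.recB_on (G : Reg U T I E Q) (hx : x ∈ Q) : recB T I E Q x = {I} := by
  ext i
  constructor
  · rintro (⟨rfl, h1⟩ | h1)
    · rfl
    · exact absurd hx h1.2
  · rintro rfl
    exact Or.inl ⟨rfl, G.sub hx⟩

theorem Reg.recA_on (G : Reg U T I E Q) (hx : x ∈ Q) : recA T I E x = insert I (T x) := by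
  ext i
  constructor
  · rintro (⟨rfl, h1⟩ | h1)
    · exact mem_insert _ _
    · exact mem_insert_of_mem _ h1
  · rintro (rfl | h1)
    · exact Or.inl ⟨rfl, G.sub hx⟩
    · exact Or.inr h1

theorem recB_sub (T : ℂ → Set (Fin 6)) (I : Fin 6) (E Q : Set ℂ) (x : ℂ) :
    recB T I E Q x ⊆ recA T I E x := fun _ h1 => h1.imp id fun h2 => h2.1

theorem sub_recA (T : ℂ → Set (Fin 6)) (I : Fin 6) (E : Set ℂ) (x : ℂ) : T x ⊆ recA T I E x :=
  fun _ h1 => Or.inr h1

theorem Reg.closedA (h : Irr U T) (G : Reg U T I E Q) (i : Fin 6) :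
    IsClosed {x | i ∈ recA T I E x} := by
  by_cases hi : i = I
  · have : {x | i ∈ recA T I E x} = E ∪ {x | i ∈ T x} := by
      ext x
      simp [recA, hi]
    rw [this]
    exact G.closed.union (h.closed i)
  · have : {x | i ∈ recA T I E x} = {x | i ∈ T x} := by
      ext x
      simp [recA, hi]
    rw [this]
    exact h.closed i

theorem Reg.closedB (h : Irr U T) (G : Reg U T I E Q) (i : Fin 6) :
    IsClosed {x | i ∈ recB T I E Q x} := by
  by_cases hi : i = I
  · have : {x | i ∈ recB T I E Q x} = E ∪ ({x | i ∈ T x} ∩ Qᶜ) := by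
      ext x
      simp [recB, hi]
    rw [this]
    exact G.closed.union ((h.closed i).inter G.opn.isClosed_compl)
  · have : {x | i ∈ recB T I E Q x} = {x | i ∈ T x} ∩ Qᶜ := by
      ext x
      simp [recB, hi]
    rw [this]
    exact (h.closed i).inter G.opn.isClosed_compl

theorem exists_two (W : Set (Fin 6)) (h : W.ncard ≤ 2) : ∃ e f, W ⊆ {e, f} := by
  rcases h.lt_or_eq with h1 | h1
  · rcases (Nat.lt_succ_iff.1 h1).lt_or_eq with h2 | h2
    · have h3 : W.ncard = 0 := by omega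
      rw [Set.ncard_eq_zero (Set.toFinite _)] at h3
      exact ⟨0, 0, by rw [h3]; exact empty_subset _⟩
    · obtain ⟨e, rfl⟩ := Set.ncard_eq_one.1 h2
      exact ⟨e, e, by simp⟩
  · obtain ⟨e, f, -, rfl⟩ := Set.ncard_eq_two.1 h1
    exact ⟨e, f, Subset.rfl⟩

/-- a unit circle has at least three colours -/
theorem no_two_colours (h : Irr U T) (x : ℂ) (e f : Fin 6)
    (hS : ∀ y, dist y x = 1 → T y ⊆ {e, f}) : False := by
  have hcard : ∀ y, dist y x = 1 → (T y).ncard ≤ 3 := fun y hy => by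
    have h1 := Set.ncard_le_ncard (hS y hy) (Set.toFinite _)
    have h2 := Set.ncard_insert_le e ({f} : Set (Fin 6))
    rw [Set.ncard_singleton] at h2
    omega
  have hns : ∀ t : ℝ, ¬ T (H180.pt x t) ⊆ T (H180.pt x (t + 1)) := fun t =>
    h.not_sub (S5.H180.dist_pt_succ x t) (hcard _ (H180.dist_pt x _))
  have hns' : ∀ t : ℝ, ¬ T (H180.pt x (t + 1)) ⊆ T (H180.pt x t) := fun t =>
    h.not_sub (by rw [dist_comm]; exact S5.H180.dist_pt_succ x t) (hcard _ (H180.dist_pt x _))
  have hmem : ∀ y, dist y x = 1 → e ∈ T y ∨ f ∈ T y := fun y hy => by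
    obtain ⟨i, hi⟩ := h.ne y
    rcases hS y hy hi with rfl | h1
    · exact Or.inl hi
    · rw [mem_singleton_iff] at h1; subst h1; exact Or.inr hi
  have hA : ∃ y ∈ sphere x (1 : ℝ), e ∈ T y := by
    by_contra hcon
    push Not at hcon
    refine hns 0 fun i hi => ?_
    have h1 := hcon _ (H180.dist_pt x 0)
    have h2 := (hmem _ (H180.dist_pt x (0 + 1))).resolve_left (hcon _ (H180.dist_pt x (0 + 1)))
    rcases hS _ (H180.dist_pt x 0) hi with rfl | h3
    · exact absurd hi h1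
    · rw [mem_singleton_iff] at h3; subst h3; exact h2
  have hB : ∃ y ∈ sphere x (1 : ℝ), f ∈ T y := by
    by_contra hcon
    push Not at hcon
    refine hns 0 fun i hi => ?_
    have h1 := hcon _ (H180.dist_pt x 0)
    have h2 := (hmem _ (H180.dist_pt x (0 + 1))).resolve_right (hcon _ (H180.dist_pt x (0 + 1)))
    rcases hS _ (H180.dist_pt x 0) hi with rfl | h3
    · exact h2
    · rw [mem_singleton_iff] at h3; subst h3; exact absurd hi h1
  obtain ⟨y, hy, hye, hyf⟩ := isPreconnected_closed_iff.1 (isPreconnected_circle x)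
    {y | e ∈ T y} {y | f ∈ T y} (h.closed e) (h.closed f) (fun y hy => hmem y hy) hA hB
  obtain ⟨t, -, rfl⟩ := H180.exists_pt (mem_sphere.1 hy)
  refine hns' t ((hS _ (H180.dist_pt x (t + 1))).trans ?_)
  rintro i (rfl | h1)
  · exact hye
  · rw [mem_singleton_iff] at h1; subst h1; exact hyf

/-- in `U I` the palette together with `I` has at most three colours -/
theorem card_insert (h : Irr U T) (hx : x ∈ U I) : (insert I (T x)).ncard ≤ 3 := by
  by_contra hcon
  have hc : (insert I (T x))ᶜ.ncard ≤ 2 := by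
    have h1 := Set.ncard_add_ncard_compl (insert I (T x))
    rw [Nat.card_eq_fintype_card, Fintype.card_fin] at h1
    omega
  obtain ⟨e, f, hef⟩ := exists_two _ hc
  refine no_two_colours h x e f fun y hy i hi => hef fun hcon2 => ?_
  have hiU : x ∈ U i := by
    rcases hcon2 with rfl | h1
    · exact hx
    · exact h.off x (fun hX => hX I hx) i h1
  exact h.mx.notMem' hiU (by rw [dist_comm]; exact hy) (h.sub y hi)

/-- no four coloured point in `U I` -/
theorem not_four (hmn : Mn U T) (h : Irr U T) (hx : x ∈ U I) : (T x).ncard ≤ 3 := by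
  by_contra hcon
  obtain ⟨i, hi⟩ := h.ne x
  have hiU : x ∈ U i := h.off x (fun hX => hX I hx) i hi
  refine hmn x (by omega) {i} (by rintro j rfl; exact hi) ?_ ?_
  · intro h1
    rw [← h1, Set.ncard_singleton] at hcon
    omega
  · filter_upwards [(h.mx.isOpen i).mem_nhds hiU] with w hw
    exact ⟨i, rfl, Or.inl hw⟩

variable {f : ℂ → Set (Fin 6)} {Z : Set ℂ} {c : ℂ} {R δ₀ δ : ℝ} {t : Fin 6}
  {K K' : ℂ → Set (Fin 6)}

/-- monotonicity of the states -/
theorem lamH_mono (H : Hm K Z f δ₀) (H' : Hm K' Z f δ) (hsub : ∀ w, K w ⊆ K' w)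
    (hZ : ∀ z ∈ Z, K' z = K z) (hr : Rg K Z x) (hr' : Rg K' Z x) (ht : Av K x t)
    {s : Finset (Fin 6)} (hts : t ∈ s) : lamH K Z f δ₀ t x s = lamH K' Z f δ t x s := by
  have p0 := H.pos
  have p0' := H'.pos
  have ht' : Av K' x t := fun y hy => (ht y hy).imp fun b hb => ⟨hsub y hb.1, hb.2⟩
  have d0 : 0 < min (δ₀ / 2) (δ / 2) := lt_min (by linarith) (by linarith)
  rw [← H.lam_eq hr ht d0 (min_le_left _ _) (H.av ht _) hts,
    ← H'.lam_eq hr' ht' d0 (min_le_right _ _) (H'.av ht' _) hts]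
  refine lamS_mono (H.nice hr d0 (min_le_left _ _) _) (H'.nice hr' d0 (min_le_right _ _) _)
    (fun y _ i hi => ?_) (H.av ht _) hts
  rcases hi with ⟨h1, h2⟩ | ⟨z, hz, h1, h2⟩
  · exact Or.inl ⟨hsub y h1, h2⟩
  · refine Or.inr ⟨z, hz, h1, ?_⟩
    rw [← h2]
    unfold hp
    rw [hZ z hz]

theorem tendsto_shift (z p : ℂ) : Tendsto (fun w => p + (w - z)) (𝓝 z) (𝓝 p) := by
  have : Continuous fun w : ℂ => p + (w - z) := by fun_prop
  have h2 := this.tendsto z
  simpa using h2

theorem Reg.notQ (D : DSt U T Z f c R δ₀) (G : Reg U T I E Q) {z : ℂ} (hz : z ∈ Z) : z ∉ Q := by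
  intro hzQ
  have h1 := not_four D.df.mn D.df.irr (G.int hzQ)
  have h2 := D.hm.four z hz
  omega

/-- `Hm` for the enlarged cover -/
theorem Reg.hmA (D : DSt U T Z f c R δ₀) (G : Reg U T I E Q) : ∃ δ, Hm (recA T I E) Z f δ := by
  have h := D.df.irr
  have hp0 := D.hm.pos
  refine exists_Hm D.hm.compact (usc_of_closed fun i => G.closedA h i)
    (fun y => (h.ne y).imp fun i hi => Or.inr hi) (fun z hz => ?_) (fun z hz => D.hm.two z hz)
    (fun z hz i hi => Or.inr (D.hm.fsub z hz hi)) (fun z hz => ?_) (fun z hz => ?_)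
  · rw [G.recA_off (G.notQ D hz)]; exact D.hm.four z hz
  · obtain ⟨-, -, p, hp, hpJ⟩ := D.ch.circle D.df (D.zs.four z hz)
    have hpf : T p = f z := hpJ.self_of_nhdsWithin hp
    filter_upwards [closedBall_mem_nhds z hp0, (tendsto_shift z p).eventually (h.nhd p)] with
      w h1 h2 hwZ hf
    have h3 := D.hm.forb z hz w (mem_closedBall.1 h1) hwZ
    by_cases hwQ : w ∈ Q
    · rw [G.recA_on hwQ] at hf
      have hwI := G.int hwQ
      have hd : dist w (p + (w - z)) = 1 := by
        rw [dist_comm, dist_eq_norm] at hp ⊢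
        rw [← hp, ← norm_neg]; congr 1; ring
      obtain ⟨i, hi⟩ := h.ne (p + (w - z))
      have h4 : i ∈ insert I (T w) := hf (by rw [← hpf]; exact h2 hi)
      have hiU : w ∈ U i := by
        rcases h4 with rfl | h5
        · exact hwI
        · exact h.off w (fun hX => hX I hwI) i h5
      exact h.mx.notMem' hiU hd (h.sub _ hi)
    · rw [G.recA_off hwQ] at hf
      exact h3 hf
  · filter_upwards [closedBall_mem_nhds z hp0] with w h1 hwZ
    exact (D.hm.const z hz w hwZ (mem_closedBall.1 h1)).2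

/-- `Hm` for the recoloured cover -/
theorem Reg.hmB (D : DSt U T Z f c R δ₀) (G : Reg U T I E Q) : ∃ δ, Hm (recB T I E Q) Z f δ := by
  have h := D.df.irr
  obtain ⟨δ, H⟩ := G.hmA D
  have hp0 := H.pos
  have hp1 := D.hm.pos
  refine exists_Hm H.compact (usc_of_closed fun i => G.closedB h i)
    (fun y => ?_) (fun z hz => ?_) (fun z hz => H.two z hz)
    (fun z hz => ?_) (fun z hz => ?_) (fun z hz => ?_)
  · by_cases hy : y ∈ Q
    · exact ⟨I, Or.inl ⟨rfl, G.sub hy⟩⟩
    · exact (h.ne y).imp fun i hi => Or.inr ⟨hi, hy⟩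
  · rw [G.recB_off (G.notQ D hz)]; exact D.hm.four z hz
  · rw [G.recB_off (G.notQ D hz)]; exact D.hm.fsub z hz
  · filter_upwards [closedBall_mem_nhds z hp0] with w h1 hwZ hf
    exact H.forb z hz w (mem_closedBall.1 h1) hwZ (hf.trans (recB_sub _ _ _ _ _))
  · filter_upwards [closedBall_mem_nhds z hp1] with w h1 hwZ
    exact (D.hm.const z hz w hwZ (mem_closedBall.1 h1)).2

/-- **Recolouring does not change the states.** -/
theorem Reg.lam_recol (D : DSt U T Z f c R δ₀) (G : Reg U T I E Q) : ∃ δ,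
    Hm (recB T I E Q) Z f δ ∧ ∀ x, Rg T Z x → Rg (recB T I E Q) Z x ∧ ∀ t, Av T x t →
      Av (recB T I E Q) x t → ∀ b d, lamT T Z f δ₀ t x b d = lamT (recB T I E Q) Z f δ t x b d := by
  have h := D.df.irr
  obtain ⟨δA, HA⟩ := G.hmA D
  obtain ⟨δB, HB⟩ := G.hmB D
  refine ⟨δB, HB, fun x hr => ?_⟩
  have hrA : Rg (recA T I E) Z x := by
    intro u hu huZ
    by_cases huQ : u ∈ Q
    · rw [G.recA_on huQ]
      exact card_insert h (G.int huQ)
    · rw [G.recA_off huQ]
      exact hr u hu huZ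
  have hrB : Rg (recB T I E Q) Z x := fun u hu huZ =>
    (Set.ncard_le_ncard (recB_sub T I E Q u) (Set.toFinite _)).trans (hrA u hu huZ)
  refine ⟨hrB, fun t ht ht' b d => ?_⟩
  by_cases hnd : t ≠ b ∧ t ≠ d ∧ b ≠ d
  · rw [lamT_eq hnd, lamT_eq hnd]
    have e1 := lamH_mono D.hm HA (sub_recA T I E)
      (fun z hz => G.recA_off (G.notQ D hz)) hr hrA ht (s := {t, b, d}) (by simp)
    have e2 := lamH_mono HB HA (recB_sub T I E Q)
      (fun z hz => by rw [G.recA_off (G.notQ D hz), G.recB_off (G.notQ D hz)]) hrB hrA ht'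
      (s := {t, b, d}) (by simp)
    rw [e1, e2]
  · rw [lamT_ne hnd, lamT_ne hnd]

end Vale.Agent.P032.H492
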