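import Vale.Agent.P032.H98.AntiP
import Vale.Agent.P032.H484.HE

/-!
# P032: unit triangles of two-pair points, exactly two of them mixed

`V = (ab | cd)`, `y1` with the palette `{a, b, e, f}`, `y2` with the palette `{c, d, e, f}`, the common
pairs are no pairs of `y1`, `y2`.  The apex of `V`, `y1` is a limit of exact `cd`-points of `S(V)`, the
apex of `V`, `y2` is a limit of exact `ab`-points; they are antipodal.
-/

open Set Filter Topology Metric

noncomputable section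

namespace Vale.Agent.P032.H492

open Vale.Agent.P032.Six Vale.Agent.P032.S5.H767 Vale.Agent.P032.H460 Vale.Agent.P032.H484

variable {U : Fin 6 → Set ℂ} {T : ℂ → Set (Fin 6)} {V y y1 y2 p : ℂ} {a b c d e f : Fin 6}

/-- the apex of a pure point `V = (ab | cd)` and a mixed point `y = (ae | bf)` or `(af | be)` -/
theorem apex_mix492 (h : Irr U T) (hV : DPt T V a b c d) (hy : DPt T y a e b f ∨ DPt T y a f b e)
    (hc : c ∉ T y) (hd : d ∉ T y) (hyV : dist y V = 1) (hpV : dist p V = 1) (hpy : dist p y = 1)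
    (h3 : (T p).ncard ≤ 3) : p ∈ closure (Ex T V {c, d}) := by
  rcases hy with hy | hy
  · exact e1_apex h hy hV hc hd hyV hpy hpV h3
  · exact e1_apex h hy hV hc hd hyV hpy hpV h3

/-- **exactly two mixed** -/
theorem two492 (h : Irr U T) (nd : [a, b, c, d, e, f].Nodup) (hV : DPt T V a b c d)
    (hy1 : DPt T y1 a e b f ∨ DPt T y1 a f b e) (hy2 : DPt T y2 c e d f ∨ DPt T y2 c f d e)
    (d1 : dist y1 V = 1) (d2 : dist y2 V = 1) (d12 : dist y1 y2 = 1)
    (hp : (T (V + y1 - y2)).ncard ≤ 3) (hq : (T (V + y2 - y1)).ncard ≤ 3) : False := by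
  simp only [List.nodup_cons, List.mem_cons, List.not_mem_nil, or_false, not_or, List.nodup_nil,
    and_true, not_false_eq_true] at nd
  obtain ⟨⟨ab, ac, ad, ae, af⟩, ⟨bc, bd, be, bf⟩, ⟨cd, ce, cf⟩, ⟨de, df⟩, ef⟩ := nd
  have hc1 : c ∉ T y1 ∧ d ∉ T y1 := by
    rcases hy1 with hy | hy <;> rw [hy.pal] <;>
      simp only [mem_insert_iff, mem_singleton_iff, not_or]
    · exact ⟨⟨Ne.symm ac, ce, Ne.symm bc, cf⟩, Ne.symm ad, de, Ne.symm bd, df⟩
    · exact ⟨⟨Ne.symm ac, cf, Ne.symm bc, ce⟩, Ne.symm ad, df, Ne.symm bd, de⟩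
  have hc2 : a ∉ T y2 ∧ b ∉ T y2 := by
    rcases hy2 with hy | hy <;> rw [hy.pal] <;>
      simp only [mem_insert_iff, mem_singleton_iff, not_or]
    · exact ⟨⟨ac, ae, ad, af⟩, bc, be, bd, bf⟩
    · exact ⟨⟨ac, af, ad, ae⟩, bc, bf, bd, be⟩
  have d21 : dist y2 y1 = 1 := by rw [dist_comm]; exact d12
  have p1 : dist (V + y1 - y2) V = 1 := by
    rw [← d12, dist_eq_norm, dist_eq_norm]; congr 1; ring
  have p2 : dist (V + y1 - y2) y1 = 1 := by
    rw [← d2, dist_comm y2 V, dist_eq_norm, dist_eq_norm]; congr 1; ring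
  have q1 : dist (V + y2 - y1) V = 1 := by
    rw [← d21, dist_eq_norm, dist_eq_norm]; congr 1; ring
  have q2 : dist (V + y2 - y1) y2 = 1 := by
    rw [← d1, dist_comm y1 V, dist_eq_norm, dist_eq_norm]; congr 1; ring
  have h1 := apex_mix492 h hV hy1 hc1.1 hc1.2 d1 p1 p2 hp
  have h2 := apex_mix492 h hV.swap hy2 hc2.1 hc2.2 d2 q1 q2 hq
  have h3 := sub_of_closure h h1
  refine h.anti_clo hV p1 (h3 (by simp)) (h3 (by simp)) ?_
  rwa [show 2 * V - (V + y1 - y2) = V + y2 - y1 by ring]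

end Vale.Agent.P032.H492
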