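import Vale.Agent.P032.H273.TriNorm
import Vale.Agent.P032.H353.HM
import Vale.Agent.P032.H492.Mix2
import Vale.Agent.P032.H703.Mix

/-!
# P032: no unit triangle at an M vertex

`rowTri492 : RowHarm98 → RowTri98`.  By `tri_norm273` the palettes are `P + Q`, `P + R`, `Q + R` with
pairs of colours `P, Q, R`, and all three vertices are M points.  A vertex is pure if the common
colours are its pairs.  `pure492` : no link of two pure M points with an apex of order at most three
(`H353.HS353`).  Two mixed vertices and a pure one: `two492`; three mixed ones: `mix703`; the other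
triangles have two pure vertices.
-/

open Set Filter Topology Metric

noncomputable section

namespace Vale.Agent.P032.H492

open Vale.Agent.P032.Six Vale.Agent.P032.S5.H767 Vale.Agent.P032.H460 Vale.Agent.P032.H484
  Vale.Agent.P032.H800 Vale.Agent.P032.H98 Vale.Agent.P032.H273 Vale.Agent.P032.H353
  Vale.Agent.P032.H703

variable {U : Fin 6 → Set ℂ} {T : ℂ → Set (Fin 6)} {V y y1 y2 p : ℂ}
  {a b c d e f q r s u v x x' g g' : Fin 6}

theorem notf492 (M : Md98 T V a b c d e f) :
    (∀ x ∈ closure (Ex T V {a, b}), (T x).ncard ≤ 3 → f ∉ T x) ∧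
      ∀ x ∈ closure (Ex T V {c, d}), (T x).ncard ≤ 3 → f ∉ T x := by
  obtain ⟨⟨ab, ac, ad, ae, af⟩, ⟨bc, bd, be, bf⟩, ⟨cd, ce, cf⟩, ⟨de, df⟩, ef⟩ := nd_all353 M.nd
  constructor
  · intro x hx h3 hf
    rcases M.hA x hx h3 with h4 | h4 <;> rw [h4] at hf
    · rcases hf with h5 | h5
      · exact af h5.symm
      · exact bf h5.symm
    · rcases hf with h5 | h5 | h5
      · exact af h5.symm
      · exact bf h5.symm
      · exact ef h5.symm
  · intro x hx h3 hf
    rcases M.hC x hx h3 with h4 | h4 <;> rw [h4] at hf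
    · rcases hf with h5 | h5
      · exact cf h5.symm
      · exact df h5.symm
    · rcases hf with h5 | h5 | h5
      · exact cf h5.symm
      · exact df h5.symm
      · exact ef h5.symm

theorem hs492 (X : XC U T) (M : Md98 T V a b c d e f) (hy : DPt T y a b e f) (hyV : dist y V = 1)
    (hpV : dist p V = 1) (hp : p ∈ closure (Ex T y {e, f})) : False :=
  HS353.false (u := p) ⟨X.df.irr, X.df.mn, X.df.le4, M.dpt, hy, M.nd, hyV, hpV, hp, X.n3,
    (notf492 M).1, (notf492 M).2⟩

/-- **pure - pure**: a link of two M points with a common pair, one apex of order at most three -/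
theorem pure492 (X : XC U T) (M : Md98 T V a b c d e f) (h1 : DPt T y a b e f)
    (m1 : IsM273 T y a b e f) (hyV : dist y V = 1) (hpV : dist p V = 1) (hpy : dist p y = 1)
    (h3 : (T p).ncard ≤ 3) : False := by
  have hVy : dist V y = 1 := by rw [dist_comm]; exact hyV
  obtain ⟨heV, hfV⟩ := H961.free_notMem M.dpt M.nd
  rcases h_apex X.df.irr M.dpt h1 heV hfV hVy hpV hpy h3 with h | h
  · obtain ⟨g, g', M1⟩ := m1
    -- the free colours of `y` are `c`, `d`
    obtain ⟨hgy, hgy'⟩ := H961.free_notMem M1.dpt M1.nd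
    have hcd : ∀ i, i ∉ T y → i = c ∨ i = d := by
      intro i hi
      rw [h1.pal] at hi
      simp only [mem_insert_iff, mem_singleton_iff, not_or] at hi
      rcases M.all X i with k | k | k | k | k | k
      · exact absurd k hi.1
      · exact absurd k hi.2.1
      · exact Or.inl k
      · exact Or.inr k
      · exact absurd k hi.2.2.1
      · exact absurd k hi.2.2.2
    have hne : g ≠ g' := (nd_all353 M1.nd).2.2.2.2
    rcases hcd g hgy with k | k <;> rcases hcd g' hgy' with k' | k'
    · exact hne (k.trans k'.symm)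
    · subst k; subst k'
      exact hs492 X M1 M.dpt hVy hpy h
    · subst k; subst k'
      exact hs492 X M1 M.dpt.swap34 hVy hpy (by rw [Set.pair_comm]; exact h)
    · exact hne (k.trans k'.symm)
  · exact hs492 X M h1 hyV hpV h

/-- the pairings of four colours -/
theorem pairings492 {Pr : Fin 6 → Fin 6 → Fin 6 → Fin 6 → Prop}
    (s12 : ∀ {p q r s}, Pr p q r s → Pr q p r s) (s34 : ∀ {p q r s}, Pr p q r s → Pr p q s r)
    (sw : ∀ {p q r s}, Pr p q r s → Pr r s p q) {p q r s : Fin 6} (h : Pr p q r s)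
    (hn : [p, q, r, s].Nodup) (hn' : [x, x', g, g'].Nodup)
    (hS : ({p, q, r, s} : Set (Fin 6)) = {x, x', g, g'}) :
    Pr x x' g g' ∨ Pr x g x' g' ∨ Pr x g' x' g := by
  -- `x` in the first place
  have key : ∀ {q r s : Fin 6}, Pr x q r s → [x, q, r, s].Nodup →
      ({x, q, r, s} : Set (Fin 6)) = {x, x', g, g'} →
      Pr x x' g g' ∨ Pr x g x' g' ∨ Pr x g' x' g := by
    intro q r s h hn hS
    simp only [List.nodup_cons, List.mem_cons, List.not_mem_nil, or_false, not_or,
      List.nodup_nil, and_true, not_false_eq_true] at hn hn'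
    obtain ⟨⟨n1, n2, n3⟩, ⟨n4, n5⟩, n6⟩ := hn
    have hq : q ∈ ({x, x', g, g'} : Set (Fin 6)) := hS ▸ (by simp)
    have hr : r ∈ ({x, x', g, g'} : Set (Fin 6)) := hS ▸ (by simp)
    have hs : s ∈ ({x, x', g, g'} : Set (Fin 6)) := hS ▸ (by simp)
    simp only [mem_insert_iff, mem_singleton_iff] at hq hr hs
    rcases hq with hq | hq | hq | hq
    · exact absurd hq.symm n1
    · rcases hr with hr | hr | hr | hr
      · exact absurd hr.symm n2
      · exact absurd (hq.trans hr.symm) n4
      · rcases hs with hs | hs | hs | hs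
        · exact absurd hs.symm n3
        · exact absurd (hq.trans hs.symm) n5
        · exact absurd (hr.trans hs.symm) n6
        · subst hq; subst hr; subst hs; exact Or.inl h
      · rcases hs with hs | hs | hs | hs
        · exact absurd hs.symm n3
        · exact absurd (hq.trans hs.symm) n5
        · subst hq; subst hr; subst hs; exact Or.inl (s34 h)
        · exact absurd (hr.trans hs.symm) n6
    · rcases hr with hr | hr | hr | hr
      · exact absurd hr.symm n2
      · rcases hs with hs | hs | hs | hs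
        · exact absurd hs.symm n3
        · exact absurd (hr.trans hs.symm) n6
        · exact absurd (hq.trans hs.symm) n5
        · subst hq; subst hr; subst hs; exact Or.inr (Or.inl h)
      · exact absurd (hq.trans hr.symm) n4
      · rcases hs with hs | hs | hs | hs
        · exact absurd hs.symm n3
        · subst hq; subst hr; subst hs; exact Or.inr (Or.inl (s34 h))
        · exact absurd (hq.trans hs.symm) n5
        · exact absurd (hr.trans hs.symm) n6
    · rcases hr with hr | hr | hr | hr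
      · exact absurd hr.symm n2
      · rcases hs with hs | hs | hs | hs
        · exact absurd hs.symm n3
        · exact absurd (hr.trans hs.symm) n6
        · subst hq; subst hr; subst hs; exact Or.inr (Or.inr h)
        · exact absurd (hq.trans hs.symm) n5
      · rcases hs with hs | hs | hs | hs
        · exact absurd hs.symm n3
        · subst hq; subst hr; subst hs; exact Or.inr (Or.inr (s34 h))
        · exact absurd (hr.trans hs.symm) n6
        · exact absurd (hq.trans hs.symm) n5
      · exact absurd (hq.trans hr.symm) n4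
  have hx : x ∈ ({p, q, r, s} : Set (Fin 6)) := hS ▸ (by simp)
  simp only [mem_insert_iff, mem_singleton_iff] at hx
  have hn0 := hn
  simp only [List.nodup_cons, List.mem_cons, List.not_mem_nil, or_false, not_or,
    List.nodup_nil, and_true, not_false_eq_true] at hn0
  obtain ⟨⟨n1, n2, n3⟩, ⟨n4, n5⟩, n6⟩ := hn0
  rcases hx with hx | hx | hx | hx
  · subst hx; exact key h hn hS
  · subst hx
    refine key (s12 h) ?_ ?_
    · simp only [List.nodup_cons, List.mem_cons, List.not_mem_nil, or_false, not_or,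
        List.nodup_nil, and_true, not_false_eq_true]
      exact ⟨⟨Ne.symm n1, n4, n5⟩, ⟨n2, n3⟩, n6⟩
    · rw [← hS]; ext i; simp only [mem_insert_iff, mem_singleton_iff]; tauto
  · subst hx
    refine key (sw h) ?_ ?_
    · simp only [List.nodup_cons, List.mem_cons, List.not_mem_nil, or_false, not_or,
        List.nodup_nil, and_true, not_false_eq_true]
      exact ⟨⟨n6, Ne.symm n2, Ne.symm n4⟩, ⟨Ne.symm n3, Ne.symm n5⟩, n1⟩
    · rw [← hS]; ext i; simp only [mem_insert_iff, mem_singleton_iff]; tauto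
  · subst hx
    refine key (s12 (sw h)) ?_ ?_
    · simp only [List.nodup_cons, List.mem_cons, List.not_mem_nil, or_false, not_or,
        List.nodup_nil, and_true, not_false_eq_true]
      exact ⟨⟨Ne.symm n6, Ne.symm n3, Ne.symm n5⟩, ⟨Ne.symm n2, Ne.symm n4⟩, n1⟩
    · rw [← hS]; ext i; simp only [mem_insert_iff, mem_singleton_iff]; tauto

theorem m_swap12 (m : IsM273 T V a b c d) : IsM273 T V b a c d := by
  obtain ⟨e, f, M⟩ := m; exact ⟨e, f, M.swap12⟩

theorem m_swap34 (m : IsM273 T V a b c d) : IsM273 T V a b d c := by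
  obtain ⟨e, f, M⟩ := m; exact ⟨e, f, M.swap34⟩

theorem m_swap (m : IsM273 T V a b c d) : IsM273 T V c d a b := by
  obtain ⟨e, f, M⟩ := m; exact ⟨e, f, M.swap⟩

theorem m_dpt (m : IsM273 T V a b c d) : DPt T V a b c d := by
  obtain ⟨e, f, M⟩ := m; exact M.dpt

/-- the pairings of an M point -/
theorem m_pairings492 (m : IsM273 T y u q r s) (hn' : [x, x', g, g'].Nodup)
    (hT : T y = {x, x', g, g'}) :
    IsM273 T y x x' g g' ∨ IsM273 T y x g x' g' ∨ IsM273 T y x g' x' g := by
  have hD := m_dpt m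
  refine pairings492 (Pr := IsM273 T y) m_swap12 m_swap34 m_swap m ?_ hn' (by rw [← hT, hD.pal])
  have k1 := hD.ab; have k2 := hD.ac; have k3 := hD.ad; have k4 := hD.bc
  have k5 := hD.bd; have k6 := hD.cd
  simp only [List.nodup_cons, List.mem_cons, List.not_mem_nil, or_false, not_or,
    List.nodup_nil, and_true, not_false_eq_true]
  exact ⟨⟨k1, k2, k3⟩, ⟨k4, k5⟩, k6⟩

/-- the outer apex of a unit triangle has order at most three -/
theorem apex_ord492 (n3 : N3 T) (oV : 4 ≤ (T V).ncard) (o1 : 4 ≤ (T y1).ncard)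
    (o2 : 4 ≤ (T y2).ncard) (d1 : dist y1 V = 1) (d2 : dist y2 V = 1) (d12 : dist y1 y2 = 1) :
    (T (V + y1 - y2)).ncard ≤ 3 := by
  have hg1 : dist (V + y1 - y2) V = 1 := by
    rw [← d12, dist_eq_norm, dist_eq_norm]; congr 1; ring
  by_contra hcon
  push Not at hcon
  rcases n3 V y1 y2 (V + y1 - y2) oV d1 d2 hg1 o1 o2 hcon with k | k | k
  · rw [k, dist_self] at d12
    exact zero_ne_one d12
  · have : V = y2 := by linear_combination -k
    rw [this, dist_self] at d2
    exact zero_ne_one d2
  · have k1 : y1 - V = 2 * (y2 - V) := by linear_combination -k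
    have k2 : ‖y1 - V‖ = 2 * ‖y2 - V‖ := by rw [k1, norm_mul]; norm_num
    rw [← dist_eq_norm, ← dist_eq_norm, d1, d2] at k2
    norm_num at k2

theorem ne492 (d12 : dist y1 y2 = 1) : y1 ≠ y2 := by
  rintro rfl
  rw [dist_self] at d12
  exact zero_ne_one d12

theorem ne2_492 (d1 : dist y1 V = 1) (d2 : dist y2 V = 1) (d12 : dist y1 y2 = 1) :
    y1 + y2 ≠ 2 * V := by
  intro k
  have k1 : y1 - y2 = 2 * (y1 - V) := by linear_combination -k
  have k2 : ‖y1 - y2‖ = 2 * ‖y1 - V‖ := by rw [k1, norm_mul]; norm_num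
  rw [← dist_eq_norm, ← dist_eq_norm, d1, d12] at k2
  norm_num at k2

/-- **the triangle, `V` pure** -/
theorem pureV492 (X : XC U T) (M : Md98 T V a b c d e f) (m1 : IsM273 T y1 u q r s)
    {p2 q2 r2 s2 : Fin 6} (m2 : IsM273 T y2 p2 q2 r2 s2) (hT1 : T y1 = {a, b, e, f})
    (hT2 : T y2 = {c, d, e, f}) (d1 : dist y1 V = 1) (d2 : dist y2 V = 1)
    (d12 : dist y1 y2 = 1) : False := by
  have oV : 4 ≤ (T V).ncard := M.dpt.ncard.ge
  have o1 : 4 ≤ (T y1).ncard := (m_dpt m1).ncard.ge
  have o2 : 4 ≤ (T y2).ncard := (m_dpt m2).ncard.ge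
  have d21 : dist y2 y1 = 1 := by rw [dist_comm]; exact d12
  have hp := apex_ord492 X.n3 oV o1 o2 d1 d2 d12
  have hq := apex_ord492 X.n3 oV o2 o1 d2 d1 d21
  obtain ⟨⟨ab, ac, ad, ae, af⟩, ⟨bc, bd, be, bf⟩, ⟨cd, ce, cf⟩, ⟨de, df⟩, ef⟩ := nd_all353 M.nd
  have p1 : dist (V + y1 - y2) V = 1 := by
    rw [← d12, dist_eq_norm, dist_eq_norm]; congr 1; ring
  have p2' : dist (V + y1 - y2) y1 = 1 := by
    rw [← d2, dist_comm y2 V, dist_eq_norm, dist_eq_norm]; congr 1; ring
  have q1 : dist (V + y2 - y1) V = 1 := by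
    rw [← d21, dist_eq_norm, dist_eq_norm]; congr 1; ring
  have q2' : dist (V + y2 - y1) y2 = 1 := by
    rw [← d1, dist_comm y1 V, dist_eq_norm, dist_eq_norm]; congr 1; ring
  have c1 := m_pairings492 m1 (x := a) (x' := b) (g := e) (g' := f)
    (by simp only [List.nodup_cons, List.mem_cons, List.not_mem_nil, or_false, not_or,
          List.nodup_nil, and_true, not_false_eq_true]
        exact ⟨⟨ab, ae, af⟩, ⟨be, bf⟩, ef⟩) hT1
  have c2 := m_pairings492 m2 (x := c) (x' := d) (g := e) (g' := f)
    (by simp only [List.nodup_cons, List.mem_cons, List.not_mem_nil, or_false, not_or,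
          List.nodup_nil, and_true, not_false_eq_true]
        exact ⟨⟨cd, ce, cf⟩, ⟨de, df⟩, ef⟩) hT2
  rcases c1 with c1 | c1
  · exact pure492 X M (m_dpt c1) c1 d1 p1 p2' hp
  rcases c2 with c2 | c2
  · exact pure492 X M.swap (m_dpt c2) c2 d2 q1 q2' hq
  exact two492 X.df.irr M.nd M.dpt (c1.imp m_dpt m_dpt) (c2.imp m_dpt m_dpt) d1 d2 d12 hp hq

/-- **the triangle, `V` mixed** -/
theorem mixV492 (X : XC U T) (M : Md98 T V a b c d e f) (m1 : IsM273 T y1 u q r s)
    {p2 q2 r2 s2 : Fin 6} (m2 : IsM273 T y2 p2 q2 r2 s2) (hT1 : T y1 = {a, c, e, f})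
    (hT2 : T y2 = {b, d, e, f}) (d1 : dist y1 V = 1) (d2 : dist y2 V = 1)
    (d12 : dist y1 y2 = 1) : False := by
  have h := X.df.irr
  have oV : 4 ≤ (T V).ncard := M.dpt.ncard.ge
  have o1 : 4 ≤ (T y1).ncard := (m_dpt m1).ncard.ge
  have o2 : 4 ≤ (T y2).ncard := (m_dpt m2).ncard.ge
  have d21 : dist y2 y1 = 1 := by rw [dist_comm]; exact d12
  have d1' : dist V y1 = 1 := by rw [dist_comm]; exact d1
  have d2' : dist V y2 = 1 := by rw [dist_comm]; exact d2
  obtain ⟨⟨ab, ac, ad, ae, af⟩, ⟨bc, bd, be, bf⟩, ⟨cd, ce, cf⟩, ⟨de, df⟩, ef⟩ := nd_all353 M.nd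
  have c1 := m_pairings492 m1 (x := a) (x' := c) (g := e) (g' := f)
    (by simp only [List.nodup_cons, List.mem_cons, List.not_mem_nil, or_false, not_or,
          List.nodup_nil, and_true, not_false_eq_true]
        exact ⟨⟨ac, ae, af⟩, ⟨ce, cf⟩, ef⟩) hT1
  have c2 := m_pairings492 m2 (x := b) (x' := d) (g := e) (g' := f)
    (by simp only [List.nodup_cons, List.mem_cons, List.not_mem_nil, or_false, not_or,
          List.nodup_nil, and_true, not_false_eq_true]
        exact ⟨⟨bd, be, bf⟩, ⟨de, df⟩, ef⟩) hT2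
  rcases c1 with c1 | c1
  · -- `y1` pure
    rcases c2 with c2 | c2
    · -- `y2` pure: the link `y1`, `y2`
      have hw := apex_ord492 X.n3 o1 o2 oV d21 d1' d2
      have w1 : dist (y1 + y2 - V) y1 = 1 := by
        rw [← d2, dist_eq_norm, dist_eq_norm]; congr 1; ring
      have w2 : dist (y1 + y2 - V) y2 = 1 := by
        rw [← d1, dist_eq_norm, dist_eq_norm]; congr 1; ring
      obtain ⟨g, g', M1⟩ := c1
      obtain ⟨hg, hg'⟩ := H961.free_notMem M1.dpt M1.nd
      have hne : g ≠ g' := (nd_all353 M1.nd).2.2.2.2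
      have hbd : ∀ i, i ∉ T y1 → i = b ∨ i = d := by
        intro i hi
        rw [hT1] at hi
        simp only [mem_insert_iff, mem_singleton_iff, not_or] at hi
        rcases M.all X i with k | k | k | k | k | k
        · exact absurd k hi.1
        · exact Or.inl k
        · exact absurd k hi.2.1
        · exact Or.inr k
        · exact absurd k hi.2.2.1
        · exact absurd k hi.2.2.2
      rcases hbd g hg with k | k <;> rcases hbd g' hg' with k' | k'
      · exact hne (k.trans k'.symm)
      · subst k; subst k'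
        exact pure492 X M1.swap (m_dpt c2).swap (m_swap c2) d21 w1 w2 hw
      · subst k; subst k'
        exact pure492 X M1.swap (m_dpt c2).swap.swap34 (m_swap34 (m_swap c2)) d21 w1 w2 hw
      · exact hne (k.trans k'.symm)
    · -- `y2` mixed
      have k1 := apex_ord492 X.n3 o1 oV o2 d1' d21 d2'
      have k2 := apex_ord492 X.n3 o1 o2 oV d21 d1' d2
      refine two492 h (a := a) (b := c) (c := e) (d := f) (e := b) (f := d) (V := y1) (y1 := V)
        (y2 := y2) ?_ (m_dpt c1) (Or.inl M.dpt) ?_ d1' d21 d2' k1 k2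
      · simp only [List.nodup_cons, List.mem_cons, List.not_mem_nil, or_false, not_or,
          List.nodup_nil, and_true, not_false_eq_true]
        exact ⟨⟨ac, ae, af, ab, ad⟩, ⟨ce, cf, Ne.symm bc, cd⟩, ⟨ef, Ne.symm be, Ne.symm de⟩,
          ⟨Ne.symm bf, Ne.symm df⟩, bd⟩
      · rcases c2 with c2 | c2
        · exact Or.inl (m_dpt c2).swap12.swap34
        · exact Or.inr (m_dpt c2).swap.swap12.swap34
  · -- `y1` mixed
    rcases c2 with c2 | c2
    · -- `y2` pure
      have k1 := apex_ord492 X.n3 o2 oV o1 d2' d12 d1'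
      have k2 := apex_ord492 X.n3 o2 o1 oV d12 d2' d1
      refine two492 h (a := b) (b := d) (c := e) (d := f) (e := a) (f := c) (V := y2) (y1 := V)
        (y2 := y1) ?_ (m_dpt c2) (Or.inl M.dpt.swap12.swap34) ?_ d2' d12 d1' k1 k2
      · simp only [List.nodup_cons, List.mem_cons, List.not_mem_nil, or_false, not_or,
          List.nodup_nil, and_true, not_false_eq_true]
        exact ⟨⟨bd, be, bf, Ne.symm ab, bc⟩, ⟨de, df, Ne.symm ad, Ne.symm cd⟩,
          ⟨ef, Ne.symm ae, Ne.symm ce⟩, ⟨Ne.symm af, Ne.symm cf⟩, ac⟩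
      · rcases c1 with c1 | c1
        · exact Or.inl (m_dpt c1).swap12.swap34
        · exact Or.inr (m_dpt c1).swap.swap12.swap34
    · exact mix703 h M.dpt M.nd d1 d2 (ne492 d12) (ne2_492 d1 d2 d12) (c1.imp m_dpt m_dpt)
        (c2.imp m_dpt m_dpt)

/-- **row (T), two-pair points** -/
theorem tri_two492 (X : XC U T) (M : Md98 T V a b c d e f) (h1 : DPt T y1 u q r s)
    {p2 q2 r2 s2 : Fin 6} (h2 : DPt T y2 p2 q2 r2 s2) (d1 : dist y1 V = 1)
    (d2 : dist y2 V = 1) (d12 : dist y1 y2 = 1) : False := by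
  obtain ⟨m1, m2, n0, n1, n2⟩ := tri_norm273 X M d1 d2 d12 h1 h2
  obtain ⟨heV, hfV⟩ := H961.free_notMem M.dpt M.nd
  obtain ⟨e1, e2⟩ := n0 e heV
  obtain ⟨f1, f2⟩ := n0 f hfV
  have ef : e ≠ f := (nd_all353 M.nd).2.2.2.2
  -- the missing colours of `y1`, `y2`
  obtain ⟨z, z', hz⟩ := h1.exists_nodup
  obtain ⟨x, x', hx⟩ := h2.exists_nodup
  obtain ⟨z1, z1'⟩ := H961.free_notMem h1 hz
  obtain ⟨x2, x2'⟩ := H961.free_notMem h2 hx
  obtain ⟨zV, z2⟩ := n1 z z1
  obtain ⟨zV', z2'⟩ := n1 z' z1'
  obtain ⟨xV, x1⟩ := n2 x x2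
  obtain ⟨xV', x1'⟩ := n2 x' x2'
  have hzz : z ≠ z' := (nd_all353 hz).2.2.2.2
  have hxx : x ≠ x' := (nd_all353 hx).2.2.2.2
  have ne_of : ∀ {i j : Fin 6} {w : ℂ}, i ∈ T w → j ∉ T w → i ≠ j := by
    rintro i j w hi hj rfl; exact hj hi
  have hT1 : T y1 = {x, x', e, f} := by
    refine four_eq273 h1.ncard.le x1 x1' e1 f1 ?_
    simp only [List.nodup_cons, List.mem_cons, List.not_mem_nil, or_false, not_or,
      List.nodup_nil, and_true, not_false_eq_true]
    exact ⟨⟨hxx, ne_of xV heV, ne_of xV hfV⟩, ⟨ne_of xV' heV, ne_of xV' hfV⟩, ef⟩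
  have hT2 : T y2 = {z, z', e, f} := by
    refine four_eq273 h2.ncard.le z2 z2' e2 f2 ?_
    simp only [List.nodup_cons, List.mem_cons, List.not_mem_nil, or_false, not_or,
      List.nodup_nil, and_true, not_false_eq_true]
    exact ⟨⟨hzz, ne_of zV heV, ne_of zV hfV⟩, ⟨ne_of zV' heV, ne_of zV' hfV⟩, ef⟩
  have xz : x ≠ z := ne_of x1 z1
  have xz' : x ≠ z' := ne_of x1 z1'
  have x'z : x' ≠ z := ne_of x1' z1
  have x'z' : x' ≠ z' := ne_of x1' z1'
  -- `x` in the first place
  have key : ∀ {b c d : Fin 6}, Md98 T V x b c d e f → False := by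
    intro b c d M
    have hV := M.dpt.pal
    have cs : ∀ i, i ∈ T V → i = x ∨ i = b ∨ i = c ∨ i = d := by
      intro i hi
      rw [hV] at hi
      simpa only [mem_insert_iff, mem_singleton_iff] using hi
    -- `x'` in the third place
    have key2 : ∀ {b c d : Fin 6}, Md98 T V x b c d e f → x' = c → False := by
      intro b c d M hc
      subst hc
      have cs : ∀ i, i ∈ T V → i = x ∨ i = b ∨ i = x' ∨ i = d := by
        intro i hi
        rw [M.dpt.pal] at hi
        simpa only [mem_insert_iff, mem_singleton_iff] using hi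
      have hT2' : T y2 = {b, d, e, f} := by
        rcases cs z zV with k | k | k | k
        · exact absurd k.symm xz
        · rcases cs z' zV' with k' | k' | k' | k'
          · exact absurd k'.symm xz'
          · exact absurd (k.trans k'.symm) hzz
          · exact absurd k'.symm x'z'
          · rw [hT2, k, k']
        · exact absurd k.symm x'z
        · rcases cs z' zV' with k' | k' | k' | k'
          · exact absurd k'.symm xz'
          · rw [hT2, k, k']; ext i; simp only [mem_insert_iff, mem_singleton_iff]; tauto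
          · exact absurd k'.symm x'z'
          · exact absurd (k.trans k'.symm) hzz
      exact mixV492 X M m1 m2 hT1 hT2' d1 d2 d12
    rcases cs x' xV' with hb | hb | hb | hb
    · exact hxx hb.symm
    · -- `V` pure
      subst hb
      have hT2' : T y2 = {c, d, e, f} := by
        rcases cs z zV with k | k | k | k
        · exact absurd k.symm xz
        · exact absurd k.symm x'z
        · rcases cs z' zV' with k' | k' | k' | k'
          · exact absurd k'.symm xz'
          · exact absurd k'.symm x'z'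
          · exact absurd (k.trans k'.symm) hzz
          · rw [hT2, k, k']
        · rcases cs z' zV' with k' | k' | k' | k'
          · exact absurd k'.symm xz'
          · exact absurd k'.symm x'z'
          · rw [hT2, k, k']; ext i; simp only [mem_insert_iff, mem_singleton_iff]; tauto
          · exact absurd (k.trans k'.symm) hzz
      exact pureV492 X M m1 m2 hT1 hT2' d1 d2 d12
    · exact key2 M hb
    · exact key2 M.swap34 hb
  have hxV := xV
  rw [M.dpt.pal] at hxV
  rcases hxV with k | k | k | k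
  · subst k; exact key M
  · subst k; exact key M.swap12
  · subst k; exact key M.swap
  · rw [mem_singleton_iff] at k
    subst k; exact key M.swap.swap12

/-- **row (T)** -/
theorem rowTri492 (hH : RowHarm98) : RowTri98 := by
  intro U T X V a b c d e f M y1 y2 d1 d2 d12 o1 o2
  rcases X.df.harm_or (z := y1) o1 with ⟨A, hA⟩ | ⟨p, q, r, s, h1⟩
  · exact hH U T X V a b c d e f M y1 d1 A hA
  rcases X.df.harm_or (z := y2) o2 with ⟨A, hA⟩ | ⟨p2, q2, r2, s2, h2⟩
  · exact hH U T X V a b c d e f M y2 d2 A hA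
  exact tri_two492 X M h1 h2 d1 d2 d12

end Vale.Agent.P032.H492
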