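import Vale.Agent.P032.H460.MFlip
import Vale.Agent.P032.H862.HarmTop
import Vale.Agent.P032.H492.TriTop
import Vale.Agent.P032.H273.RowK
import Vale.Agent.P032.H636.ERow
import Vale.Agent.P032.H353.Corner2

/-!
# P032: the rows of the degree theorem without complementary palettes, all proved

`rowHarm492 : RowHarm98`, `rowTri98_492 : RowTri98`, `rowMC492 : RowMC`.
-/

open Set Filter Topology Metric

noncomputable section

namespace Vale.Agent.P032.H492

open Vale.Agent.P032.Six Vale.Agent.P032.H98 Vale.Agent.P032.H460 Vale.Agent.P032.H862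

/-- **row (HA)** -/
theorem rowHarm492 : RowHarm98 :=
  rowHarm862 (fun _ _ X _ _ _ _ _ _ _ M _ hy h4 hA hC => excE460 X M hy h4 hA hC)
    (fun _ _ X _ _ _ _ _ _ _ M _ hy h4 hC => excK460 X M hy h4 hC)

/-- **row (T)** -/
theorem rowTri98_492 : RowTri98 := rowTri492 rowHarm492

/-- **row M** -/
theorem rowMC492 : H800.RowMC :=
  rowMC98 rowTri98_492 rowHarm492 H273.rowK98 H636.rowE98_636 (H353.rowH353 rowTri98_492)

end Vale.Agent.P032.H492
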