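import Vale.Agent.P032.H169.Full
import Vale.Agent.P032.H809.Side
import Vale.Agent.P032.S5.H824.Two

/-!
# P032: at most two points of the palette of `z` on the circle about a two-pair point `z`

`Irr.j_sides` : at such a point the circle `S(z)` goes from an exact `ab`-arc to an exact `cd`-arc.
`Irr.j_opp` : such points are never opposite.
`Irr.j_turn` : two such points on different lines have opposite orientations.
`Irr.two_J` : there are at most two of them.
-/

open Set Filter Topology Metric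

noncomputable section

namespace Vale.Agent.P032.Six

variable {U : Fin 6 → Set ℂ} {T : ℂ → Set (Fin 6)}

/-- an exact pair on `S(z)` inside the palette of a two-pair point is one of the two pairs -/
theorem Irr.pair_eq492 (h : Irr U T) {z q : ℂ} {a b c d x y : Fin 6} (hz : DPt T z a b c d)
    (hq : dist q z = 1) (hxy : x ≠ y) (hx : x ∈ T z) (hy : y ∈ T z) (hT : T q = {x, y}) :
    T q = {a, b} ∨ T q = {c, d} := by
  have h1 := h.arc_of_eq hxy hx hy hq hT
  refine h.twoPairs hz q hq (h1.2.mono fun q' hq' => by rw [hq', hT]) ?_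
  rw [hT]
  rintro i (rfl | hi)
  · exact hx
  · rw [mem_singleton_iff] at hi; subst hi; exact hy

/-- at a point of `S(z)` with the palette of the two-pair point `z` the circle goes from an exact
`ab`-arc to an exact `cd`-arc -/
theorem Irr.j_sides (h : Irr U T) {z v : ℂ} {a b c d : Fin 6} (hz : DPt T z a b c d)
    (hv : dist v z = 1) (hT : T v = T z) : ∃ τ : ℝ, (τ = 1 ∨ τ = -1) ∧
      (∀ᶠ t : ℝ in 𝓝[>] 0, T (hb z v τ t) = {a, b}) ∧
      ∀ᶠ t : ℝ in 𝓝[>] 0, T (hb z v (-τ) t) = {c, d} := by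
  obtain ⟨p, q, r, s, hD⟩ := h.dpt_of_eq169 ⟨a, b, c, d, hz⟩ hv hT
  have key : ∀ x y x' y' : Fin 6, T z = {x, y, x', y'} → x ≠ y → x' ≠ y' → x ≠ x' → x ≠ y' →
      Gm T z v x y x' y' → ∃ τ : ℝ, (τ = 1 ∨ τ = -1) ∧
      (∀ᶠ t : ℝ in 𝓝[>] 0, T (hb z v τ t) = {a, b}) ∧
      ∀ᶠ t : ℝ in 𝓝[>] 0, T (hb z v (-τ) t) = {c, d} := by
    intro x y x' y' hP hxy hxy' h1 h2 hG
    have mx : x ∈ T z := by rw [hP]; simp
    have my : y ∈ T z := by rw [hP]; simp
    have mx' : x' ∈ T z := by rw [hP]; simp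
    have my' : y' ∈ T z := by rw [hP]; simp
    have e1 := h.hb_exact hv hG.1 (h.sub z mx) (h.sub z my)
    have e2 := h.hb_exact hv hG.2 (h.sub z mx') (h.sub z my')
    obtain ⟨q1, hq1, hT1⟩ := hb_exists hv e1
    obtain ⟨q2, hq2, hT2⟩ := hb_exists hv e2
    have d1 := h.pair_eq492 hz hq1 hxy mx my hT1
    have d2 := h.pair_eq492 hz hq2 hxy' mx' my' hT2
    rw [hT1] at d1
    rw [hT2] at d2
    have hne : ({x, y} : Set (Fin 6)) ≠ {x', y'} := by
      intro e
      have : x ∈ ({x', y'} : Set (Fin 6)) := by rw [← e]; simp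
      rcases this with h3 | h3
      · exact h1 h3
      · exact h2 h3
    rcases d1 with d1 | d1 <;> rcases d2 with d2 | d2
    · exact absurd (d1.trans d2.symm) hne
    · exact ⟨1, Or.inl rfl, by rw [← d1]; exact e1, by rw [← d2]; exact e2⟩
    · exact ⟨-1, Or.inr rfl, by rw [← d2]; exact e2, by rw [neg_neg, ← d1]; exact e1⟩
    · exact absurd (d1.trans d2.symm) hne
  have hp : T z = {p, q, r, s} := by rw [← hT, hD.pal]
  rcases h.germ_branch hD hv with hG | hG | hG | hG
  · refine key p r q s ?_ hD.ac hD.bd hD.ab hD.ad hG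
    rw [hp]; ext x; simp only [mem_insert_iff, mem_singleton_iff]; tauto
  · refine key p s q r ?_ hD.ad hD.bc hD.ab hD.ac hG
    rw [hp]; ext x; simp only [mem_insert_iff, mem_singleton_iff]; tauto
  · refine key q r p s ?_ hD.bc hD.ad hD.ab.symm hD.bd hG
    rw [hp]; ext x; simp only [mem_insert_iff, mem_singleton_iff]; tauto
  · refine key q s p r ?_ hD.bd hD.ac hD.ab.symm hD.bc hG
    rw [hp]; ext x; simp only [mem_insert_iff, mem_singleton_iff]; tauto

theorem cis_ne_one492 {s : ℝ} (h1 : 0 < |s|) (h2 : |s| < Real.pi) : cis s ≠ 1 := by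
  intro h3
  have h4 : Real.cos s = 1 := by rw [← cis_re, h3]; simp
  have h5 : Real.cos |s| = 1 := by rw [Real.cos_abs]; exact h4
  have h6 := Real.cos_lt_cos_of_nonneg_of_le_pi le_rfl h2.le h1
  rw [Real.cos_zero] at h6
  linarith

theorem cis_ne_neg_one492 {s : ℝ} (h2 : |s| < Real.pi) : cis s ≠ -1 := by
  intro h3
  have h4 : Real.cos s = -1 := by rw [← cis_re, h3]; simp
  have h5 : Real.cos |s| = -1 := by rw [Real.cos_abs]; exact h4
  have h6 := Real.cos_lt_cos_of_nonneg_of_le_pi (abs_nonneg s) le_rfl h2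
  rw [Real.cos_pi] at h6
  linarith

/-- an exact `ab`-arc of `S(z)` at `z + (v - z) cis s`: the point `2 z - v + (v - z) cis s` of
`S(2 z - v)` has neither `a` nor `b` -/
theorem Irr.no_par492 (h : Irr U T) {z v : ℂ} {P : Set (Fin 6)} {s : ℝ} (hv : dist v z = 1)
    (h0 : 0 < |s|) (h1 : |s| < Real.pi) (hx : Arc T z (z + (v - z) * cis s) P) {i : Fin 6}
    (hi : i ∈ P) : i ∉ T (2 * z - v + (v - z) * cis s) := by
  intro hiw
  have hvz : v - z ≠ 0 := by
    intro h2
    rw [sub_eq_zero] at h2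
    rw [h2, dist_self] at hv
    norm_num at hv
  have hd : dist (z + (v - z) * cis s) (2 * z - v + (v - z) * cis s) = 1 := by
    rw [dist_eq_norm, show z + (v - z) * cis s - (2 * z - v + (v - z) * cis s) = v - z by ring,
      ← dist_eq_norm]
    exact hv
  rcases h.third hx.1 (hx.2.mono fun q hq => by rw [hq]; exact hi) hd hiw with h2 | h2
  · have h3 : (v - z) * (cis s - 1) = 0 := by linear_combination h2
    rcases mul_eq_zero.1 h3 with h4 | h4
    · exact hvz h4
    · exact cis_ne_one492 h0 h1 (by linear_combination h4)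
  · have h3 : (v - z) * (cis s + 1) = 0 := by linear_combination -h2
    rcases mul_eq_zero.1 h3 with h4 | h4
    · exact hvz h4
    · exact cis_ne_neg_one492 h1 (by linear_combination h4)

theorem small492 : ∀ᶠ t : ℝ in 𝓝[>] 0, 0 < t ∧ t < Real.pi := by
  filter_upwards [self_mem_nhdsWithin, mem_nhdsWithin_of_mem_nhds (Iio_mem_nhds Real.pi_pos)]
    with t h1 h2
  exact ⟨h1, h2⟩

theorem abs_sign492 {τ t : ℝ} (hτ : τ = 1 ∨ τ = -1) (ht : 0 < t) : |τ * t| = t := by
  rcases hτ with rfl | rfl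
  · rw [one_mul, abs_of_pos ht]
  · rw [neg_one_mul, abs_neg, abs_of_pos ht]

/-- two opposite points of `S(z)` do not both have the palette of the two-pair point `z` -/
theorem Irr.j_opp (h : Irr U T) {z v : ℂ} {a b c d : Fin 6} (hz : DPt T z a b c d)
    (hv : dist v z = 1) (hT : T v = T z) (hT' : T (2 * z - v) = T z) : False := by
  obtain ⟨τ, hτ, h1, -⟩ := h.j_sides hz hv hT
  have hvz : dist z (2 * z - v) = 1 := by
    rw [dist_eq_norm, show z - (2 * z - v) = v - z by ring, ← dist_eq_norm]; exact hv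
  -- the circle about `2 z - v` at `z`
  have e0 : ∀ t, hb (2 * z - v) z τ t = 2 * z - v + (v - z) * cis (τ * t) := by
    intro t; rw [hb]; ring
  have key : ∀ x y x' y' : Fin 6, (a = x ∨ a = x' ∨ b = x ∨ b = x') → (a = x ∨ a = y ∨ b = x ∨ b = y) →
      (a = x' ∨ a = y' ∨ b = x' ∨ b = y') → x ∈ T z → y ∈ T z → x' ∈ T z → y' ∈ T z →
      Gm T (2 * z - v) z x y x' y' → False := by
    intro x y x' y' _ hxy hxy' mx my mx' my' hG
    have hpal : ∀ i, i ∈ T z → i ∈ Pal U (2 * z - v) := fun i hi => h.sub _ (by rw [hT']; exact hi)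
    have e1 := h.hb_exact hvz hG.1 (hpal x mx) (hpal y my)
    have e2 := h.hb_exact hvz hG.2 (hpal x' mx') (hpal y' my')
    have main : ∀ P : Set (Fin 6), (a ∈ P ∨ b ∈ P) →
        (∀ᶠ t : ℝ in 𝓝[>] 0, T (hb (2 * z - v) z τ t) = P) → False := by
      intro P hP hev
      obtain ⟨t, ht1, ht2, ht3⟩ := (h1.and (hev.and small492)).exists
      have hs := abs_sign492 hτ ht3.1
      have harc : Arc T z (z + (v - z) * cis (τ * t)) {a, b} :=
        h.arc_of_eq hz.ab (by rw [hz.pal]; simp) (by rw [hz.pal]; simp) (dist_hb hv τ t) ht1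
      rw [e0] at ht2
      rcases hP with hP | hP
      · exact h.no_par492 hv (by rw [hs]; exact ht3.1) (by rw [hs]; exact ht3.2) harc
          (i := a) (by simp) (by rw [ht2]; exact hP)
      · exact h.no_par492 hv (by rw [hs]; exact ht3.1) (by rw [hs]; exact ht3.2) harc
          (i := b) (by simp) (by rw [ht2]; exact hP)
    rcases hτ with rfl | rfl
    · exact main {x, y} (by simp only [mem_insert_iff, mem_singleton_iff]; tauto) e1
    · exact main {x', y'} (by simp only [mem_insert_iff, mem_singleton_iff]; tauto) e2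
  have ma : a ∈ T z := by rw [hz.pal]; simp
  have mb : b ∈ T z := by rw [hz.pal]; simp
  have mc : c ∈ T z := by rw [hz.pal]; simp
  have md : d ∈ T z := by rw [hz.pal]; simp
  rcases h.germ_branch hz hvz with hG | hG | hG | hG
  · exact key a c b d (by tauto) (by tauto) (by tauto) ma mc mb md hG
  · exact key a d b c (by tauto) (by tauto) (by tauto) ma md mb mc hG
  · exact key b c a d (by tauto) (by tauto) (by tauto) mb mc ma md hG
  · exact key b d a c (by tauto) (by tauto) (by tauto) mb md ma mc hG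

/-- the side of `a` at `V` from a direction of a `cd`-arc -/
theorem Irr.sd_iff492 (h : Irr U T) {z g : ℂ} {a b c d : Fin 6} (hz : DPt T z a b c d)
    (hg : Arc T z g {c, d}) : ∃ ε : ℝ, (ε = 1 ∨ ε = -1) ∧ ∀ V, dist V z = 1 → a ∈ T V →
      cr (g - z) (V - z) ≠ 0 → (Sd U z V a b ↔ 0 < ε * cr (g - z) (V - z)) := by
  rcases h.d0 hz hg with ⟨h1, h2⟩ | ⟨h1, h2⟩
  · refine ⟨1, Or.inl rfl, fun V hV ha hne => ?_⟩
    rw [one_mul]
    constructor
    · intro h3
      by_contra h4
      have h5 : cr (g - z) (V - z) < 0 := lt_of_le_of_ne (not_lt.1 h4) hne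
      exact h.sd_unique ha h3 (h.mx.sd_of_rays' h1 h2 hV (by rw [ip_I]; exact h5))
    · intro h3
      exact h.mx.sd_of_rays h1 h2 hV (by rw [ip_I]; exact h3)
  · refine ⟨-1, Or.inr rfl, fun V hV ha hne => ?_⟩
    rw [neg_one_mul]
    constructor
    · intro h3
      by_contra h4
      have h5 : 0 < cr (g - z) (V - z) := lt_of_le_of_ne (by linarith) hne.symm
      exact h.sd_unique ha h3 (h.mx.sd_of_rays h1 h2 hV (by rw [ip_I]; exact h5))
    · intro h3
      exact h.mx.sd_of_rays' h1 h2 hV (by rw [ip_I]; linarith)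

/-- two directions with the colour `a` are seen in the same way from all directions of `cd`-arcs -/
theorem Irr.sep492 (h : Irr U T) {z g g' V V' : ℂ} {a b c d : Fin 6} (hz : DPt T z a b c d)
    (hg : Arc T z g {c, d}) (hg' : Arc T z g' {c, d}) (hV : dist V z = 1) (hV' : dist V' z = 1)
    (ha : a ∈ T V) (ha' : a ∈ T V') (h1 : cr (g - z) (V - z) ≠ 0) (h2 : cr (g - z) (V' - z) ≠ 0)
    (h3 : cr (g' - z) (V - z) ≠ 0) (h4 : cr (g' - z) (V' - z) ≠ 0) :
    0 < cr (g - z) (V - z) * cr (g - z) (V' - z) * (cr (g' - z) (V - z) * cr (g' - z) (V' - z)) := by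
  obtain ⟨ε, hε, e1⟩ := h.sd_iff492 hz hg
  obtain ⟨δ, hδ, e2⟩ := h.sd_iff492 hz hg'
  have k1 := e1 V hV ha h1
  have k2 := e1 V' hV' ha' h2
  have k3 := e2 V hV ha h3
  have k4 := e2 V' hV' ha' h4
  generalize cr (g - z) (V - z) = x1 at *
  generalize cr (g - z) (V' - z) = x2 at *
  generalize cr (g' - z) (V - z) = x3 at *
  generalize cr (g' - z) (V' - z) = x4 at *
  have sgn : ∀ {ε x y : ℝ}, (ε = 1 ∨ ε = -1) → x ≠ 0 → y ≠ 0 → (0 < ε * x ↔ 0 < ε * y) →
      0 < x * y := by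
    intro ε x y hε hx hy hxy
    rcases hε with rfl | rfl
    · rw [one_mul, one_mul] at hxy
      rcases lt_or_gt_of_ne hx with h5 | h5
      · have : y < 0 := lt_of_le_of_ne (not_lt.1 fun h6 => by linarith [hxy.2 h6]) hy
        nlinarith
      · exact mul_pos h5 (hxy.1 h5)
    · rw [neg_one_mul, neg_one_mul] at hxy
      rcases lt_or_gt_of_ne hx with h5 | h5
      · have : 0 < -y := hxy.1 (by linarith)
        nlinarith
      · have : 0 < y := lt_of_le_of_ne (by
          by_contra h6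
          have := hxy.2 (by linarith)
          linarith) hy.symm
        nlinarith
  have sgn' : ∀ {ε x y : ℝ}, (ε = 1 ∨ ε = -1) → x ≠ 0 → y ≠ 0 → ¬ (0 < ε * x ↔ 0 < ε * y) →
      x * y < 0 := by
    intro ε x y hε hx hy hxy
    by_contra h5
    have h6 : 0 < x * y := lt_of_le_of_ne (not_lt.1 h5) (mul_ne_zero hx hy).symm
    apply hxy
    have h7 : 0 < ε * ε := by rcases hε with rfl | rfl <;> norm_num
    constructor
    · intro h8
      by_contra h9
      have h10 : 0 < (ε * ε) * (x * y) := mul_pos h7 h6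
      nlinarith
    · intro h8
      by_contra h9
      have h10 : 0 < (ε * ε) * (x * y) := mul_pos h7 h6
      nlinarith
  by_cases hs : Sd U z V a b ↔ Sd U z V' a b
  · have h5 := sgn hε h1 h2 (by rw [← k1, ← k2]; exact hs)
    have h6 := sgn hδ h3 h4 (by rw [← k3, ← k4]; exact hs)
    exact mul_pos h5 h6
  · have h5 := sgn' hε h1 h2 (by rw [← k1, ← k2]; exact hs)
    have h6 := sgn' hδ h3 h4 (by rw [← k3, ← k4]; exact hs)
    nlinarith

/-- the half branch in a cross product with its base point -/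
theorem cr_self492 {z v : ℂ} (hv : dist v z = 1) (τ t : ℝ) :
    cr (hb z v τ t - z) (v - z) = -Real.sin (τ * t) := by
  have h1 := ip_sq (n := v - z) (by rw [← dist_eq_norm]; exact hv)
  unfold cr hb
  rw [add_sub_cancel_left]
  simp only [Complex.mul_re, Complex.mul_im, cis_re, cis_im]
  linear_combination (-Real.sin (τ * t)) * h1

theorem cr_ev492 {z v v' : ℂ} (τ : ℝ) (h0 : cr (v - z) (v' - z) ≠ 0) :
    ∀ᶠ t : ℝ in 𝓝[>] 0, 0 < cr (hb z v τ t - z) (v' - z) * cr (v - z) (v' - z) := by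
  have h1 : Tendsto (fun x : ℂ => cr (x - z) (v' - z) * cr (v - z) (v' - z)) (𝓝 v)
      (𝓝 (cr (v - z) (v' - z) * cr (v - z) (v' - z))) := by
    have : Continuous fun x : ℂ => cr (x - z) (v' - z) * cr (v - z) (v' - z) := by
      unfold cr
      fun_prop
    exact this.tendsto v
  exact (h1.comp (tendsto_hb z v τ)).eventually (Ioi_mem_nhds (mul_self_pos.2 h0))

/-- two points of the palette of `z` on `S(z)`, on different lines: opposite orientations -/
theorem Irr.j_turn (h : Irr U T) {z v v' : ℂ} {a b c d : Fin 6} (hz : DPt T z a b c d)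
    (hv : dist v z = 1) (hv' : dist v' z = 1) (ha : a ∈ T v) (ha' : a ∈ T v')
    (hne : v ≠ v') (hne' : v + v' ≠ 2 * z) {τ τ' : ℝ} (hτ : τ = 1 ∨ τ = -1) (hτ' : τ' = 1 ∨ τ' = -1)
    (h1 : ∀ᶠ t : ℝ in 𝓝[>] 0, T (hb z v (-τ) t) = {c, d})
    (h2 : ∀ᶠ t : ℝ in 𝓝[>] 0, T (hb z v' (-τ') t) = {c, d}) : τ * τ' < 0 := by
  have hD : cr (v - z) (v' - z) ≠ 0 := cr_ne_of hv hv' hne hne'
  have hD' : cr (v' - z) (v - z) ≠ 0 := cr_ne_of hv' hv hne.symm (by rw [add_comm]; exact hne')
  have hDD : cr (v' - z) (v - z) = -cr (v - z) (v' - z) := by unfold cr; ring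
  obtain ⟨t, ht1, ht2, ht3, ht4, ht5⟩ := (h1.and (h2.and ((cr_ev492 (-τ) hD).and
    ((cr_ev492 (-τ') hD').and small492)))).exists
  have hc : c ∈ T z := by rw [hz.pal]; simp
  have hd : d ∈ T z := by rw [hz.pal]; simp
  have hg := h.arc_of_eq hz.cd hc hd (dist_hb hv (-τ) t) ht1
  have hg' := h.arc_of_eq hz.cd hc hd (dist_hb hv' (-τ') t) ht2
  have hsin : 0 < Real.sin t := Real.sin_pos_of_pos_of_lt_pi ht5.1 ht5.2
  have s1 : ∀ {τ : ℝ}, (τ = 1 ∨ τ = -1) → -Real.sin (-τ * t) = τ * Real.sin t := by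
    rintro τ (rfl | rfl)
    · rw [neg_one_mul, Real.sin_neg]; ring
    · rw [neg_neg, one_mul]; ring
  have e1 : cr (hb z v (-τ) t - z) (v - z) = τ * Real.sin t := by
    rw [cr_self492 hv, s1 hτ]
  have e2 : cr (hb z v' (-τ') t - z) (v' - z) = τ' * Real.sin t := by
    rw [cr_self492 hv', s1 hτ']
  have n1 : τ ≠ 0 := by rcases hτ with rfl | rfl <;> norm_num
  have n2 : τ' ≠ 0 := by rcases hτ' with rfl | rfl <;> norm_num
  have n3 : cr (hb z v (-τ) t - z) (v' - z) ≠ 0 := by
    intro h3; rw [h3, zero_mul] at ht3; exact lt_irrefl _ ht3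
  have n4 : cr (hb z v' (-τ') t - z) (v - z) ≠ 0 := by
    intro h3; rw [h3, zero_mul] at ht4; exact lt_irrefl _ ht4
  have key := h.sep492 hz hg hg' hv hv' ha ha' (by rw [e1]; exact mul_ne_zero n1 hsin.ne') n3 n4
    (by rw [e2]; exact mul_ne_zero n2 hsin.ne')
  rw [e1, e2] at key
  rw [hDD] at ht4
  generalize cr (hb z v (-τ) t - z) (v' - z) = x at *
  generalize cr (hb z v' (-τ') t - z) (v - z) = y at *
  generalize cr (v - z) (v' - z) = D at *
  have hxy : x * y < 0 := by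
    by_contra h3
    push Not at h3
    have h4 : 0 < (x * D) * (y * -D) := mul_pos ht3 ht4
    have h5 : (x * D) * (y * -D) = -((x * y) * D ^ 2) := by ring
    rw [h5] at h4
    nlinarith [mul_nonneg h3 (sq_nonneg D)]
  by_contra h3
  push Not at h3
  have h4 : τ * Real.sin t * x * (y * (τ' * Real.sin t)) = (τ * τ') * (x * y) * Real.sin t ^ 2 := by
    ring
  rw [h4] at key
  have h5 : (τ * τ') * (x * y) ≤ 0 := mul_nonpos_of_nonneg_of_nonpos h3 hxy.le
  nlinarith [mul_nonneg (neg_nonneg.2 h5) (sq_nonneg (Real.sin t))]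

/-- **at most two points of `S(z)` have the palette of the two-pair point `z`** -/
theorem Irr.no_three_J (h : Irr U T) {z v₁ v₂ v₃ : ℂ} {a b c d : Fin 6} (hz : DPt T z a b c d)
    (h1 : dist v₁ z = 1) (h2 : dist v₂ z = 1) (h3 : dist v₃ z = 1) (e1 : T v₁ = T z)
    (e2 : T v₂ = T z) (e3 : T v₃ = T z) (n12 : v₁ ≠ v₂) (n13 : v₁ ≠ v₃) (n23 : v₂ ≠ v₃) :
    False := by
  have ha : a ∈ T z := by rw [hz.pal]; simp
  have hopp : ∀ {v v' : ℂ}, dist v z = 1 → T v = T z → T v' = T z → v + v' ≠ 2 * z := by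
    intro v v' hv e e' h4
    refine h.j_opp hz hv e ?_
    rw [show 2 * z - v = v' by linear_combination -h4]
    exact e'
  obtain ⟨τ₁, k1, -, l1⟩ := h.j_sides hz h1 e1
  obtain ⟨τ₂, k2, -, l2⟩ := h.j_sides hz h2 e2
  obtain ⟨τ₃, k3, -, l3⟩ := h.j_sides hz h3 e3
  have a1 : a ∈ T v₁ := by rw [e1]; exact ha
  have a2 : a ∈ T v₂ := by rw [e2]; exact ha
  have a3 : a ∈ T v₃ := by rw [e3]; exact ha
  have m12 := h.j_turn hz h1 h2 a1 a2 n12 (hopp h1 e1 e2) k1 k2 l1 l2
  have m13 := h.j_turn hz h1 h3 a1 a3 n13 (hopp h1 e1 e3) k1 k3 l1 l3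
  have m23 := h.j_turn hz h2 h3 a2 a3 n23 (hopp h2 e2 e3) k2 k3 l2 l3
  rcases k1 with rfl | rfl <;> rcases k2 with rfl | rfl <;> rcases k3 with rfl | rfl <;>
    linarith

end Vale.Agent.P032.Six
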