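import Vale.Agent.P032.H492.Index6

/-!
# P032, row X.STATE.2: the four sectors at a two-pair point, final form
-/

open Set Filter Topology Metric Complex

noncomputable section

namespace Vale.Agent.P032.Six

open Vale.Agent.P032.H492

variable {U : Fin 6 → Set ℂ} {T : ℂ → Set (Fin 6)}

theorem exists_sign492 {x : ℝ} (hx : x ≠ 0) : ∃ s : ℝ, (s = 1 ∨ s = -1) ∧ 0 < s * x := by
  rcases lt_or_gt_of_ne hx with h | h
  · exact ⟨-1, Or.inr rfl, by linarith⟩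
  · exact ⟨1, Or.inl rfl, by linarith⟩

theorem sin_ne492 {x : ℝ} (hx : Real.cos x = 0) : Real.sin x ≠ 0 := fun h => by
  have := Real.sin_sq_add_cos_sq x
  rw [hx, h] at this
  norm_num at this

theorem Irr.quad_of_rays492 (h : Irr U T) {V : ℂ} {a b m n : Fin 6} (hz : DPt T V a b m n)
    {α₀ γ₀ φ ψ : ℝ} (hα : Arc T V (V + cis α₀) {a, b}) (hγ : Arc T V (V + cis γ₀) {m, n})
    (hψ0 : 0 < ψ) (hψ1 : ψ < Real.pi) (ra : Ray (U a) V (cis φ)) (rm : Ray (U m) V (cis (φ + ψ)))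
    (cα : Real.cos (φ + ψ - α₀) = 0) (cγ : Real.cos (φ - γ₀) = 0) :
    ∃ ρ₀, Quad T V a b m n φ ψ ρ₀ := by
  have hs := Real.sin_pos_of_pos_of_lt_pi hψ0 hψ1
  have n1 : Real.cos (φ - α₀) ≠ 0 := by
    rw [show φ - α₀ = φ + ψ - α₀ - ψ by ring, Real.cos_sub, cα, zero_mul, zero_add]
    exact mul_ne_zero (sin_ne492 cα) hs.ne'
  have n2 : Real.cos (φ + ψ - γ₀) ≠ 0 := by
    rw [show φ + ψ - γ₀ = φ - γ₀ + ψ by ring, Real.cos_add, cγ, zero_mul, zero_sub]
    exact neg_ne_zero.2 (mul_ne_zero (sin_ne492 cγ) hs.ne')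
  obtain ⟨s, hs1, hs2⟩ := exists_sign492 n1
  obtain ⟨s', hs1', hs2'⟩ := exists_sign492 n2
  have e1 : ∀ᶠ α in 𝓝 α₀, 0 < s * Real.cos (φ - α) := by
    have hc : Continuous fun α => s * Real.cos (φ - α) := by fun_prop
    exact hc.continuousAt.eventually (Ioi_mem_nhds hs2)
  have e2 : ∀ᶠ γ in 𝓝 γ₀, 0 < s' * Real.cos (φ + ψ - γ) := by
    have hc : Continuous fun γ => s' * Real.cos (φ + ψ - γ) := by fun_prop
    exact hc.continuousAt.eventually (Ioi_mem_nhds hs2')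
  have hnd : [a, b, m, n].Nodup := by
    have h1 := hz.ab
    have h2 := hz.ac
    have h3 := hz.ad
    have h4 := hz.bc
    have h5 := hz.bd
    have h6 := hz.cd
    simp only [List.nodup_cons, List.mem_cons, List.not_mem_nil, or_false, not_or]
    tauto
  refine quad_core492 hnd ?_ h.sub hψ0 hψ1 hs1 hs1' ?_ ?_ cα cγ
  · have := h.nhd V
    rwa [hz.pal] at this
  · filter_upwards [hα.eventually492, e1] with α k1 k2
    obtain ⟨k3, k4⟩ := h.abs492 hz k1 ra hs1 k2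
    exact ⟨k3, k4, k2⟩
  · filter_upwards [hγ.eventually492, e2] with γ k1 k2
    obtain ⟨k3, k4⟩ := h.abs492 hz.swap k1 rm hs1' k2
    exact ⟨k3, k4, k2⟩

theorem cis_half492 (t : ℝ) : Complex.I * cis t = cis (t + Real.pi / 2) := by
  unfold cis
  push_cast
  rw [add_mul, Complex.exp_add, Complex.exp_pi_div_two_mul_I]
  ring

theorem cis_half492' (t : ℝ) : -(Complex.I * cis t) = cis (t - Real.pi / 2) := by
  have h : cis (t - Real.pi / 2 + Real.pi) = -cis (t - Real.pi / 2) := by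
    unfold cis
    push_cast
    rw [add_mul, Complex.exp_add, Complex.exp_pi_mul_I]
    ring
  rw [cis_half492, show t + Real.pi / 2 = t - Real.pi / 2 + Real.pi by ring, h, neg_neg]

theorem cis_pi492 (t : ℝ) : cis (t - Real.pi) = -cis t := by
  have h : cis (t - Real.pi + Real.pi) = -cis (t - Real.pi) := by
    unfold cis
    push_cast
    rw [add_mul, Complex.exp_add, Complex.exp_pi_mul_I]
    ring
  rw [sub_add_cancel] at h
  rw [h, neg_neg]

theorem cis_int492 (t : ℝ) (k : ℤ) : cis (t + k * (2 * Real.pi)) = cis t := by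
  unfold cis
  push_cast
  rw [add_mul, Complex.exp_add]
  have e2 : cexp ((k : ℂ) * (2 * Real.pi) * I) = 1 := by
    rw [Complex.exp_eq_one_iff]
    exact ⟨k, by ring⟩
  rw [e2, mul_one]

/-- the rays orthogonal to an arc, in angles -/
theorem Irr.rays492 (h : Irr U T) {V : ℂ} {a b c d : Fin 6} (hz : DPt T V a b c d) {γ : ℝ}
    (hγ : Arc T V (V + cis γ) {c, d}) : ∃ φ, Real.cos (φ - γ) = 0 ∧ Ray (U a) V (cis φ) ∧
      Ray (U b) V (-cis φ) := by
  have c1 : Real.cos (γ + Real.pi / 2 - γ) = 0 := by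
    rw [add_sub_cancel_left, Real.cos_pi_div_two]
  have c2 : Real.cos (γ - Real.pi / 2 - γ) = 0 := by
    rw [show γ - Real.pi / 2 - γ = -(Real.pi / 2) by ring, Real.cos_neg, Real.cos_pi_div_two]
  rcases h.d0 hz hγ with ⟨h1, h2⟩ | ⟨h1, h2⟩
  · rw [add_sub_cancel_left, cis_half492] at h1 h2
    exact ⟨_, c1, h1, h2⟩
  · rw [add_sub_cancel_left, cis_half492'] at h2
    refine ⟨_, c2, h2, ?_⟩
    rw [add_sub_cancel_left] at h1
    rwa [← cis_half492', neg_neg]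

/-- **The four sectors at a two-pair point** -/
theorem Irr.quad492 (h : Irr U T) {V : ℂ} {a b c d : Fin 6} (hz : DPt T V a b c d) :
    ∃ φ ψ ρ₀, Quad T V a b c d φ ψ ρ₀ ∨ Quad T V a b d c φ ψ ρ₀ := by
  obtain ⟨g, hg⟩ := hz.arc1
  obtain ⟨g'', hg''⟩ := hz.arc2
  obtain ⟨g', hg', n1, n2⟩ := hg''.exists_off_line (y := g)
  have hcr := cr_ne_of hg'.1 hg.1 n1 n2
  obtain ⟨α₀, hα⟩ := exists_cis (u := g - V) (by rw [← dist_eq_norm]; exact hg.1)
  obtain ⟨γ₀, hγ⟩ := exists_cis (u := g' - V) (by rw [← dist_eq_norm]; exact hg'.1)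
  rw [hα, hγ] at hcr
  obtain rfl : g = V + cis α₀ := by rw [← hα]; ring
  obtain rfl : g' = V + cis γ₀ := by rw [← hγ]; ring
  have hsin : Real.sin (α₀ - γ₀) ≠ 0 := by
    intro h0
    apply hcr
    unfold cr cis
    simp only [Complex.exp_ofReal_mul_I_re, Complex.exp_ofReal_mul_I_im]
    rw [Real.sin_sub] at h0
    linarith
  obtain ⟨φ, cφ, ra, rb⟩ := h.rays492 hz hg'
  obtain ⟨φ', cφ', rc, rd⟩ := h.rays492 hz.swap hg
  have hsinφ : Real.sin (φ' - φ) ≠ 0 := by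
    intro h0
    apply hsin
    -- `φ' - α₀` and `φ - γ₀` are odd multiples of a right angle
    have e : α₀ - γ₀ = (φ' - φ) - (φ' - α₀) + (φ - γ₀) := by ring
    have h1 : Real.sin (φ' - φ - (φ' - α₀)) = -(Real.cos (φ' - φ) * Real.sin (φ' - α₀)) := by
      rw [Real.sin_sub, h0]; ring
    have h2 : Real.cos (φ' - φ - (φ' - α₀)) = 0 := by
      rw [Real.cos_sub, h0, cφ']; ring
    rw [e, Real.sin_add, cφ, h2]
    ring
  -- normalise the angle
  obtain ⟨k, hk0, hk1⟩ : ∃ k : ℤ, 0 ≤ φ' - φ + k * (2 * Real.pi) ∧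
      φ' - φ + k * (2 * Real.pi) < 2 * Real.pi := by
    obtain ⟨k, hk, -⟩ := existsUnique_add_zsmul_mem_Ico Real.two_pi_pos (φ' - φ) 0
    rw [zsmul_eq_mul] at hk
    exact ⟨k, hk.1, by have := hk.2; linarith⟩
  set Δ := φ' - φ + k * (2 * Real.pi) with hΔ
  have hsΔ : Real.sin Δ ≠ 0 := by
    rw [hΔ, Real.sin_add_int_mul_two_pi]
    exact hsinφ
  have hD0 : Δ ≠ 0 := fun h0 => hsΔ (by rw [h0, Real.sin_zero])
  have hDπ : Δ ≠ Real.pi := fun h0 => hsΔ (by rw [h0, Real.sin_pi])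
  have eΔ : φ + Δ = φ' + k * (2 * Real.pi) := by rw [hΔ]; ring
  have cΔ : Real.cos (φ + Δ - α₀) = 0 := by
    rw [eΔ, show φ' + k * (2 * Real.pi) - α₀ = φ' - α₀ + k * (2 * Real.pi) by ring,
      Real.cos_add_int_mul_two_pi]
    exact cφ'
  rcases lt_or_gt_of_ne hDπ with hlt | hgt
  · obtain ⟨ρ₀, Q⟩ := h.quad_of_rays492 hz hg hg' (φ := φ) (ψ := Δ) (hk0.lt_of_ne' hD0) hlt ra
      (by rw [eΔ, cis_int492]; exact rc) cΔ cφ
    exact ⟨φ, Δ, ρ₀, Or.inl Q⟩
  · obtain ⟨ρ₀, Q⟩ := h.quad_of_rays492 hz.swap34 hg (by rw [pair_comm]; exact hg') (φ := φ)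
      (ψ := Δ - Real.pi) (by linarith) (by linarith) ra
      (by
        rw [show φ + (Δ - Real.pi) = φ + Δ - Real.pi by ring, cis_pi492, eΔ, cis_int492]
        exact rd)
      (by
        rw [show φ + (Δ - Real.pi) - α₀ = φ + Δ - α₀ - Real.pi by ring, Real.cos_sub_pi, cΔ,
          neg_zero]) cφ
    exact ⟨φ, Δ - Real.pi, ρ₀, Or.inr Q⟩

open Vale.Agent.P032.S5 Vale.Agent.P032.Carr in
/-- **The index of a two-pair point is odd** -/
theorem Irr.index492 (h : Irr U T) {Z : Set ℂ} {f f' : ℂ → Set (Fin 6)} {δ₀ δ₀' : ℝ} {V x : ℂ}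
    {a b c d : Fin 6} (H : Hm T Z f δ₀) (H' : Hm T Z f' δ₀') (hz : DPt T V a b c d) (hV : V ∈ Z)
    (hff : ∀ z ∈ Z, z ≠ V → f' z = f z) (hiso : ∀ᶠ z in 𝓝 V, z ∈ Z → z = V)
    (hf : f V = {c, d}) (hf' : f' V = {a, b}) (hr : Rg T Z x) {t : Fin 6} (ht : Av T x t)
    (hx : dist V x < 1) {s : Finset (Fin 6)} (hts : t ∈ s) (hs : s.card = 3) :
    lamH T Z f' δ₀' t x s + lamH T Z f δ₀ t x s = if s ⊆ {a, b, c, d} then 1 else 0 := by
  obtain ⟨φ, ψ, ρ₀, Q | Q⟩ := h.quad492 hz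
  · exact Hm_index H H' hV hff hiso Q hz.pal hf hf' hr ht hx hts hs
  · have e1 : T V = {a, b, d, c} := by
      rw [hz.pal]; ext i; simp only [mem_insert_iff, mem_singleton_iff]; tauto
    have e2 : f V = {d, c} := by rw [hf, pair_comm]
    have e3 : ({a, b, d, c} : Finset (Fin 6)) = {a, b, c, d} := by
      ext i; simp only [Finset.mem_insert, Finset.mem_singleton]; tauto
    have := Hm_index H H' hV hff hiso Q e1 e2 hf' hr ht hx hts hs
    rwa [e3] at this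

end Vale.Agent.P032.Six
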