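import Vale.Agent.P032.H538.State1
import Vale.Agent.P032.H492.Index7
import Vale.Agent.P032.S5.H767.Pts

/-!
# P032, X-B (B2), (B5): agreement across the normal borders of a two-pair point, gluing along arcs

`Irr.closure492` : a two-pair point `V` is in the closure of the points of exactly the colours
`{a, c}` (`a`, `c` not a pair of `V`).
`DSt.lim2` : a relation between the states of two tiles passes to the limit.
`DSt.agreeV` : **(B2)**, `lam_a V c d = lam_c V a d`, if no two-pair point of the circle has the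
connecting pair `{a, c}`.
`DSt.glue` : **(B5)**, the state is constant along an exact arc.
-/

open Set Filter Topology Metric

noncomputable section

namespace Vale.Agent.P032.Six

open Vale.Agent.P032.S5 Vale.Agent.P032.Carr Vale.Agent.P032.H492

variable {U : Fin 6 → Set ℂ} {T : ℂ → Set (Fin 6)}

theorem _root_.Vale.Agent.P032.H492.continuous_pp (V : ℂ) (ρ : ℝ) :
    Continuous fun θ : ℝ => pp V ρ θ := by
  unfold pp
  fun_prop

/-- in each of the four directions there is a border -/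
theorem _root_.Vale.Agent.P032.H492.Quad.exists_border {K : ℂ → Set (Fin 6)} {V : ℂ}
    {a b m n : Fin 6} {φ ψ ρ₀ : ℝ} (hK : ∀ y, ∀ᶠ z in 𝓝 y, K z ⊆ K y) (hne : ∀ y, ∃ i, i ∈ K y)
    (Q : Quad K V a b m n φ ψ ρ₀) {ρ : ℝ} (h0 : 0 < ρ) (h1 : ρ < ρ₀) :
    ∃ w, dist w V = ρ ∧ K w = {a, m} := by
  have hnd := Q.nd
  simp only [List.nodup_cons, List.mem_cons, List.not_mem_nil, or_false, not_or] at hnd
  have hψ0 := Q.hψ0
  have hψ1 := Q.hψ1
  have hcl : ∀ i, IsClosed {θ : ℝ | i ∈ K (pp V ρ (φ + θ))} := by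
    intro i
    rw [← isOpen_compl_iff, isOpen_iff_mem_nhds]
    intro θ hθ
    have hc : ContinuousAt (fun θ : ℝ => pp V ρ (φ + θ)) θ :=
      ((continuous_pp V ρ).comp (continuous_const.add continuous_id)).continuousAt
    filter_upwards [hc.eventually (hK (pp V ρ (φ + θ)))] with t ht hi
    exact hθ (ht hi)
  have hs : IsPreconnected (Icc 0 ψ) := isPreconnected_Icc
  have hp0 : a ∈ K (pp V ρ (φ + 0)) := by
    obtain ⟨i, hi⟩ := hne (pp V ρ (φ + 0))
    have h2 := Q.q1 ρ h0 h1 0 le_rfl hψ0.le hi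
    have h3 := Q.q4 ρ h0 h1 (2 * Real.pi) (by linarith) le_rfl
    rw [← add_zero φ, add_assoc, zero_add, pp_per] at h3
    have h4 := h3 (by simpa using hi)
    simp only [mem_insert_iff, mem_singleton_iff] at h2 h4
    rcases h2 with rfl | rfl
    · exact hi
    · rcases h4 with h4 | h4
      · exact absurd h4 hnd.2.2.1
      · exact absurd h4.symm hnd.1.2.1
  have hp1 : m ∈ K (pp V ρ (φ + ψ)) := by
    obtain ⟨i, hi⟩ := hne (pp V ρ (φ + ψ))
    have h2 := Q.q1 ρ h0 h1 ψ hψ0.le le_rfl hi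
    have h3 := Q.q2 ρ h0 h1 ψ le_rfl hψ1.le hi
    simp only [mem_insert_iff, mem_singleton_iff] at h2 h3
    rcases h2 with rfl | rfl
    · rcases h3 with h3 | h3
      · exact absurd h3 hnd.1.2.1
      · exact absurd h3 hnd.1.1
    · exact hi
  have hcov : Icc 0 ψ ⊆ {θ : ℝ | a ∈ K (pp V ρ (φ + θ))} ∪ {θ : ℝ | m ∈ K (pp V ρ (φ + θ))} := by
    intro θ hθ
    obtain ⟨i, hi⟩ := hne (pp V ρ (φ + θ))
    have h2 := Q.q1 ρ h0 h1 θ hθ.1 hθ.2 hi
    simp only [mem_insert_iff, mem_singleton_iff] at h2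
    rcases h2 with rfl | rfl
    · exact Or.inl hi
    · exact Or.inr hi
  obtain ⟨θ, hθ, ha, hm⟩ := isPreconnected_closed_iff.1 hs _ _ (hcl a) (hcl m) hcov
    ⟨0, ⟨le_rfl, hψ0.le⟩, hp0⟩ ⟨ψ, ⟨hψ0.le, le_rfl⟩, hp1⟩
  refine ⟨pp V ρ (φ + θ), dist_pp V h0.le _, subset_antisymm (Q.q1 ρ h0 h1 θ hθ.1 hθ.2) ?_⟩
  rintro i (rfl | rfl)
  · exact ha
  · exact hm

theorem _root_.Vale.Agent.P032.H492.Quad.mem_closure {K : ℂ → Set (Fin 6)} {V : ℂ}
    {a b m n : Fin 6} {φ ψ ρ₀ : ℝ} (hK : ∀ y, ∀ᶠ z in 𝓝 y, K z ⊆ K y) (hne : ∀ y, ∃ i, i ∈ K y)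
    (Q : Quad K V a b m n φ ψ ρ₀) : ∃ᶠ w in 𝓝 V, K w = {a, m} := by
  rw [frequently_iff]
  intro S hS
  obtain ⟨r, hr, hrS⟩ := Metric.mem_nhds_iff.1 hS
  have hpos := Q.pos
  obtain ⟨w, hw, hwK⟩ := Q.exists_border hK hne (ρ := min r ρ₀ / 2) (by positivity)
    (by have := min_le_right r ρ₀; linarith)
  refine ⟨w, hrS ?_, hwK⟩
  rw [mem_ball, hw]
  have := min_le_left r ρ₀
  have : 0 < min r ρ₀ := by positivity
  linarith

/-- near a two-pair point `(a b | c d)` there are points of exactly the colours `a`, `c` -/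
theorem Irr.frequently492 (h : Irr U T) {V : ℂ} {a b c d : Fin 6} (hV : DPt T V a b c d) :
    ∃ᶠ w in 𝓝 V, T w = {a, c} := by
  obtain ⟨φ, ψ, ρ₀, Q | Q⟩ := h.quad492 hV
  · exact Q.mem_closure h.nhd h.ne
  · have := Q.rot.rot.rot.mem_closure h.nhd h.ne
    rwa [Set.pair_comm] at this

/-- a two-pair point `(a b | c d)` is in the closure of the points of exactly the colours
`a`, `c` -/
theorem Irr.closure492 (h : Irr U T) {V : ℂ} {a b c d : Fin 6} (hV : DPt T V a b c d) :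
    V ∈ closure {w | T w = {a, c}} := mem_closure_iff_frequently.2 (h.frequently492 hV)

variable {f : ℂ → Set (Fin 6)} {Z : Set ℂ} {c : ℂ} {R δ₀ : ℝ}

namespace DSt

variable {x y V : ℂ} {a b d m n : Fin 6}

/-- **Limits** : a relation between the states of two tiles passes to the limit -/
theorem lim2 (D : DSt U T Z f c R δ₀) (hx : dist x c ≤ R - 1) (ha : a ∈ T x) (hm : m ∈ T x)
    {P : (Fin 6 → Fin 6 → ZMod 2) → (Fin 6 → Fin 6 → ZMod 2) → Prop}
    (hP : ∃ᶠ w in 𝓝 x, a ∈ T w ∧ m ∈ T w ∧ P (lamT T Z f δ₀ a w) (lamT T Z f δ₀ m w)) :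
    P (lamT T Z f δ₀ a x) (lamT T Z f δ₀ m x) := by
  obtain ⟨w, ⟨h1, h2, h3⟩, h4, h5⟩ := (hP.and_eventually
    ((D.loc hx ha).and (D.loc hx hm))).exists
  rw [← h4 h1, ← h5 h2]
  exact h3

/-- near `V` the apexes of the points of exactly the colours `a`, `m` are good -/
theorem near_apex (D : DSt U T Z f c R δ₀) (ham : a ≠ m)
    (hcon : ∀ z g h i j, dist z V = 1 → DPt T z g h i j → T z \ f z ≠ {a, m}) :
    ∀ᶠ w in 𝓝 V, T w = {a, m} → ∀ z, dist z w = 1 → 4 ≤ (T z).ncard →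
      ¬ T z \ f z ⊆ {a, m} := by
  have hE := D.df.fin V 2
  have h1 : ∀ᶠ w in 𝓝 V, ∀ z ∈ {z | dist z V ≤ 2 ∧ ∃ a b c d, DPt T z a b c d},
      dist z w = 1 → dist z V = 1 := by
    rw [hE.eventually_all]
    intro z _
    by_cases hz : dist z V = 1
    · exact Eventually.of_forall fun _ _ => hz
    · have hc : ContinuousAt (fun w : ℂ => dist z w) V := by fun_prop
      filter_upwards [hc.eventually_ne hz] with w hw hw1
      exact absurd hw1 hw
  filter_upwards [h1, ball_mem_nhds V one_pos] with w h2 h3 hw z hzw h4 hsub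
  have hcard : (T z \ f z).ncard = 2 := by
    have h5 := D.ch.circle D.df h4
    have h6 := Set.ncard_sdiff h5.2.1 (Set.toFinite _)
    have h7 := D.df.le4 z
    omega
  have heq : T z \ f z = {a, m} := Set.eq_of_subset_of_ncard_le hsub
    (by rw [Set.ncard_pair ham, hcard]) (Set.toFinite _)
  rcases D.df.harm_or h4 with ⟨A, hA⟩ | ⟨g, h, i, j, hD⟩
  · have hfA := D.ch.harm z A hA
    have h5 := hA.h1 w (by rw [dist_comm]; exact hzw) (by rw [hw, ← heq]; exact sdiff_subset)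
    obtain ⟨i, hi⟩ := Set.nonempty_of_ncard_ne_zero (s := A) (by rw [hA.cardA]; omega)
    have h6 := h5 hi
    rw [hw, ← heq] at h6
    exact h6.2 (by rw [hfA]; exact hi)
  · refine hcon z g h i j (h2 z ⟨?_, g, h, i, j, hD⟩ hzw) hD heq
    have := dist_triangle z w V
    rw [mem_ball] at h3
    linarith

/-- `Rg` is an open condition -/
theorem rg_near (D : DSt U T Z f c R δ₀) (hr : Rg T Z x) : ∀ᶠ w in 𝓝 x, Rg T Z w := by
  have hB : IsClosed {u | 4 ≤ (T u).ncard ∧ u ∉ Z} := by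
    rw [← isOpen_compl_iff, isOpen_iff_mem_nhds]
    intro u hu
    by_cases h4 : 4 ≤ (T u).ncard
    · have huZ : u ∈ Z := by
        by_contra hcon
        exact hu ⟨h4, hcon⟩
      filter_upwards [D.zs.opn u huZ] with w hw hw2
      exact hw2.2 (hw hw2.1)
    · filter_upwards [(D.df.irr.isClosed_le_card 4).isOpen_compl.mem_nhds h4] with w hw hw2
      exact hw hw2.1
  have hsub : closedBall x 1 ⊆ {u | 4 ≤ (T u).ncard ∧ u ∉ Z}ᶜ := by
    intro u hu hu2
    have h3 := hr u hu hu2.2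
    have h4 := hu2.1
    omega
  obtain ⟨δ, hδ, hth⟩ := (isCompact_closedBall x 1).exists_thickening_subset_open hB.isOpen_compl
    hsub
  filter_upwards [ball_mem_nhds x hδ] with w hw u hu huZ
  by_contra hcon
  refine hth (Metric.mem_thickening_iff.2 ⟨u - (w - x), ?_, ?_⟩) ⟨by omega, huZ⟩
  · rw [mem_closedBall, dist_eq_norm] at hu ⊢
    rwa [show u - (w - x) - x = u - w by ring]
  · rw [mem_ball, dist_eq_norm] at hw
    rw [dist_eq_norm, show u - (u - (w - x)) = w - x by ring]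
    exact hw

/-- agreement at a point of exactly two colours -/
theorem agree2 (D : DSt U T Z f c R δ₀) (hr : Rg T Z x) (hT : T x = {a, m})
    (hap : ∀ z, dist z x = 1 → 4 ≤ (T z).ncard → ¬ T z \ f z ⊆ {a, m}) (d : Fin 6) :
    lamT T Z f δ₀ a x m d = lamT T Z f δ₀ m x a d := by
  refine D.hm.agree_T hr (fun y hy => ?_) (fun z hz hzx => ?_) d
  · have h3 : (T x).ncard ≤ 3 := by
      rw [hT]
      have := Set.ncard_insert_le a ({m} : Set (Fin 6))
      rw [Set.ncard_singleton] at this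
      omega
    obtain ⟨i, hi, hi'⟩ := D.df.irr.not_sub' hy h3
    rw [hT] at hi'
    simp only [mem_insert_iff, mem_singleton_iff, not_or] at hi'
    exact ⟨i, hi, hi'⟩
  · obtain ⟨i, hi, hi'⟩ := Set.not_subset.1 (hap z hzx (D.zs.four z hz))
    exact ⟨i, hi.1, hi.2, hi'⟩

/-- **Agreement in the limit** -/
theorem agree_lim (D : DSt U T Z f c R δ₀) (hx : dist V c ≤ R - 1) (ham : a ≠ m)
    (hV : ∃ᶠ w in 𝓝 V, T w = {a, m})
    (hcon : ∀ z g h i j, dist z V = 1 → DPt T z g h i j → T z \ f z ≠ {a, m}) (d : Fin 6) :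
    lamT T Z f δ₀ a V m d = lamT T Z f δ₀ m V a d := by
  have hsub : ({a, m} : Set (Fin 6)) ⊆ T V := by
    obtain ⟨w, h1, h2⟩ := (hV.and_eventually (D.df.irr.nhd V)).exists
    rw [← h1]
    exact h2
  refine D.lim2 hx (hsub (Or.inl rfl)) (hsub (Or.inr rfl))
    (P := fun A B => A m d = B a d) ?_
  refine (hV.and_eventually ((D.near_apex ham hcon).and (D.rg_near (D.rg hx)))).mono
    fun w hw => ?_
  obtain ⟨hw1, hw2, hw3⟩ := hw
  exact ⟨by rw [hw1]; exact Or.inl rfl, by rw [hw1]; exact Or.inr rfl,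
    D.agree2 hw3 hw1 (hw2 hw1) d⟩

/-- **(B2)** agreement across the border `a | m` of a two-pair point `V = (a b | m n)`: no two-pair
point of the circle has the connecting pair `{a, m}` -/
theorem agreeV (D : DSt U T Z f c R δ₀) (hx : dist V c ≤ R - 1) (hV : DPt T V a b m n)
    (hcon : ∀ z g h i j, dist z V = 1 → DPt T z g h i j → T z \ f z ≠ {a, m}) (d : Fin 6) :
    lamT T Z f δ₀ a V m d = lamT T Z f δ₀ m V a d :=
  D.agree_lim hx hV.ac (D.df.irr.frequently492 hV) hcon d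

/-- **(B5)** the state is constant along a connected set of points with the colour -/
theorem glue (D : DSt U T Z f c R δ₀) {G : Set ℂ} {W : ℂ} (hG : IsPreconnected G)
    (hGW : ∀ w ∈ G, dist w W ≤ 1) (hGa : ∀ w ∈ G, a ∈ T w) (hW : dist W c ≤ R - 2)
    (hx : x ∈ G) (hy : y ∈ G) : lamT T Z f δ₀ a x = lamT T Z f δ₀ a y := by
  refine D.const hG (fun w hw => ?_) hGa hx hy
  have h1 := hGW w hw
  have h2 := dist_triangle w W c
  linarith

/-- **(B5)** along the closure of the points of the circle of `W` with the constant palette `C` -/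
theorem glueEx (D : DSt U T Z f c R δ₀) {W : ℂ} {C : Set (Fin 6)}
    (hG : IsPreconnected (closure (S5.H767.Ex T W C))) (hW : dist W c ≤ R - 2) (ha : a ∈ C)
    (hx : x ∈ closure (S5.H767.Ex T W C)) (hy : y ∈ closure (S5.H767.Ex T W C)) :
    lamT T Z f δ₀ a x = lamT T Z f δ₀ a y :=
  D.glue hG (fun _ hw => (S5.H767.dist_of_closure hw).le)
    (fun _ hw => S5.H767.sub_of_closure D.df.irr hw ha) hW hx hy

/-- **(B5)** along an arc of directions of the circle of `W` -/
theorem glueArc (D : DSt U T Z f c R δ₀) {W : ℂ} {s t : ℝ} (hW : dist W c ≤ R - 2)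
    (hT : ∀ r ∈ Icc s t, a ∈ T (H180.pt W r)) {r r' : ℝ} (hr : r ∈ Icc s t)
    (hr' : r' ∈ Icc s t) :
    lamT T Z f δ₀ a (H180.pt W r) = lamT T Z f δ₀ a (H180.pt W r') := by
  refine D.glue (G := H180.pt W '' Icc s t) (isPreconnected_Icc.image _
    (H180.continuous_pt W).continuousOn) ?_ ?_ hW (mem_image_of_mem _ hr)
    (mem_image_of_mem _ hr')
  · rintro w ⟨r, -, rfl⟩
    exact (H180.dist_pt W r).le
  · rintro w ⟨r, hr, rfl⟩
    exact hT r hr

end DSt

end Vale.Agent.P032.Six
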