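import Vale.Agent.P032.Carr.St

/-!
# P032, row X.STATE.2: the index of a two-pair point is odd, the ring sum

`Quad K V a b m n φ ψ ρ₀` : near `V` the palettes are inside `{a, m}`, `{m, b}`, `{b, n}`, `{n, a}` in
four sectors about `V`.
`ring_am` : on a fine closed walk about `V` the number of `a|m` steps is odd.
-/

open Set Filter Topology Metric Complex

noncomputable section

namespace Vale.Agent.P032.H492

open Vale.Agent.P032.S5 Vale.Agent.P032.Carr

theorem tau_erase {p x y : Fin 6} {s : Finset (Fin 6)} :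
    tau p x y s = if p ∈ s then eps x y (s.erase p) else 0 := by
  by_cases hp : p ∈ s
  · rw [if_pos hp]
    unfold tau eps
    refine if_congr ?_ rfl rfl
    constructor
    · rintro ⟨h1, h2, h3, h4⟩
      refine ⟨h2, ?_⟩
      rw [h4, Finset.erase_insert]
      simp only [Finset.mem_insert, Finset.mem_singleton, not_or]
      exact ⟨h1, h3⟩
    · rintro ⟨h1, h2⟩
      have hx : x ∈ s.erase p := by rw [h2]; simp
      have hy : y ∈ s.erase p := by rw [h2]; simp
      refine ⟨(Finset.ne_of_mem_erase hx).symm, h1, (Finset.ne_of_mem_erase hy).symm, ?_⟩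
      rw [← h2, Finset.insert_erase hp]
  · rw [if_neg hp]
    by_contra h
    obtain ⟨-, -, -, rfl⟩ := tau_ne_zero h
    exact hp (by simp)

/-- **The ring sum**, combinatorial form -/
theorem ring_sum {a b m n : Fin 6} (hnd : [a, b, m, n].Nodup) {N : ℕ} (hN : 0 < N) {p : ℕ → Fin 6}
    {t : ℕ → ℝ} {h ψ : ℝ} (hp : p N = p 0) (ht : ∀ j, t (j + 1) = t j + h) (h0 : 0 < h)
    (ht0 : 0 ≤ t 0) (ht1 : t 0 < h) (htN : t N = t 0 + 2 * Real.pi) (hψ : 2 * h < ψ)
    (hψ' : 2 * h < Real.pi - ψ)
    (h1 : ∀ j, 0 ≤ t j → t j ≤ ψ → p j = a ∨ p j = m)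
    (h2 : ∀ j, ψ ≤ t j → t j ≤ Real.pi → p j = m ∨ p j = b)
    (h3 : ∀ j, Real.pi ≤ t j → t j ≤ Real.pi + ψ → p j = b ∨ p j = n)
    (h4 : ∀ j, Real.pi + ψ ≤ t j → t j ≤ 2 * Real.pi → p j = n ∨ p j = a)
    (hab : ∀ j, ¬ (p j = a ∧ p (j + 1) = b)) (hnm : ∀ j, ¬ (p j = n ∧ p (j + 1) = m)) :
    ∑ j ∈ Finset.range N, eps (p j) (p (j + 1)) {a, m} = 1 := by
  classical
  simp only [List.nodup_cons, List.mem_cons, List.not_mem_nil, or_false, not_or] at hnd
  obtain ⟨⟨nab, nam, nan⟩, ⟨nbm, nbn⟩, nmn, -⟩ := hnd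
  obtain ⟨M, rfl⟩ : ∃ M, N = M + 1 := ⟨N - 1, by omega⟩
  have hmono : ∀ j k, j ≤ k → t j ≤ t k := by
    intro j k hjk
    induction hjk with
    | refl => exact le_rfl
    | step _ ih => rw [ht]; linarith
  have htM : t M = t 0 + 2 * Real.pi - h := by
    have := ht M
    linarith
  have ham : eps a m ({a, m} : Finset (Fin 6)) = 1 := if_pos ⟨nam, rfl⟩
  have hma : eps m a ({a, m} : Finset (Fin 6)) = 1 := by rw [eps_symm, ham]
  have hz : ∀ x y : Fin 6, (x ≠ a ∧ y ≠ a) ∨ (x ≠ m ∧ y ≠ m) →
      eps x y ({a, m} : Finset (Fin 6)) = 0 := by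
    rintro x y (⟨h1, h2⟩ | ⟨h1, h2⟩)
    · exact eps_zero (x := a) (by simp) (Ne.symm h1) (Ne.symm h2)
    · exact eps_zero (x := m) (by simp) (Ne.symm h1) (Ne.symm h2)
  set F : ℕ → ZMod 2 := fun j => if p j = a ∧ t j ≤ ψ then 1 else 0 with hF
  have key : ∀ j ∈ Finset.range M, eps (p j) (p (j + 1)) {a, m} = F j + F (j + 1) := by
    intro j hj
    have hj' := Finset.mem_range.1 hj
    have e0 : 0 ≤ t j := ht0.trans (hmono 0 j (Nat.zero_le _))
    have e1 : t (j + 1) ≤ t M := hmono _ _ hj'
    have e2 := ht j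
    have e3 : t (j + 1) < 2 * Real.pi := by linarith
    by_cases c1 : t (j + 1) ≤ ψ
    · have c0 : t j ≤ ψ := by linarith
      have q0 := h1 j e0 c0
      have q1 := h1 (j + 1) (by linarith) c1
      have f0 : F j = if p j = a then 1 else 0 := by simp only [hF, c0, and_true]
      have f1 : F (j + 1) = if p (j + 1) = a then 1 else 0 := by simp only [hF, c1, and_true]
      rw [f0, f1]
      rcases q0 with q0 | q0 <;> rcases q1 with q1 | q1 <;> rw [q0, q1]
      · rw [eps_same]; simp; decide
      · rw [ham, if_pos rfl, if_neg (Ne.symm nam), add_zero]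
      · rw [hma, if_pos rfl, if_neg (Ne.symm nam), zero_add]
      · rw [eps_same, if_neg (Ne.symm nam), add_zero]
    · have f1 : F (j + 1) = 0 := by simp only [hF]; rw [if_neg]; exact fun h => c1 h.2
      by_cases c0 : t j ≤ ψ
      · have q0 := h1 j e0 c0
        have q1 := h2 (j + 1) (by push Not at c1; exact c1.le) (by linarith)
        have f0 : F j = if p j = a then 1 else 0 := by simp only [hF, c0, and_true]
        rw [f0, f1, add_zero]
        rcases q0 with q0 | q0
        · have q2 : p (j + 1) = m := q1.resolve_right fun h => hab j ⟨q0, h⟩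
          rw [q0, q2, ham, if_pos rfl]
        · rw [q0, if_neg (Ne.symm nam)]
          refine hz _ _ (Or.inl ⟨Ne.symm nam, ?_⟩)
          rcases q1 with q1 | q1 <;> rw [q1]
          · exact Ne.symm nam
          · exact Ne.symm nab
      · have f0 : F j = 0 := by simp only [hF]; rw [if_neg]; exact fun h => c0 h.2
        rw [f0, f1, add_zero]
        push Not at c0
        by_cases c2 : t j ≤ Real.pi
        · have q0 := h2 j c0.le c2
          refine hz _ _ (Or.inl ⟨?_, ?_⟩)
          · rcases q0 with q0 | q0 <;> rw [q0]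
            · exact Ne.symm nam
            · exact Ne.symm nab
          · by_cases c3 : t (j + 1) ≤ Real.pi
            · rcases h2 (j + 1) (by linarith) c3 with q1 | q1 <;> rw [q1]
              · exact Ne.symm nam
              · exact Ne.symm nab
            · push Not at c3
              rcases h3 (j + 1) c3.le (by linarith) with q1 | q1 <;> rw [q1]
              · exact Ne.symm nab
              · exact Ne.symm nan
        · push Not at c2
          have hm : ∀ k, Real.pi ≤ t k → t k ≤ 2 * Real.pi → p k ≠ m := by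
            intro k k1 k2
            by_cases c4 : t k ≤ Real.pi + ψ
            · rcases h3 k k1 c4 with q | q <;> rw [q]
              · exact nbm
              · exact Ne.symm nmn
            · push Not at c4
              rcases h4 k c4.le k2 with q | q <;> rw [q]
              · exact Ne.symm nmn
              · exact nam
          exact hz _ _ (Or.inr ⟨hm j c2.le (by linarith), hm (j + 1) (by linarith) e3.le⟩)
  rw [Finset.sum_range_succ, Finset.sum_congr rfl key, tele2]
  have fM : F M = 0 := by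
    simp only [hF]
    rw [if_neg]
    rintro ⟨-, h⟩
    have := Real.pi_pos
    linarith
  have f0 : F 0 = if p 0 = a then 1 else 0 := by
    simp only [hF]
    have : t 0 ≤ ψ := by linarith
    simp only [this, and_true]
  rw [fM, add_zero, f0]
  have q0 := h1 0 ht0 (by linarith)
  have q1 := h4 M (by linarith) (by linarith)
  have hpN : p (M + 1) = p 0 := hp
  rw [hpN]
  rcases q0 with q0 | q0 <;> rcases q1 with q1 | q1 <;> rw [q0, q1]
  · rw [if_pos rfl, hz n a (Or.inr ⟨Ne.symm nmn, nam⟩), add_zero]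
  · rw [if_pos rfl, eps_same, add_zero]
  · exact absurd ⟨q1, by rw [hpN]; exact q0⟩ (hnm M)
  · rw [if_neg (Ne.symm nam), ham, zero_add]

/-- shifting a closed sum -/
theorem sum_shift {g : ℕ → ZMod 2} {N : ℕ} (hg : ∀ k, g (k + N) = g k) (k₀ : ℕ) :
    ∑ j ∈ Finset.range N, g (k₀ + j) = ∑ j ∈ Finset.range N, g j := by
  induction k₀ with
  | zero => simp
  | succ k ih =>
    rw [← ih]
    have h1 : ∑ j ∈ Finset.range N, g (k + 1 + j) + g (k + 0) =
        ∑ j ∈ Finset.range N, g (k + j) + g (k + N) := by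
      rw [← Finset.sum_range_succ (fun j => g (k + j)), Finset.sum_range_succ' (fun j => g (k + j))]
      congr 1
      refine Finset.sum_congr rfl fun j _ => ?_
      congr 1
      ring
    rw [hg k, add_zero] at h1
    exact add_right_cancel h1

end Vale.Agent.P032.H492
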