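import Vale.Agent.P032.H492.Index1

/-!
# P032, row X.STATE.2: capped covers

`Quad K V a b m n φ ψ ρ₀` : near `V` the palettes are inside `{a, m}`, `{m, b}`, `{b, n}`, `{n, a}` in
four sectors about `V`.
`capC K V δ ρ p e` : the single colour `p` near `V`, `K` between the radii `δ` and `ρ`, the colour `e`
farther out.
-/

open Set Filter Topology Metric Complex

noncomputable section

namespace Vale.Agent.P032.H492

open Vale.Agent.P032.S5 Vale.Agent.P032.Carr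

/-- the point at distance `ρ` from `V` in the direction `θ` -/
def pp (V : ℂ) (ρ θ : ℝ) : ℂ := V + (ρ : ℂ) * cexp ((θ : ℂ) * I)

theorem dist_pp (V : ℂ) {ρ : ℝ} (hρ : 0 ≤ ρ) (θ : ℝ) : dist (pp V ρ θ) V = ρ := by
  unfold pp
  rw [dist_eq_norm, add_sub_cancel_left, norm_mul, norm_ee, mul_one, Complex.norm_real,
    Real.norm_of_nonneg hρ]

theorem pp_per (V : ℂ) (ρ θ : ℝ) : pp V ρ (θ + 2 * Real.pi) = pp V ρ θ := by
  unfold pp
  congr 2
  push_cast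
  rw [add_mul, Complex.exp_add, Complex.exp_two_pi_mul_I, mul_one]

/-- every point is a point `pp` with an angle in a given period -/
theorem exists_pp (V w : ℂ) (φ : ℝ) :
    ∃ t : ℝ, 0 ≤ t ∧ t < 2 * Real.pi ∧ w = pp V (dist w V) (φ + t) := by
  have hπ := Real.two_pi_pos
  obtain ⟨k, hk1, hk2⟩ : ∃ k : ℤ, 0 ≤ Complex.arg (w - V) - φ + k * (2 * Real.pi) ∧
      Complex.arg (w - V) - φ + k * (2 * Real.pi) < 2 * Real.pi := by
    obtain ⟨k, hk, -⟩ := existsUnique_add_zsmul_mem_Ico hπ (Complex.arg (w - V) - φ) 0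
    rw [zsmul_eq_mul] at hk
    exact ⟨k, hk.1, by have := hk.2; linarith⟩
  refine ⟨_, hk1, hk2, ?_⟩
  unfold pp
  have e : φ + (Complex.arg (w - V) - φ + k * (2 * Real.pi)) =
      Complex.arg (w - V) + k * (2 * Real.pi) := by ring
  rw [e]
  push_cast
  rw [add_mul, Complex.exp_add]
  have e2 : cexp ((k : ℂ) * (2 * Real.pi) * I) = 1 := by
    rw [Complex.exp_eq_one_iff]
    exact ⟨k, by ring⟩
  rw [e2, mul_one, dist_eq_norm, Complex.norm_mul_exp_arg_mul_I]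
  ring

/-- the palettes about a crossing point -/
structure Quad (K : ℂ → Set (Fin 6)) (V : ℂ) (a b m n : Fin 6) (φ ψ ρ₀ : ℝ) : Prop where
  nd : [a, b, m, n].Nodup
  pos : 0 < ρ₀
  hψ0 : 0 < ψ
  hψ1 : ψ < Real.pi
  q1 : ∀ ρ, 0 < ρ → ρ < ρ₀ → ∀ t, 0 ≤ t → t ≤ ψ → K (pp V ρ (φ + t)) ⊆ {a, m}
  q2 : ∀ ρ, 0 < ρ → ρ < ρ₀ → ∀ t, ψ ≤ t → t ≤ Real.pi → K (pp V ρ (φ + t)) ⊆ {m, b}
  q3 : ∀ ρ, 0 < ρ → ρ < ρ₀ → ∀ t, Real.pi ≤ t → t ≤ Real.pi + ψ → K (pp V ρ (φ + t)) ⊆ {b, n}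
  q4 : ∀ ρ, 0 < ρ → ρ < ρ₀ → ∀ t, Real.pi + ψ ≤ t → t ≤ 2 * Real.pi →
    K (pp V ρ (φ + t)) ⊆ {n, a}

variable {K : ℂ → Set (Fin 6)} {V : ℂ} {a b m n : Fin 6} {φ ψ ρ₀ : ℝ}

theorem Quad.mono (Q : Quad K V a b m n φ ψ ρ₀) {ρ₁ : ℝ} (h0 : 0 < ρ₁) (h1 : ρ₁ ≤ ρ₀) :
    Quad K V a b m n φ ψ ρ₁ :=
  ⟨Q.nd, h0, Q.hψ0, Q.hψ1, fun ρ p q => Q.q1 ρ p (q.trans_le h1),
    fun ρ p q => Q.q2 ρ p (q.trans_le h1), fun ρ p q => Q.q3 ρ p (q.trans_le h1),
    fun ρ p q => Q.q4 ρ p (q.trans_le h1)⟩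

/-- rotation by one sector -/
theorem Quad.rot (Q : Quad K V a b m n φ ψ ρ₀) :
    Quad K V m n b a (φ + ψ) (Real.pi - ψ) ρ₀ := by
  have hψ0 := Q.hψ0
  have hψ1 := Q.hψ1
  have hnd := Q.nd
  refine ⟨?_, Q.pos, by linarith, by linarith, fun ρ p q t t0 t1 => ?_, fun ρ p q t t0 t1 => ?_,
    fun ρ p q t t0 t1 => ?_, fun ρ p q t t0 t1 => ?_⟩
  · simp only [List.nodup_cons, List.mem_cons, List.not_mem_nil, or_false, not_or] at hnd ⊢
    tauto
  · rw [add_assoc]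
    exact Q.q2 ρ p q _ (by linarith) (by linarith)
  · rw [add_assoc]
    exact Q.q3 ρ p q _ (by linarith) (by linarith)
  · rw [add_assoc]
    exact Q.q4 ρ p q _ (by linarith) (by linarith)
  · have e : φ + ψ + t = φ + (ψ + t - 2 * Real.pi) + 2 * Real.pi := by ring
    rw [e, pp_per]
    exact Q.q1 ρ p q _ (by linarith) (by linarith)

/-- near `V` the opposite colours are never together and there are at most two colours -/
theorem Quad.near (Q : Quad K V a b m n φ ψ ρ₀) {w : ℂ} (h0 : 0 < dist w V)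
    (h1 : dist w V < ρ₀) : K w ⊆ {a, m} ∨ K w ⊆ {m, b} ∨ K w ⊆ {b, n} ∨ K w ⊆ {n, a} := by
  obtain ⟨t, t0, t1, e⟩ := exists_pp V w φ
  rw [e]
  by_cases c1 : t ≤ ψ
  · exact Or.inl (Q.q1 _ h0 h1 t t0 c1)
  push Not at c1
  by_cases c2 : t ≤ Real.pi
  · exact Or.inr (Or.inl (Q.q2 _ h0 h1 t c1.le c2))
  push Not at c2
  by_cases c3 : t ≤ Real.pi + ψ
  · exact Or.inr (Or.inr (Or.inl (Q.q3 _ h0 h1 t c2.le c3)))
  push Not at c3
  exact Or.inr (Or.inr (Or.inr (Q.q4 _ h0 h1 t c3.le t1.le)))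

theorem Quad.two (Q : Quad K V a b m n φ ψ ρ₀) {w : ℂ} (h0 : 0 < dist w V)
    (h1 : dist w V < ρ₀) : (K w).ncard ≤ 2 := by
  have h2 : ∀ x y : Fin 6, K w ⊆ {x, y} → (K w).ncard ≤ 2 := fun x y h =>
    (Set.ncard_le_ncard h (Set.toFinite _)).trans (by
      have := Set.ncard_insert_le x ({y} : Set (Fin 6))
      rw [Set.ncard_singleton] at this
      exact this)
  rcases Q.near h0 h1 with h | h | h | h <;> exact h2 _ _ h

theorem Quad.sub (Q : Quad K V a b m n φ ψ ρ₀) {w : ℂ} (h0 : 0 < dist w V)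
    (h1 : dist w V < ρ₀) : K w ⊆ {a, b, m, n} := by
  rcases Q.near h0 h1 with h | h | h | h <;> refine h.trans ?_ <;> intro i hi <;>
    simp only [mem_insert_iff, mem_singleton_iff] at hi ⊢ <;> tauto

theorem Quad.not_ab (Q : Quad K V a b m n φ ψ ρ₀) {w : ℂ} (h0 : 0 < dist w V)
    (h1 : dist w V < ρ₀) : ¬ (a ∈ K w ∧ b ∈ K w) := by
  have hnd := Q.nd
  simp only [List.nodup_cons, List.mem_cons, List.not_mem_nil, or_false, not_or] at hnd
  rintro ⟨ha, hb⟩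
  rcases Q.near h0 h1 with h | h | h | h <;> have h2 := h ha <;> have h3 := h hb <;>
    simp only [mem_insert_iff, mem_singleton_iff] at h2 h3 <;> tauto

theorem Quad.not_mn (Q : Quad K V a b m n φ ψ ρ₀) {w : ℂ} (h0 : 0 < dist w V)
    (h1 : dist w V < ρ₀) : ¬ (m ∈ K w ∧ n ∈ K w) := Q.rot.not_ab h0 h1

/-! ### capped covers -/

/-- the capped cover -/
def capC (K : ℂ → Set (Fin 6)) (V : ℂ) (δ ρ : ℝ) (p e : Fin 6) (w : ℂ) : Set (Fin 6) :=
  {i | (i ∈ K w ∧ δ ≤ dist w V ∧ dist w V ≤ ρ) ∨ (i = p ∧ dist w V ≤ δ) ∨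
    (i = e ∧ ρ ≤ dist w V)}

theorem capC_nice (hK : ∀ y, ∀ᶠ z in 𝓝 y, K z ⊆ K y) (hne : ∀ y, ∃ i, i ∈ K y)
    (Q : Quad K V a b m n φ ψ ρ₀) {δ ρ : ℝ} (h0 : 0 < δ) (h1 : δ < ρ) (h2 : ρ < ρ₀) (p e : Fin 6)
    (x : ℂ) : Nice (capC K V δ ρ p e) x := by
  have hd : Continuous fun w : ℂ => dist w V := continuous_id.dist continuous_const
  refine ⟨usc_of_closed fun i => ?_, fun y => ?_, fun u _ => ?_⟩
  · have e1 : {w | i ∈ capC K V δ ρ p e w} = ({w | i ∈ K w} ∩ {w | δ ≤ dist w V} ∩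
        {w | dist w V ≤ ρ}) ∪ ({w | i = p ∧ dist w V ≤ δ} ∪ {w | i = e ∧ ρ ≤ dist w V}) := by
      ext w
      simp only [capC, mem_ofPred_eq, mem_union, mem_inter_iff]
      tauto
    rw [e1]
    refine ((((closed_of_usc hK i).inter (isClosed_le continuous_const hd)).inter
      (isClosed_le hd continuous_const))).union (IsClosed.union ?_ ?_)
    · by_cases hi : i = p
      · simp only [hi, true_and]
        exact isClosed_le hd continuous_const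
      · simp [hi]
    · by_cases hi : i = e
      · simp only [hi, true_and]
        exact isClosed_le continuous_const hd
      · simp [hi]
  · by_cases c1 : dist y V ≤ δ
    · exact ⟨p, Or.inr (Or.inl ⟨rfl, c1⟩)⟩
    push Not at c1
    by_cases c2 : ρ ≤ dist y V
    · exact ⟨e, Or.inr (Or.inr ⟨rfl, c2⟩)⟩
    push Not at c2
    obtain ⟨i, hi⟩ := hne y
    exact ⟨i, Or.inl ⟨hi, c1.le, c2.le⟩⟩
  · by_cases c0 : δ ≤ dist u V ∧ dist u V ≤ ρ
    · have h3 := Q.two (w := u) (by linarith [c0.1]) (by linarith [c0.2])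
      have h4 : ∃ q : Fin 6, capC K V δ ρ p e u ⊆ insert q (K u) := by
        by_cases c1 : dist u V ≤ δ
        · refine ⟨p, ?_⟩
          rintro i (⟨hi, -⟩ | ⟨rfl, -⟩ | ⟨rfl, hi⟩)
          · exact Or.inr hi
          · exact Or.inl rfl
          · linarith
        · refine ⟨e, ?_⟩
          rintro i (⟨hi, -⟩ | ⟨rfl, hi⟩ | ⟨rfl, hi⟩)
          · exact Or.inr hi
          · exact absurd hi c1
          · exact Or.inl rfl
      obtain ⟨q, hq⟩ := h4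
      have h5 := Set.ncard_le_ncard hq (Set.toFinite _)
      have h6 := Set.ncard_insert_le q (K u)
      omega
    · have h4 : capC K V δ ρ p e u ⊆ {p, e} := by
        rintro i (⟨-, hi⟩ | ⟨rfl, -⟩ | ⟨rfl, -⟩)
        · exact absurd hi c0
        · simp
        · simp
      have h5 := Set.ncard_le_ncard h4 (Set.toFinite _)
      have h6 := Set.ncard_insert_le p ({e} : Set (Fin 6))
      rw [Set.ncard_singleton] at h6
      omega

theorem capC_av {δ ρ : ℝ} {p e t : Fin 6} (het : e ≠ t) {x : ℂ} (hx : dist V x + ρ ≤ 1) :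
    Av (capC K V δ ρ p e) x t := fun y hy => by
  refine ⟨e, Or.inr (Or.inr ⟨rfl, ?_⟩), het⟩
  have h1 := dist_triangle y V x
  linarith

/-- the capped covers with the apexes `p` and `q` have the same colours away from `V` -/
theorem capC_out {δ ρ : ℝ} {p q e : Fin 6} {w : ℂ} (hw : δ < dist w V) :
    capC K V δ ρ p e w = capC K V δ ρ q e w := by
  ext i
  simp only [capC, mem_ofPred_eq]
  constructor
  · rintro (h | ⟨-, h⟩ | h)
    · exact Or.inl h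
    · linarith
    · exact Or.inr (Or.inr h)
  · rintro (h | ⟨-, h⟩ | h)
    · exact Or.inl h
    · linarith
    · exact Or.inr (Or.inr h)

/-- two disjoint closed colours are apart on a compact annulus -/
theorem exists_apart (hK : ∀ y, ∀ᶠ z in 𝓝 y, K z ⊆ K y) {δ ρ : ℝ} {x y : Fin 6}
    (hxy : ∀ w, δ ≤ dist w V → dist w V ≤ ρ → ¬ (x ∈ K w ∧ y ∈ K w)) :
    ∃ η > 0, ∀ w w', δ ≤ dist w V → dist w V ≤ ρ → δ ≤ dist w' V → dist w' V ≤ ρ →
      dist w w' < η → ¬ (x ∈ K w ∧ y ∈ K w') := by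
  have hd : Continuous fun w : ℂ => dist w V := continuous_id.dist continuous_const
  have hc : ∀ i, IsClosed ({w | i ∈ K w} ∩ {w | δ ≤ dist w V}) := fun i =>
    (closed_of_usc hK i).inter (isClosed_le continuous_const hd)
  have h1 : IsCompact ({w | x ∈ K w} ∩ {w | δ ≤ dist w V} ∩ closedBall V ρ) := by
    rw [inter_comm]
    exact (isCompact_closedBall V ρ).inter_right (hc x)
  have h2 : IsClosed ({w | y ∈ K w} ∩ {w | δ ≤ dist w V} ∩ closedBall V ρ) :=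
    (hc y).inter isClosed_closedBall
  have h3 : Disjoint ({w | x ∈ K w} ∩ {w | δ ≤ dist w V} ∩ closedBall V ρ)
      ({w | y ∈ K w} ∩ {w | δ ≤ dist w V} ∩ closedBall V ρ) := by
    rw [Set.disjoint_left]
    rintro w ⟨⟨w1, w2⟩, w3⟩ ⟨⟨w4, -⟩, -⟩
    exact hxy w w2 (mem_closedBall.1 w3) ⟨w1, w4⟩
  obtain ⟨η, hη, hdis⟩ := h3.exists_thickenings h1 h2
  refine ⟨η, hη, fun w w' a1 a2 a3 a4 a5 a6 => ?_⟩
  have k1 : w' ∈ thickening η ({w | x ∈ K w} ∩ {w | δ ≤ dist w V} ∩ closedBall V ρ) := by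
    rw [mem_thickening_iff]
    exact ⟨w, ⟨⟨a6.1, a1⟩, mem_closedBall.2 a2⟩, by rw [dist_comm]; exact a5⟩
  have k2 : w' ∈ thickening η ({w | y ∈ K w} ∩ {w | δ ≤ dist w V} ∩ closedBall V ρ) :=
    self_subset_thickening hη _ ⟨⟨a6.2, a3⟩, mem_closedBall.2 a4⟩
  exact Set.disjoint_left.1 hdis k1 k2

end Vale.Agent.P032.H492
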