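import Vale.Agent.P032.H492.Index2

/-!
# P032, row X.STATE.2: the difference of the two resolutions at the point itself
-/

open Set Filter Topology Metric Complex

noncomputable section

namespace Vale.Agent.P032.H492

open Vale.Agent.P032.S5 Vale.Agent.P032.Carr

variable {K : ℂ → Set (Fin 6)} {V : ℂ} {a b m n : Fin 6} {φ ψ ρ₀ : ℝ}

theorem pp_perN (V : ℂ) (ρ θ : ℝ) (q : ℕ) : pp V ρ (θ + q * (2 * Real.pi)) = pp V ρ θ := by
  induction q with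
  | zero => simp
  | succ q ih =>
    rw [← ih, ← pp_per V ρ (θ + q * (2 * Real.pi))]
    congr 1
    push_cast
    ring

theorem Quad.shift (Q : Quad K V a b m n φ ψ ρ₀) (q : ℕ) :
    Quad K V a b m n (φ + q * (2 * Real.pi)) ψ ρ₀ := by
  have e : ∀ ρ t, pp V ρ (φ + q * (2 * Real.pi) + t) = pp V ρ (φ + t) := fun ρ t => by
    rw [← pp_perN V ρ (φ + t) q]
    congr 1
    ring
  exact ⟨Q.nd, Q.pos, Q.hψ0, Q.hψ1, fun ρ p q t => by rw [e]; exact Q.q1 ρ p q t,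
    fun ρ p q t => by rw [e]; exact Q.q2 ρ p q t, fun ρ p q t => by rw [e]; exact Q.q3 ρ p q t,
    fun ρ p q t => by rw [e]; exact Q.q4 ρ p q t⟩

theorem Quad.exists_nonneg (Q : Quad K V a b m n φ ψ ρ₀) :
    ∃ φ', 0 ≤ φ' ∧ Quad K V a b m n φ' ψ ρ₀ := by
  obtain ⟨q, hq⟩ := exists_nat_gt (-φ / (2 * Real.pi))
  refine ⟨_, ?_, Q.shift q⟩
  rw [div_lt_iff₀ Real.two_pi_pos] at hq
  linarith

theorem pt_eq_pp (V : ℂ) (j i k : ℕ) :
    pt V j i k = pp V ((i : ℝ) / 2 ^ j) (Real.pi / 3 * (k : ℝ) / 2 ^ j) := rfl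

theorem pt_per' (x : ℂ) (j i k : ℕ) : pt x j i (k + 6 * 2 ^ j) = pt x j i k := by
  rw [pt_eq_pp, pt_eq_pp, ← pp_per x ((i : ℝ) / 2 ^ j) (Real.pi / 3 * (k : ℝ) / 2 ^ j)]
  congr 1
  push_cast
  field_simp
  ring

/-- the number of `a|m` steps on a fine ring about `V` is odd -/
theorem Quad.ring_am (hK : ∀ y, ∀ᶠ z in 𝓝 y, K z ⊆ K y) (Q : Quad K V a b m n φ ψ ρ₀) {δ ρ : ℝ}
    (h0 : 0 < δ) (h2 : ρ < ρ₀) : ∃ ε > 0, ∀ j : ℕ, (3 : ℝ) / 2 ^ j < ε →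
      ∀ L : ℂ → Fin 6, (∀ w, δ < dist w V → dist w V < ρ → L w ∈ K w) → ∀ i : ℕ,
      δ < (i : ℝ) / 2 ^ j → (i : ℝ) / 2 ^ j < ρ → i ≤ 2 ^ j →
      ∑ k ∈ Finset.range (6 * 2 ^ j), eps (L (pt V j i k)) (L (pt V j i (k + 1))) {a, m} = 1 := by
  obtain ⟨φ, hφ, Q⟩ := Q.exists_nonneg
  have hπ := Real.pi_pos
  have hπ4 := Real.pi_le_four
  obtain ⟨η1, hη1, H1⟩ := exists_apart (V := V) hK (δ := δ) (ρ := ρ) (x := a) (y := b)
    (fun w w1 w2 => Q.not_ab (h0.trans_le w1) (w2.trans_lt h2))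
  obtain ⟨η2, hη2, H2⟩ := exists_apart (V := V) hK (δ := δ) (ρ := ρ) (x := n) (y := m)
    (fun w w1 w2 h => Q.not_mn (h0.trans_le w1) (w2.trans_lt h2) ⟨h.2, h.1⟩)
  have hψ0 := Q.hψ0
  have hψ1 := Q.hψ1
  refine ⟨min (min η1 η2) (min (ψ / 2) ((Real.pi - ψ) / 2)), lt_min (lt_min hη1 hη2)
    (lt_min (by linarith) (by linarith)), fun j hj L hL i hi1 hi2 hi3 => ?_⟩
  have hp : (0 : ℝ) < 2 ^ j := by positivity
  have j1 : (3 : ℝ) / 2 ^ j < η1 := hj.trans_le ((min_le_left _ _).trans (min_le_left _ _))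
  have j2 : (3 : ℝ) / 2 ^ j < η2 := hj.trans_le ((min_le_left _ _).trans (min_le_right _ _))
  have j3 : (3 : ℝ) / 2 ^ j < ψ / 2 := hj.trans_le ((min_le_right _ _).trans (min_le_left _ _))
  have j4 : (3 : ℝ) / 2 ^ j < (Real.pi - ψ) / 2 :=
    hj.trans_le ((min_le_right _ _).trans (min_le_right _ _))
  set h : ℝ := Real.pi / 3 / 2 ^ j with hh
  have hh0 : 0 < h := by positivity
  have hhle : h ≤ 3 / 2 ^ j / 2 := by
    have e1 : h ≤ (3 / 2) / 2 ^ j := div_le_div_of_nonneg_right (by linarith) hp.le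
    have e2 : (3 : ℝ) / 2 ^ j / 2 = (3 / 2) / 2 ^ j := by ring
    linarith
  set ρ' : ℝ := (i : ℝ) / 2 ^ j with hρ'
  have hρ0 : 0 < ρ' := h0.trans hi1
  have hρ1 : ρ' < ρ₀ := hi2.trans h2
  -- the first index
  set k₀ : ℕ := ⌈φ / h⌉₊ with hk₀
  have k1 : φ ≤ k₀ * h := by
    have := Nat.le_ceil (φ / h)
    rw [div_le_iff₀ hh0] at this
    exact this
  have k2 : k₀ * h < φ + h := by
    have := Nat.ceil_lt_add_one (a := φ / h) (by positivity)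
    have h3 := mul_lt_mul_of_pos_right this hh0
    rw [add_mul, div_mul_cancel₀ _ hh0.ne', one_mul] at h3
    exact h3
  have hpt : ∀ k : ℕ, pt V j i (k₀ + k) = pp V ρ' (φ + ((k₀ + k : ℕ) * h - φ)) := by
    intro k
    rw [pt_eq_pp]
    congr 1
    rw [hh]
    push_cast
    field_simp
    ring
  have hd : ∀ k, dist (pt V j i k) V = ρ' := fun k => dist_pt V j i k
  have hLK : ∀ k, L (pt V j i k) ∈ K (pt V j i k) := fun k =>
    hL _ (by rw [hd]; exact hi1) (by rw [hd]; exact hi2)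
  have hst : ∀ k, dist (pt V j i k) (pt V j i (k + 1)) ≤ 2 / 2 ^ j := fun k => by
    rw [dist_comm]
    exact dist_pt_dir V hi3 k
  have h23 : (2 : ℝ) / 2 ^ j ≤ 3 / 2 ^ j := div_le_div_of_nonneg_right (by norm_num) hp.le
  have hN : ((6 * 2 ^ j : ℕ) : ℝ) * h = 2 * Real.pi := by
    rw [hh]
    push_cast
    field_simp
    ring
  have hper : ∀ k, L (pt V j i (k + 6 * 2 ^ j)) = L (pt V j i k) := fun k => by rw [pt_per']
  rw [← sum_shift (g := fun k => eps (L (pt V j i k)) (L (pt V j i (k + 1))) {a, m})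
    (N := 6 * 2 ^ j) (fun k => by
      show eps (L (pt V j i (k + 6 * 2 ^ j))) (L (pt V j i (k + 6 * 2 ^ j + 1))) {a, m} =
        eps (L (pt V j i k)) (L (pt V j i (k + 1))) {a, m}
      have e : k + 6 * 2 ^ j + 1 = k + 1 + 6 * 2 ^ j := by ring
      rw [e, hper, hper]) k₀]
  have hmem : ∀ k x y, K (pp V ρ' (φ + ((k₀ + k : ℕ) * h - φ))) ⊆ {x, y} →
      L (pt V j i (k₀ + k)) = x ∨ L (pt V j i (k₀ + k)) = y := by
    intro k x y hk
    have h1 := hLK (k₀ + k)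
    rw [hpt] at h1
    have h2 := hk h1
    rw [← hpt] at h2
    simpa using h2
  refine ring_sum Q.nd (p := fun k => L (pt V j i (k₀ + k))) (t := fun k => (k₀ + k : ℕ) * h - φ)
    (h := h) (ψ := ψ) (by positivity) ?_ (fun k => ?_) hh0 ?_ ?_ ?_ (by linarith) (by linarith)
    (fun k t0 t1 => hmem k a m (Q.q1 ρ' hρ0 hρ1 _ t0 t1))
    (fun k t0 t1 => hmem k m b (Q.q2 ρ' hρ0 hρ1 _ t0 t1))
    (fun k t0 t1 => hmem k b n (Q.q3 ρ' hρ0 hρ1 _ t0 t1))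
    (fun k t0 t1 => hmem k n a (Q.q4 ρ' hρ0 hρ1 _ t0 t1)) (fun k hk => ?_) (fun k hk => ?_)
  · exact hper k₀
  · push_cast
    ring
  · simp only [add_zero]
    linarith
  · simp only [add_zero]
    linarith
  · show ((k₀ + 6 * 2 ^ j : ℕ) : ℝ) * h - φ = ((k₀ + 0 : ℕ) : ℝ) * h - φ + 2 * Real.pi
    rw [← hN]
    push_cast
    ring
  · refine H1 (pt V j i (k₀ + k)) (pt V j i (k₀ + k + 1)) (by rw [hd]; exact hi1.le)
      (by rw [hd]; exact hi2.le) (by rw [hd]; exact hi1.le) (by rw [hd]; exact hi2.le)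
      (((hst _).trans h23).trans_lt j1) ⟨?_, ?_⟩
    · rw [← hk.1]; exact hLK _
    · rw [← hk.2]; exact hLK _
  · refine H2 (pt V j i (k₀ + k)) (pt V j i (k₀ + k + 1)) (by rw [hd]; exact hi1.le)
      (by rw [hd]; exact hi2.le) (by rw [hd]; exact hi1.le) (by rw [hd]; exact hi2.le)
      (((hst _).trans h23).trans_lt j2) ⟨?_, ?_⟩
    · rw [← hk.1]; exact hLK _
    · rw [← hk.2]; exact hLK _

end Vale.Agent.P032.H492
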