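import Vale.Agent.P032.H492.Index3

/-!
# P032, row X.STATE.2: the difference of the two resolutions for the capped covers
-/

open Set Filter Topology Metric Complex

noncomputable section

namespace Vale.Agent.P032.H492

open Vale.Agent.P032.S5 Vale.Agent.P032.Carr

variable {K : ℂ → Set (Fin 6)} {V : ℂ} {a b m n : Fin 6} {φ ψ ρ₀ : ℝ}

/-- the labelling with the constant label `p` on the rings `≤ r` -/
def lbl (L : ℕ → ℕ → Fin 6) (r : ℕ) (p : Fin 6) (i k : ℕ) : Fin 6 := if i ≤ r then p else L i k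

/-- two inner labels: only the ring `r + 1` counts -/
theorem Ch_two (L : ℕ → ℕ → Fin 6) {r M N : ℕ} (hr : r < M) (p q : Fin 6)
    (s : Finset (Fin 6)) : Ch (lbl L r p) M N s + Ch (lbl L r q) M N s =
      ∑ k ∈ Finset.range N, tau p (L (r + 1) k) (L (r + 1) (k + 1)) s +
      ∑ k ∈ Finset.range N, tau q (L (r + 1) k) (L (r + 1) (k + 1)) s := by
  unfold Ch
  rw [← Finset.sum_add_distrib, ← Finset.sum_add_distrib, Finset.sum_eq_single r]
  · rw [← Finset.sum_add_distrib]
    refine Finset.sum_congr rfl fun k _ => ?_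
    have h1 : ¬ r + 1 ≤ r := by omega
    simp only [lbl, le_refl, if_true, h1, if_false, tau_same12, add_zero]
  · intro i _ hir
    rw [← Finset.sum_add_distrib]
    refine Finset.sum_eq_zero fun k _ => ?_
    rcases lt_or_gt_of_ne hir with h | h
    · have h1 : i ≤ r := h.le
      have h2 : i + 1 ≤ r := h
      simp only [lbl, h1, h2, if_true, tau_same12, add_zero]
    · have h1 : ¬ i ≤ r := by omega
      have h2 : ¬ i + 1 ≤ r := by omega
      simp only [lbl, h1, h2, if_false]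
      exact z2 _
  · intro h
    exact absurd (Finset.mem_range.2 hr) h

/-- the finite check, the two labels named first -/
theorem erase_core {p p' q q' : Fin 6} (hnd : [p, p', q, q'].Nodup)
    {E : Finset (Fin 6) → ZMod 2} (e1 : E {p, q} = 1) (e2 : E {p, q'} = 1)
    (e3 : E {p', q} = 1) (e4 : E {p', q'} = 1) (e5 : E {p, p'} = 0) (e6 : E {q, q'} = 0)
    {s : Finset (Fin 6)} (hs : s.card = 3) (hsub : s ⊆ {p, p', q, q'}) :
    (if p ∈ s then E (s.erase p) else 0) + (if q ∈ s then E (s.erase q) else 0) = 1 := by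
  have hT : ({p, p', q, q'} : Finset (Fin 6)).card = 4 := by
    have := List.toFinset_card_of_nodup hnd
    simpa using this
  simp only [List.nodup_cons, List.mem_cons, List.not_mem_nil, or_false, not_or] at hnd
  obtain ⟨⟨n1, n2, n3⟩, ⟨n4, n5⟩, n6, -⟩ := hnd
  have h1 : ({p, p', q, q'} \ s : Finset (Fin 6)).card = 1 := by
    rw [Finset.card_sdiff_of_subset hsub, hT, hs]
  obtain ⟨x, hx⟩ := Finset.card_eq_one.1 h1
  have hxm : x ∈ ({p, p', q, q'} \ s : Finset (Fin 6)) := by rw [hx]; simp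
  have hse : s = ({p, p', q, q'} : Finset (Fin 6)).erase x := by
    rw [← Finset.sdiff_sdiff_eq_self hsub, hx, Finset.sdiff_singleton_eq_erase]
  have hxT := (Finset.mem_sdiff.1 hxm).1
  simp only [Finset.mem_insert, Finset.mem_singleton] at hxT
  clear hsub hT h1 hx hxm hs
  rcases hxT with rfl | rfl | rfl | rfl
  · have h : s = {p', q, q'} := by
      rw [hse, Finset.erase_insert]
      simp only [Finset.mem_insert, Finset.mem_singleton, not_or]
      exact ⟨n1, n2, n3⟩
    have h2 : ({p', q, q'} : Finset (Fin 6)).erase q = {p', q'} := by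
      rw [Finset.erase_insert_of_ne n4, Finset.erase_insert]
      simpa using n6
    rw [h, if_neg (by simp only [Finset.mem_insert, Finset.mem_singleton, not_or]
                      exact ⟨n1, n2, n3⟩), if_pos (by simp), h2, e4, zero_add]
  · have h : s = {p, q, q'} := by
      rw [hse, Finset.erase_insert_of_ne n1, Finset.erase_insert]
      simp only [Finset.mem_insert, Finset.mem_singleton, not_or]
      exact ⟨n4, n5⟩
    have h2 : ({p, q, q'} : Finset (Fin 6)).erase q = {p, q'} := by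
      rw [Finset.erase_insert_of_ne n2, Finset.erase_insert]
      simpa using n6
    have h3 : ({p, q, q'} : Finset (Fin 6)).erase p = {q, q'} := by
      rw [Finset.erase_insert]
      simp only [Finset.mem_insert, Finset.mem_singleton, not_or]
      exact ⟨n2, n3⟩
    rw [h, if_pos (by simp), if_pos (by simp), h2, h3, e6, e2, zero_add]
  · have h : s = {p, p', q'} := by
      rw [hse, Finset.erase_insert_of_ne n2, Finset.erase_insert_of_ne n4, Finset.erase_insert]
      simpa using n6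
    have h3 : ({p, p', q'} : Finset (Fin 6)).erase p = {p', q'} := by
      rw [Finset.erase_insert]
      simp only [Finset.mem_insert, Finset.mem_singleton, not_or]
      exact ⟨n1, n3⟩
    have h4 : x ∉ ({p, p', q'} : Finset (Fin 6)) := by
      simp only [Finset.mem_insert, Finset.mem_singleton, not_or]
      exact ⟨Ne.symm n2, Ne.symm n4, n6⟩
    rw [h, if_pos (by simp), if_neg h4, h3, e4, add_zero]
  · have h : s = {p, p', q} := by
      rw [hse, Finset.erase_insert_of_ne n3, Finset.erase_insert_of_ne n5,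
        Finset.erase_insert_of_ne n6, Finset.erase_singleton]
      rfl
    have h2 : ({p, p', q} : Finset (Fin 6)).erase q = {p, p'} := by
      rw [Finset.erase_insert_of_ne n2, Finset.erase_insert_of_ne n4, Finset.erase_singleton]
      rfl
    have h3 : ({p, p', q} : Finset (Fin 6)).erase p = {p', q} := by
      rw [Finset.erase_insert]
      simp only [Finset.mem_insert, Finset.mem_singleton, not_or]
      exact ⟨n1, n2⟩
    rw [h, if_pos (by simp), if_pos (by simp), h2, h3, e3, e5, add_zero]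

/-- the finite check -/
theorem erase_sum {a b m n p q : Fin 6} (hnd : [a, b, m, n].Nodup) (hp : p = a ∨ p = b)
    (hq : q = m ∨ q = n) {E : Finset (Fin 6) → ZMod 2} (e1 : E {a, m} = 1) (e2 : E {m, b} = 1)
    (e3 : E {b, n} = 1) (e4 : E {n, a} = 1) (e5 : E {a, b} = 0) (e6 : E {m, n} = 0)
    (e7 : ∀ e : Finset (Fin 6), ¬ e ⊆ {a, b, m, n} → E e = 0) {s : Finset (Fin 6)}
    (hs : s.card = 3) :
    (if p ∈ s then E (s.erase p) else 0) + (if q ∈ s then E (s.erase q) else 0) =
      if s ⊆ {a, b, m, n} then 1 else 0 := by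
  by_cases hsub : s ⊆ {a, b, m, n}
  · rw [if_pos hsub]
    have e2' : E {b, m} = 1 := by rw [Finset.pair_comm]; exact e2
    have e4' : E {a, n} = 1 := by rw [Finset.pair_comm]; exact e4
    have e5' : E {b, a} = 0 := by rw [Finset.pair_comm]; exact e5
    have e6' : E {n, m} = 0 := by rw [Finset.pair_comm]; exact e6
    simp only [List.nodup_cons, List.mem_cons, List.not_mem_nil, or_false, not_or] at hnd
    rcases hp with rfl | rfl <;> rcases hq with rfl | rfl
    · exact erase_core (p' := b) (q' := n)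
        (by simp only [List.nodup_cons, List.mem_cons, List.not_mem_nil, or_false, not_or]; tauto)
        e1 e4' e2' e3 e5 e6 hs hsub
    · exact erase_core (p' := b) (q' := m)
        (by simp only [List.nodup_cons, List.mem_cons, List.not_mem_nil, or_false, not_or]; tauto)
        e4' e1 e3 e2' e5 e6' hs (hsub.trans (by intro i; simp; tauto))
    · exact erase_core (p' := a) (q' := n)
        (by simp only [List.nodup_cons, List.mem_cons, List.not_mem_nil, or_false, not_or]; tauto)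
        e2' e3 e1 e4' e5' e6 hs (hsub.trans (by intro i; simp; tauto))
    · exact erase_core (p' := a) (q' := m)
        (by simp only [List.nodup_cons, List.mem_cons, List.not_mem_nil, or_false, not_or]; tauto)
        e3 e2' e4' e1 e5' e6' hs (hsub.trans (by intro i; simp; tauto))
  · rw [if_neg hsub]
    have key : ∀ x : Fin 6, x ∈ ({a, b, m, n} : Finset (Fin 6)) →
        (if x ∈ s then E (s.erase x) else 0) = 0 := by
      intro x hx
      by_cases h : x ∈ s
      · rw [if_pos h]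
        refine e7 _ fun h2 => hsub fun i hi => ?_
        by_cases hix : i = x
        · rw [hix]; exact hx
        · exact h2 (Finset.mem_erase.2 ⟨hix, hi⟩)
      · rw [if_neg h]
    rw [key p (by rcases hp with rfl | rfl <;> simp), key q (by rcases hq with rfl | rfl <;> simp),
      add_zero]

/-- **The index at the point itself**, capped covers -/
theorem Quad.center (hK : ∀ y, ∀ᶠ z in 𝓝 y, K z ⊆ K y) (hne : ∀ y, ∃ i, i ∈ K y)
    (Q : Quad K V a b m n φ ψ ρ₀) {δ ρ : ℝ} (h0 : 0 < δ) (h1 : δ < ρ) (h2 : ρ < ρ₀) (h3 : ρ < 1)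
    {p q e t : Fin 6} (hp : p = a ∨ p = b) (hq : q = m ∨ q = n) (het : e ≠ t)
    {s : Finset (Fin 6)} (hts : t ∈ s) (hs : s.card = 3) :
    lamS (capC K V δ ρ p e) t V s + lamS (capC K V δ ρ q e) t V s =
      if s ⊆ {a, b, m, n} then 1 else 0 := by
  have hav : ∀ u, Av (capC K V δ ρ u e) V t := fun u => capC_av het (by rw [dist_self]; linarith)
  obtain ⟨δ1, hδ1, S1⟩ := lamS_spec (capC_nice hK hne Q h0 h1 h2 p e V) (hav p) hts
  obtain ⟨δ2, hδ2, S2⟩ := lamS_spec (capC_nice hK hne Q h0 h1 h2 q e V) (hav q) hts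
  obtain ⟨ε1, hε1, R1⟩ := Q.ring_am hK h0 h2
  obtain ⟨ε2, hε2, R2⟩ := Q.rot.ring_am hK h0 h2
  obtain ⟨ε3, hε3, R3⟩ := Q.rot.rot.ring_am hK h0 h2
  obtain ⟨ε4, hε4, R4⟩ := Q.rot.rot.rot.ring_am hK h0 h2
  obtain ⟨η1, hη1, A1⟩ := exists_apart (V := V) hK (δ := δ) (ρ := ρ) (x := a) (y := b)
    (fun w w1 w2 => Q.not_ab (h0.trans_le w1) (w2.trans_lt h2))
  obtain ⟨η2, hη2, A2⟩ := exists_apart (V := V) hK (δ := δ) (ρ := ρ) (x := m) (y := n)
    (fun w w1 w2 => Q.not_mn (h0.trans_le w1) (w2.trans_lt h2))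
  obtain ⟨j, hj⟩ := exists_level (ε := min (min (min δ1 δ2) (min η1 η2))
    (min (min (min ε1 ε2) (min ε3 ε4)) (ρ - δ)))
    (lt_min (lt_min (lt_min hδ1 hδ2) (lt_min hη1 hη2))
      (lt_min (lt_min (lt_min hε1 hε2) (lt_min hε3 hε4)) (by linarith)))
  simp only [lt_min_iff] at hj
  obtain ⟨⟨⟨j1, j2⟩, j3, j4⟩, ⟨⟨j5, j6⟩, j7, j8⟩, j9⟩ := hj
  have hpj : (0 : ℝ) < 2 ^ j := by positivity
  choose L hL using (capC_nice hK hne Q h0 h1 h2 p e V).ne
  set r : ℕ := ⌊δ * 2 ^ j⌋₊ with hr
  have r1 : (r : ℝ) / 2 ^ j ≤ δ := by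
    rw [div_le_iff₀ hpj]
    exact Nat.floor_le (by positivity)
  have r2 : δ < ((r + 1 : ℕ) : ℝ) / 2 ^ j := by
    rw [lt_div_iff₀ hpj]
    push_cast
    exact Nat.lt_floor_add_one _
  have r3 : ((r + 1 : ℕ) : ℝ) / 2 ^ j < ρ := by
    have e1 : ((r + 1 : ℕ) : ℝ) / 2 ^ j = (r : ℝ) / 2 ^ j + 1 / 2 ^ j := by push_cast; ring
    have e2 : (1 : ℝ) / 2 ^ j ≤ 3 / 2 ^ j := div_le_div_of_nonneg_right (by norm_num) hpj.le
    linarith
  have r4 : r + 1 ≤ 2 ^ j := by
    have h4 : ((r + 1 : ℕ) : ℝ) < 2 ^ j := by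
      have := r3.trans h3
      rwa [div_lt_one hpj] at this
    have h5 : ((r + 1 : ℕ) : ℝ) < ((2 ^ j : ℕ) : ℝ) := by push_cast at h4 ⊢; exact h4
    exact (Nat.cast_lt.1 h5).le
  have hd : ∀ i k, dist (pt V j i k) V = (i : ℝ) / 2 ^ j := dist_pt V j
  have hin : ∀ i, i ≤ r → (i : ℝ) / 2 ^ j ≤ δ := fun i hi =>
    (div_le_div_of_nonneg_right (Nat.cast_le.2 hi) hpj.le).trans r1
  have hout : ∀ i, ¬ i ≤ r → δ < (i : ℝ) / 2 ^ j := fun i hi =>
    r2.trans_le (div_le_div_of_nonneg_right (Nat.cast_le.2 (by omega)) hpj.le)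
  have h2r : ¬ 2 ^ j ≤ r := by omega
  -- the two labellings
  have hlab : ∀ u : Fin 6, ∀ δ' > 0, Lb (capC K V δ ρ u e) V δ' j
      (lbl (fun i k => L (pt V j i k)) r u) := by
    intro u δ' hδ'
    refine ⟨fun i _ => ?_, fun k _ => ?_, fun i hi k _ => ⟨pt V j i k, by rwa [dist_self], ?_⟩⟩
    · unfold lbl
      simp only [pt_per]
    · simp only [lbl, Nat.zero_le, if_true]
    · unfold lbl
      split_ifs with h
      · exact Or.inr (Or.inl ⟨rfl, by rw [hd]; exact hin i h⟩)
      · rw [capC_out (p := u) (q := p) (by rw [hd]; exact hout i h)]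
        exact hL _
  have hring : ∀ u : Fin 6, ∀ k ≤ 6 * 2 ^ j,
      lbl (fun i k => L (pt V j i k)) r u (2 ^ j) k ≠ t := by
    intro u k _
    simp only [lbl, h2r, if_false]
    have h4 := hL (pt V j (2 ^ j) k)
    have h5 : dist (pt V j (2 ^ j) k) V = 1 := pt_ring V j k
    rcases h4 with ⟨-, -, h6⟩ | ⟨-, h6⟩ | ⟨h6, -⟩
    · rw [h5] at h6; linarith
    · rw [h5] at h6; linarith
    · rw [h6]; exact het
  rw [← S1 j j1 _ (hlab p δ1 hδ1) (hring p), ← S2 j j2 _ (hlab q δ2 hδ2) (hring q),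
    Ch_two _ (by omega) p q s]
  simp only [tau_erase]
  have hsum : ∀ u : Fin 6, (∑ k ∈ Finset.range (6 * 2 ^ j),
      if u ∈ s then eps (L (pt V j (r + 1) k)) (L (pt V j (r + 1) (k + 1))) (s.erase u) else 0) =
      if u ∈ s then ∑ k ∈ Finset.range (6 * 2 ^ j),
        eps (L (pt V j (r + 1) k)) (L (pt V j (r + 1) (k + 1))) (s.erase u) else 0 := by
    intro u
    split_ifs with h
    · rfl
    · simp
  rw [hsum, hsum]
  have hLK : ∀ w, δ < dist w V → dist w V < ρ → L w ∈ K w := by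
    intro w w1 w2
    rcases hL w with ⟨h4, -⟩ | ⟨-, h4⟩ | ⟨-, h4⟩
    · exact h4
    · linarith
    · linarith
  have hLk : ∀ k, L (pt V j (r + 1) k) ∈ K (pt V j (r + 1) k) := fun k =>
    hLK _ (by rw [hd]; exact r2) (by rw [hd]; exact r3)
  have hst : ∀ k, dist (pt V j (r + 1) k) (pt V j (r + 1) (k + 1)) ≤ 3 / 2 ^ j := fun k => by
    rw [dist_comm]
    refine (dist_pt_dir V r4 k).trans (div_le_div_of_nonneg_right (by norm_num) hpj.le)
  have hapart : ∀ x y : Fin 6, (∃ η, (3 : ℝ) / 2 ^ j < η ∧ ∀ w w', δ ≤ dist w V → dist w V ≤ ρ →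
      δ ≤ dist w' V → dist w' V ≤ ρ → dist w w' < η → ¬ (x ∈ K w ∧ y ∈ K w')) → x ≠ y →
      ∑ k ∈ Finset.range (6 * 2 ^ j),
        eps (L (pt V j (r + 1) k)) (L (pt V j (r + 1) (k + 1))) {x, y} = 0 := by
    rintro x y ⟨η, hη, A⟩ hxy
    refine Finset.sum_eq_zero fun k _ => ?_
    by_contra hne'
    obtain ⟨h4, h5⟩ := eps_ne_zero hne'
    have g1 : ∀ i k, i = r + 1 → δ ≤ dist (pt V j i k) V := fun i k hi => by
      rw [hd, hi]; exact r2.le
    have g2 : ∀ i k, i = r + 1 → dist (pt V j i k) V ≤ ρ := fun i k hi => by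
      rw [hd, hi]; exact r3.le
    have hx : x = L (pt V j (r + 1) k) ∨ x = L (pt V j (r + 1) (k + 1)) := by
      have : x ∈ ({x, y} : Finset (Fin 6)) := by simp
      rw [h5] at this
      simpa using this
    have hy : y = L (pt V j (r + 1) k) ∨ y = L (pt V j (r + 1) (k + 1)) := by
      have : y ∈ ({x, y} : Finset (Fin 6)) := by simp
      rw [h5] at this
      simpa using this
    rcases hx with hx | hx <;> rcases hy with hy | hy
    · exact hxy (hx.trans hy.symm)
    · exact A _ _ (g1 _ k rfl) (g2 _ k rfl) (g1 _ (k + 1) rfl) (g2 _ (k + 1) rfl)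
        ((hst k).trans_lt hη) ⟨by rw [hx]; exact hLk _, by rw [hy]; exact hLk _⟩
    · exact A _ _ (g1 _ (k + 1) rfl) (g2 _ (k + 1) rfl) (g1 _ k rfl) (g2 _ k rfl)
        (by rw [dist_comm]; exact (hst k).trans_lt hη) ⟨by rw [hx]; exact hLk _,
          by rw [hy]; exact hLk _⟩
    · exact hxy (hx.trans hy.symm)
  have hnd := Q.nd
  simp only [List.nodup_cons, List.mem_cons, List.not_mem_nil, or_false, not_or] at hnd
  obtain ⟨⟨nab, nam, nan⟩, ⟨nbm, nbn⟩, nmn, -⟩ := hnd
  refine erase_sum Q.nd hp hq (E := fun e => ∑ k ∈ Finset.range (6 * 2 ^ j),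
    eps (L (pt V j (r + 1) k)) (L (pt V j (r + 1) (k + 1))) e)
    (R1 j j5 L hLK _ r2 r3 r4) (R2 j j6 L hLK _ r2 r3 r4) (R3 j j7 L hLK _ r2 r3 r4)
    (R4 j j8 L hLK _ r2 r3 r4) (hapart a b ⟨η1, j3, A1⟩ nab) (hapart m n ⟨η2, j4, A2⟩ nmn)
    (fun e' he' => Finset.sum_eq_zero fun k _ => ?_) hs
  have g3 : ∀ k, L (pt V j (r + 1) k) ∈ ({a, b, m, n} : Finset (Fin 6)) := fun k => by
    have h4 := Q.sub (w := pt V j (r + 1) k) (by rw [hd]; linarith) (by rw [hd]; linarith) (hLk k)
    simpa using h4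
  exact eps_of_sub (g3 k) (g3 (k + 1)) he'

end Vale.Agent.P032.H492
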