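import Vale.Agent.P032.H492.Index4

/-!
# P032, row X.STATE.2: **the index of a two-pair point is odd**

`capC_const` : the state of a capped cover does not depend on the centre.
`lamS_local` : the difference of two covers which differ only near `V` depends only on the covers
near `V`.
`Hm.index` : the states of the two resolutions of a crossing point inside the disc differ by the
boundary of the tetrahedron of its four colours.
-/

open Set Filter Topology Metric Complex

noncomputable section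

namespace Vale.Agent.P032.H492

open Vale.Agent.P032.S5 Vale.Agent.P032.Carr

variable {K : ℂ → Set (Fin 6)} {V : ℂ} {a b m n : Fin 6} {φ ψ ρ₀ : ℝ}

/-- the state of a capped cover does not depend on the centre -/
theorem Quad.const (hK : ∀ y, ∀ᶠ z in 𝓝 y, K z ⊆ K y) (hne : ∀ y, ∃ i, i ∈ K y)
    (Q : Quad K V a b m n φ ψ ρ₀) {δ ρ : ℝ} (h0 : 0 < δ) (h1 : δ < ρ) (h2 : ρ < ρ₀)
    {p e t : Fin 6} (het : e ≠ t) {s : Finset (Fin 6)} (hts : t ∈ s) {x : ℂ}
    (hx : dist x V < 1 - ρ) :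
    lamS (capC K V δ ρ p e) t x s = lamS (capC K V δ ρ p e) t V s := by
  have hav : ∀ z ∈ ball V (1 - ρ), Av (capC K V δ ρ p e) z t := fun z hz => capC_av het (by
    have := mem_ball'.1 hz
    linarith)
  let _ : TopologicalSpace (ZMod 2) := ⊥
  have : DiscreteTopology (ZMod 2) := ⟨rfl⟩
  refine (convex_ball V (1 - ρ)).isPreconnected.constant
    (f := fun z => lamS (capC K V δ ρ p e) t z s) (fun z hz => ?_) (mem_ball.2 hx)
    (mem_ball_self (dist_nonneg.trans_lt hx))
  refine tendsto_const_nhds.congr' ?_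
  filter_upwards [mem_nhdsWithin_of_mem_nhds
      (lamS_loc (capC_nice hK hne Q h0 h1 h2 p e z) (hav z hz)),
    self_mem_nhdsWithin] with w hw hwb
  exact (hw (hav w hwb) s hts).symm

/-- **Locality** -/
theorem lamS_local {A A' B B' : ℂ → Set (Fin 6)} {x : ℂ} {δ ρ : ℝ} (h1 : δ < ρ)
    (hVx : dist V x + ρ ≤ 1) (nA : Nice A x) (nA' : Nice A' x) (nB : Nice B x) (nB' : Nice B' x)
    {t : Fin 6} (aA : Av A x t) (aA' : Av A' x t) (aB : Av B x t) (aB' : Av B' x t)
    (hA : ∀ w, δ < dist w V → A w = A' w) (hB : ∀ w, δ < dist w V → B w = B' w)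
    (hAB : ∀ w, dist w V < ρ → A w = B w) (hAB' : ∀ w, dist w V < ρ → A' w = B' w)
    {s : Finset (Fin 6)} (hts : t ∈ s) :
    lamS A t x s + lamS A' t x s = lamS B t x s + lamS B' t x s := by
  classical
  obtain ⟨δ1, hδ1, S1⟩ := lamS_spec nA aA hts
  obtain ⟨δ2, hδ2, S2⟩ := lamS_spec nA' aA' hts
  obtain ⟨δ3, hδ3, S3⟩ := lamS_spec nB aB hts
  obtain ⟨δ4, hδ4, S4⟩ := lamS_spec nB' aB' hts
  obtain ⟨j, hj⟩ := exists_level (ε := min (min (min δ1 δ2) (min δ3 δ4)) ((ρ - δ) / 2))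
    (lt_min (lt_min (lt_min hδ1 hδ2) (lt_min hδ3 hδ4)) (by linarith))
  simp only [lt_min_iff] at hj
  obtain ⟨⟨⟨j1, j2⟩, j3, j4⟩, j5⟩ := hj
  choose h hh using nA.ne
  choose h' hh' using nA'.ne
  choose g hg using nB.ne
  choose! bA hbA using aA
  choose! bB hbB using aB
  -- the ring points are far from `V`
  have hfar : ∀ y, dist y x = 1 → ρ ≤ dist y V := fun y hy => by
    have := dist_triangle y V x
    linarith
  set cA' : ℂ → Fin 6 := fun w => if dist w V ≤ δ then h' w else h w with hcA'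
  set cB : ℂ → Fin 6 := fun w => if dist w V < ρ then h w else g w with hcB
  set cB' : ℂ → Fin 6 := fun w => if dist w V ≤ δ then h' w else cB w with hcB'
  have mA' : ∀ w, cA' w ∈ A' w := fun w => by
    simp only [hcA']
    split_ifs with c
    · exact hh' w
    · rw [← hA w (by linarith)]; exact hh w
  have mB : ∀ w, cB w ∈ B w := fun w => by
    simp only [hcB]
    split_ifs with c
    · rw [← hAB w c]; exact hh w
    · exact hg w
  have mB' : ∀ w, cB' w ∈ B' w := fun w => by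
    simp only [hcB']
    split_ifs with c
    · rw [← hAB' w (by linarith)]; exact hh' w
    · rw [← hB w (by linarith)]; exact mB w
  have L1 : Lb A x δ1 j (sl x h bA j) := sl_Lb (fun p _ => hh p) (fun p hp => (hbA p hp).1) hδ1 j
  have L2 : Lb A' x δ2 j (sl x cA' bA j) := sl_Lb (fun p _ => mA' p) (fun p hp => by
    rw [← hA p (h1.trans_le (hfar p hp))]; exact (hbA p hp).1) hδ2 j
  have L3 : Lb B x δ3 j (sl x cB bB j) := sl_Lb (fun p _ => mB p) (fun p hp => (hbB p hp).1) hδ3 j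
  have L4 : Lb B' x δ4 j (sl x cB' bB j) := sl_Lb (fun p _ => mB' p) (fun p hp => by
    rw [← hB p (h1.trans_le (hfar p hp))]; exact (hbB p hp).1) hδ4 j
  have rA : ∀ (c : ℂ → Fin 6) (k : ℕ), sl x c bA j (2 ^ j) k ≠ t := fun c k => by
    rw [sl_ring]; exact (hbA _ (pt_ring x j k)).2
  have rB : ∀ (c : ℂ → Fin 6) (k : ℕ), sl x c bB j (2 ^ j) k ≠ t := fun c k => by
    rw [sl_ring]; exact (hbB _ (pt_ring x j k)).2
  rw [← S1 j j1 _ L1 fun k _ => rA _ k, ← S2 j j2 _ L2 fun k _ => rA _ k,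
    ← S3 j j3 _ L3 fun k _ => rB _ k, ← S4 j j4 _ L4 fun k _ => rB _ k]
  unfold Ch
  rw [← Finset.sum_add_distrib, ← Finset.sum_add_distrib]
  refine Finset.sum_congr rfl fun i hi => ?_
  rw [← Finset.sum_add_distrib, ← Finset.sum_add_distrib]
  refine Finset.sum_congr rfl fun k hk => ?_
  have hi' := Finset.mem_range.1 hi
  -- values at a vertex
  have near : ∀ i' k', dist (pt x j i' k') V < ρ →
      sl x h bA j i' k' = sl x cB bB j i' k' ∧ sl x cA' bA j i' k' = sl x cB' bB j i' k' := by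
    intro i' k' hd
    have hne : i' ≠ 2 ^ j := by
      rintro rfl
      exact absurd (hfar _ (pt_ring x j k')) (not_le.2 hd)
    simp only [sl, if_neg hne, hcA', hcB, hcB', if_pos hd]
    exact ⟨trivial, trivial⟩
  have far : ∀ i' k', δ < dist (pt x j i' k') V →
      sl x h bA j i' k' = sl x cA' bA j i' k' ∧ sl x cB bB j i' k' = sl x cB' bB j i' k' := by
    intro i' k' hd
    have hd' : ¬ dist (pt x j i' k') V ≤ δ := not_le.2 hd
    simp only [sl, hcA', hcB', if_neg hd']
    exact ⟨trivial, trivial⟩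
  by_cases hc : ∃ i' k', (i' = i ∨ i' = i + 1) ∧ (k' = k ∨ k' = k + 1) ∧
      dist (pt x j i' k') V ≤ δ
  · obtain ⟨i₀, k₀, hi₀, hk₀, hd₀⟩ := hc
    have hall : ∀ i' k', (i' = i ∨ i' = i + 1) → (k' = k ∨ k' = k + 1) →
        dist (pt x j i' k') V < ρ := by
      intro i' k' c1 c2
      have t1 := dist_cell x (j := j) (k := k) (show i' ≤ 2 ^ j by omega) c1 c2
      have t2 := dist_cell x (j := j) (k := k) (show i₀ ≤ 2 ^ j by omega) hi₀ hk₀
      have t3 := dist_triangle (pt x j i' k') (pt x j i k) V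
      have t4 := dist_triangle (pt x j i k) (pt x j i₀ k₀) V
      rw [dist_comm] at t2
      linarith
    have q00 := near i k (hall i k (Or.inl rfl) (Or.inl rfl))
    have q10 := near (i + 1) k (hall _ _ (Or.inr rfl) (Or.inl rfl))
    have q01 := near i (k + 1) (hall _ _ (Or.inl rfl) (Or.inr rfl))
    have q11 := near (i + 1) (k + 1) (hall _ _ (Or.inr rfl) (Or.inr rfl))
    rw [q00.1, q10.1, q01.1, q11.1, q00.2, q10.2, q01.2, q11.2]
  · push Not at hc
    have q00 := far i k (hc i k (Or.inl rfl) (Or.inl rfl))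
    have q10 := far (i + 1) k (hc _ _ (Or.inr rfl) (Or.inl rfl))
    have q01 := far i (k + 1) (hc _ _ (Or.inl rfl) (Or.inr rfl))
    have q11 := far (i + 1) (k + 1) (hc _ _ (Or.inr rfl) (Or.inr rfl))
    rw [q00.1, q10.1, q01.1, q11.1, q00.2, q10.2, q01.2, q11.2, z2, z2]

/-- near `V` an apex cover is a capped cover -/
theorem apx_eq_cap {Z : Set ℂ} {δ ρ : ℝ} {h : ℂ → Fin 6} (hV : V ∈ Z)
    (hiso : ∀ z ∈ Z, z ≠ V → ρ + δ < dist z V) {e : Fin 6} {w : ℂ} (hw : dist w V < ρ) :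
    apx K Z δ h w = capC K V δ ρ (h V) e w := by
  have hfar : ∀ z ∈ Z, z ≠ V → δ < dist w z := fun z hz hzV => by
    have h1 := hiso z hz hzV
    have h2 := dist_triangle z w V
    rw [dist_comm z w] at h2
    linarith
  ext i
  simp only [apx, capC, mem_ofPred_eq]
  constructor
  · rintro (⟨h1, h2⟩ | ⟨z, hz, h1, h2⟩)
    · exact Or.inl ⟨h1, h2 V hV, hw.le⟩
    · by_cases hzV : z = V
      · subst hzV
        exact Or.inr (Or.inl ⟨h2.symm, h1⟩)
      · exact absurd h1 (not_le.2 (hfar z hz hzV))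
  · rintro (⟨h1, h2, -⟩ | ⟨rfl, h1⟩ | ⟨-, h1⟩)
    · refine Or.inl ⟨h1, fun z hz => ?_⟩
      by_cases hzV : z = V
      · rw [hzV]; exact h2
      · exact (hfar z hz hzV).le
    · exact Or.inr ⟨V, hV, h1, rfl⟩
    · exact absurd hw (not_lt.2 h1)

/-- away from `V` two apex covers with the same apexes off `V` coincide -/
theorem apx_out {Z : Set ℂ} {δ : ℝ} {h h' : ℂ → Fin 6} (hh : ∀ z ∈ Z, z ≠ V → h z = h' z)
    {w : ℂ} (hw : δ < dist w V) : apx K Z δ h w = apx K Z δ h' w := by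
  ext i
  simp only [apx, mem_ofPred_eq]
  constructor
  · rintro (h1 | ⟨z, hz, h1, h2⟩)
    · exact Or.inl h1
    · have hzV : z ≠ V := by rintro rfl; linarith
      exact Or.inr ⟨z, hz, h1, by rw [← hh z hz hzV]; exact h2⟩
  · rintro (h1 | ⟨z, hz, h1, h2⟩)
    · exact Or.inl h1
    · have hzV : z ≠ V := by rintro rfl; linarith
      exact Or.inr ⟨z, hz, h1, by rw [hh z hz hzV]; exact h2⟩

/-- **The index of a crossing point is odd**: inside the disc the states of the two resolutions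
differ by the boundary of the tetrahedron of the four colours. -/
theorem Hm_index {Z : Set ℂ} {f f' : ℂ → Set (Fin 6)} {δ₀ δ₀' : ℝ} (H : Hm K Z f δ₀)
    (H' : Hm K Z f' δ₀') (hV : V ∈ Z) (hff : ∀ z ∈ Z, z ≠ V → f' z = f z)
    (hiso : ∀ᶠ z in 𝓝 V, z ∈ Z → z = V) (Q : Quad K V a b m n φ ψ ρ₀)
    (hKV : K V = {a, b, m, n}) (hf : f V = {m, n}) (hf' : f' V = {a, b}) {x : ℂ} (hr : Rg K Z x)
    {t : Fin 6} (ht : Av K x t) (hx : dist V x < 1) {s : Finset (Fin 6)} (hts : t ∈ s)
    (hs : s.card = 3) :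
    lamH K Z f' δ₀' t x s + lamH K Z f δ₀ t x s = if s ⊆ {a, b, m, n} then 1 else 0 := by
  have hnd := Q.nd
  simp only [List.nodup_cons, List.mem_cons, List.not_mem_nil, or_false, not_or] at hnd
  obtain ⟨⟨nab, nam, nan⟩, ⟨nbm, nbn⟩, nmn, -⟩ := hnd
  obtain ⟨r, hr0, hiso⟩ := Metric.eventually_nhds_iff.1 hiso
  have hp0 := H.pos
  have hp0' := H'.pos
  have hQ0 := Q.pos
  -- the radii
  set ρ : ℝ := min (min (ρ₀ / 2) ((1 - dist V x) / 2)) (r / 4) with hρ
  have r0 : 0 < ρ := lt_min (lt_min (by linarith) (by linarith)) (by linarith)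
  have r1 : ρ ≤ ρ₀ / 2 := (min_le_left _ _).trans (min_le_left _ _)
  have r2 : ρ ≤ (1 - dist V x) / 2 := (min_le_left _ _).trans (min_le_right _ _)
  have r3 : ρ ≤ r / 4 := min_le_right _ _
  set δ : ℝ := min (ρ / 2) (min (δ₀ / 2) (δ₀' / 2)) with hδ
  have d0 : 0 < δ := lt_min (by linarith) (lt_min (by linarith) (by linarith))
  have d1 : δ ≤ ρ / 2 := min_le_left _ _
  have d2 : δ ≤ δ₀ / 2 := (min_le_right _ _).trans (min_le_left _ _)
  have d3 : δ ≤ δ₀' / 2 := (min_le_right _ _).trans (min_le_right _ _)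
  have hdx : 0 ≤ dist V x := dist_nonneg
  -- the cap colour
  obtain ⟨e, heT, het⟩ : ∃ e : Fin 6, e ∉ K V ∧ e ≠ t := by
    by_contra hcon
    push Not at hcon
    have h1 : (Set.univ : Set (Fin 6)) ⊆ insert t (K V) := fun i _ => by
      by_cases hi : i ∈ K V
      · exact Or.inr hi
      · exact Or.inl (hcon i hi)
    have h2 := Set.ncard_le_ncard h1 (Set.toFinite _)
    have h3 := Set.ncard_insert_le t (K V)
    rw [H.four V hV] at h3
    rw [Set.ncard_univ, Nat.card_eq_fintype_card, Fintype.card_fin] at h2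
    omega
  have hzV : ∀ z ∈ Z, z ≠ V → ρ + δ < dist z V := fun z hz hzV => by
    by_contra hcon
    push Not at hcon
    exact hzV (hiso (by linarith) hz)
  have hap : ∀ z ∈ Z, z ≠ V → hp K f' {t} z = hp K f {t} z := fun z hz hzV => by
    unfold hp
    rw [hff z hz hzV]
  -- the apexes at `V`
  have hq := H'.apex hV {t}
  have hp' := H.apex hV {t}
  have hqm : hp K f' {t} V = m ∨ hp K f' {t} V = n := by
    have h1 := hq.1
    have h2 := hq.2
    rw [hKV] at h1
    rw [hf'] at h2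
    simp only [mem_insert_iff, mem_singleton_iff, not_or] at h1 h2
    tauto
  have hpm : hp K f {t} V = a ∨ hp K f {t} V = b := by
    have h1 := hp'.1
    have h2 := hp'.2
    rw [hKV] at h1
    rw [hf] at h2
    simp only [mem_insert_iff, mem_singleton_iff, not_or] at h1 h2
    tauto
  have hA := H.av ht δ
  have hA' := H'.av ht δ
  rw [← H.lam_eq hr ht d0 d2 hA hts, ← H'.lam_eq hr ht d0 d3 hA' hts, add_comm]
  have hK := H.usc
  have hne := H.ne
  have c1 : δ < ρ := by linarith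
  have c2 : ρ < ρ₀ := by linarith
  have nC : ∀ u, Nice (capC K V δ ρ u e) x := fun u => capC_nice hK hne Q d0 c1 c2 u e x
  have aC : ∀ u, Av (capC K V δ ρ u e) x t := fun u => capC_av het (by linarith)
  rw [lamS_local (V := V) (B := capC K V δ ρ (hp K f {t} V) e)
    (B' := capC K V δ ρ (hp K f' {t} V) e) c1 (by linarith) (H.nice hr d0 d2 _)
    (H'.nice hr d0 d3 _) (nC _) (nC _) hA hA' (aC _) (aC _)
    (fun w hw => apx_out (fun z hz hzV => (hap z hz hzV).symm) hw) (fun w hw => capC_out hw)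
    (fun w hw => apx_eq_cap hV hzV hw) (fun w hw => apx_eq_cap hV hzV hw) hts]
  rw [Q.const hK hne d0 c1 c2 het hts (x := x) (by rw [dist_comm]; linarith),
    Q.const hK hne d0 c1 c2 het hts (x := x) (by rw [dist_comm]; linarith)]
  exact Q.center hK hne d0 c1 c2 (by linarith) hpm hqm het hts hs

/-- **Outside the disc** the two resolutions give the same state. -/
theorem Hm_index_out {Z : Set ℂ} {f f' : ℂ → Set (Fin 6)} {δ₀ δ₀' : ℝ} (H : Hm K Z f δ₀)
    (H' : Hm K Z f' δ₀') (hff : ∀ z ∈ Z, z ≠ V → f' z = f z) {x : ℂ} (hr : Rg K Z x)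
    {t : Fin 6} (ht : Av K x t) (hx : 1 < dist V x) {s : Finset (Fin 6)} (hts : t ∈ s) :
    lamH K Z f' δ₀' t x s = lamH K Z f δ₀ t x s := by
  have hp0 := H.pos
  have hp0' := H'.pos
  set δ : ℝ := min ((dist V x - 1) / 2) (min (δ₀ / 2) (δ₀' / 2)) with hδ
  have d0 : 0 < δ := lt_min (by linarith) (lt_min (by linarith) (by linarith))
  have d1 : δ ≤ (dist V x - 1) / 2 := min_le_left _ _
  have d2 : δ ≤ δ₀ / 2 := (min_le_right _ _).trans (min_le_left _ _)
  have d3 : δ ≤ δ₀' / 2 := (min_le_right _ _).trans (min_le_right _ _)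
  have hA := H.av ht δ
  have hA' := H'.av ht δ
  have hap : ∀ z ∈ Z, z ≠ V → hp K f' {t} z = hp K f {t} z := fun z hz hzV => by
    unfold hp
    rw [hff z hz hzV]
  rw [← H.lam_eq hr ht d0 d2 hA hts, ← H'.lam_eq hr ht d0 d3 hA' hts]
  refine lamS_mono (H'.nice hr d0 d3 _) (H.nice hr d0 d2 _) (fun y hy => ?_) hA' hts
  rw [apx_out (V := V) (fun z hz hzV => hap z hz hzV)]
  have h1 := mem_closedBall.1 hy
  have h2 := dist_triangle V y x
  rw [dist_comm V y] at h2
  linarith

end Vale.Agent.P032.H492
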