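import Vale.Agent.P032.H492.Index5
import Vale.Agent.P032.S5.H80.Anti

/-!
# P032, row X.STATE.2: the four sectors at a two-pair point

`Irr.quad492` : at a two-pair point `V` with the pairs `{a, b}`, `{c, d}` the palettes near `V` are
inside four two-colour sets in four sectors about `V` (`Quad`).
-/

open Set Filter Topology Metric Complex

noncomputable section

namespace Vale.Agent.P032.Six

open Vale.Agent.P032.H492

variable {U : Fin 6 → Set ℂ} {T : ℂ → Set (Fin 6)}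

/-- near `V` the colour `i` is absent on the side `s` of the unit circle about `V + cis α`
(`s = 1` inside, `s = -1` outside) -/
def Abs492 (U : Fin 6 → Set ℂ) (V : ℂ) (i : Fin 6) (α s : ℝ) : Prop :=
  ∀ᶠ x in 𝓝 V, s * (dist x (V + cis α) ^ 2 - 1) < 0 → i ∉ Pal U x

theorem dist_pp_sq (V : ℂ) (ρ θ α : ℝ) :
    dist (pp V ρ θ) (V + cis α) ^ 2 = ρ ^ 2 - 2 * ρ * Real.cos (θ - α) + 1 := by
  unfold pp cis
  rw [dist_eq_norm, ← Complex.normSq_eq_norm_sq, Complex.normSq_apply]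
  have e : V + (ρ : ℂ) * cexp ((θ : ℂ) * I) - (V + cexp ((α : ℂ) * I)) =
      (ρ : ℂ) * cexp ((θ : ℂ) * I) - cexp ((α : ℂ) * I) := by ring
  rw [e, Real.cos_sub]
  simp only [Complex.sub_re, Complex.sub_im, Complex.mul_re, Complex.mul_im, Complex.ofReal_re,
    Complex.ofReal_im, Complex.exp_ofReal_mul_I_re, Complex.exp_ofReal_mul_I_im, zero_mul,
    sub_zero, add_zero]
  have h1 := Real.sin_sq_add_cos_sq θ
  have h2 := Real.sin_sq_add_cos_sq α
  nlinarith

theorem cos_sector {x ψ t c : ℝ} (h0 : 0 < ψ) (h1 : ψ < Real.pi) (t0 : 0 ≤ t) (t1 : t ≤ ψ)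
    (hc : 0 ≤ c) (e0 : c ≤ Real.cos x) (e1 : c ≤ Real.cos (x + ψ)) : c ≤ Real.cos (x + t) := by
  have hs : 0 < Real.sin ψ := Real.sin_pos_of_pos_of_lt_pi h0 h1
  have ha : 0 ≤ Real.sin (ψ - t) :=
    Real.sin_nonneg_of_nonneg_of_le_pi (by linarith) (by linarith)
  have hb : 0 ≤ Real.sin t := Real.sin_nonneg_of_nonneg_of_le_pi t0 (by linarith)
  have key : Real.sin ψ * Real.cos (x + t) =
      Real.sin (ψ - t) * Real.cos x + Real.sin t * Real.cos (x + ψ) := by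
    rw [Real.sin_sub, Real.cos_add, Real.cos_add]
    ring
  have hle : Real.sin ψ ≤ Real.sin (ψ - t) + Real.sin t := by
    have e : Real.sin ψ = Real.sin (ψ - t) * Real.cos t + Real.cos (ψ - t) * Real.sin t := by
      rw [← Real.sin_add]; congr 1; ring
    have h2 := Real.cos_le_one t
    have h3 := Real.cos_le_one (ψ - t)
    nlinarith
  nlinarith

/-- a colour absent on a side is absent in a sector strictly on this side -/
theorem Abs492.sector {V : ℂ} {i : Fin 6} {α s : ℝ} (hs : s = 1 ∨ s = -1)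
    (h : Abs492 U V i α s) {θ ψ : ℝ} (h0 : 0 < ψ) (h1 : ψ < Real.pi)
    (e0 : 0 < s * Real.cos (θ - α)) (e1 : 0 < s * Real.cos (θ + ψ - α)) :
    ∃ ρ₁ > 0, ∀ ρ, 0 < ρ → ρ < ρ₁ → ∀ t, 0 ≤ t → t ≤ ψ → i ∉ Pal U (pp V ρ (θ + t)) := by
  obtain ⟨r, hr, hd⟩ := Metric.eventually_nhds_iff.1 h
  set c := min (s * Real.cos (θ - α)) (s * Real.cos (θ + ψ - α)) with hc
  have hc0 : 0 < c := lt_min e0 e1
  have hcos : ∀ t, 0 ≤ t → t ≤ ψ → c ≤ s * Real.cos (θ + t - α) := by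
    intro t t0 t1
    have k0 : c ≤ s * Real.cos (θ - α) := min_le_left _ _
    have k1 : c ≤ s * Real.cos (θ + ψ - α) := min_le_right _ _
    rcases hs with rfl | rfl
    · rw [one_mul] at *
      have := cos_sector (x := θ - α) h0 h1 t0 t1 hc0.le k0 (by
        rw [show θ - α + ψ = θ + ψ - α by ring]; exact k1)
      rwa [show θ - α + t = θ + t - α by ring] at this
    · have g : ∀ y, -1 * Real.cos y = Real.cos (y + Real.pi) := fun y => by
        rw [Real.cos_add_pi]; ring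
      rw [g] at k0 k1 ⊢
      have := cos_sector (x := θ - α + Real.pi) h0 h1 t0 t1 hc0.le k0 (by
        rw [show θ - α + Real.pi + ψ = θ + ψ - α + Real.pi by ring]; exact k1)
      rwa [show θ - α + Real.pi + t = θ + t - α + Real.pi by ring] at this
  refine ⟨min r (2 * c), lt_min hr (by linarith), fun ρ p q t t0 t1 => hd ?_ ?_⟩
  · rw [dist_pp V p.le]
    exact q.trans_le (min_le_left _ _)
  · rw [dist_pp_sq]
    have k := hcos t t0 t1
    have q2 : ρ < 2 * c := q.trans_le (min_le_right _ _)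
    have q3 := mul_pos p hc0
    rcases hs with rfl | rfl
    · nlinarith
    · nlinarith

/-- `Sd` gives two absences -/
theorem Sd.abs492 {V : ℂ} {α : ℝ} {i j : Fin 6} (hs : Sd U (V + cis α) V i j) :
    Abs492 U V i α (-1) ∧ Abs492 U V j α 1 := by
  have key : ∀ x : ℂ, (-1 : ℝ) * (dist x (V + cis α) ^ 2 - 1) < 0 → 1 < dist x (V + cis α) := by
    intro x hx
    have := dist_nonneg (x := x) (y := V + cis α)
    nlinarith
  have key2 : ∀ x : ℂ, (1 : ℝ) * (dist x (V + cis α) ^ 2 - 1) < 0 → dist x (V + cis α) < 1 := by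
    intro x hx
    by_contra hcon
    push Not at hcon
    nlinarith
  constructor
  · filter_upwards [hs] with x hx hd
    exact hx.1 (key x hd)
  · filter_upwards [hs] with x hx hd
    exact hx.2 (key2 x hd)

/-- a colour with a ray on the side `s` is not absent on this side -/
theorem Abs492.not_ray {V : ℂ} {i : Fin 6} {α s θ : ℝ} (hs : s = 1 ∨ s = -1)
    (ha : Abs492 U V i α s) (hray : Ray (U i) V (cis θ)) (hc : 0 < s * Real.cos (θ - α)) :
    False := by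
  obtain ⟨r, hr, hd⟩ := Metric.eventually_nhds_iff.1 ha
  have h1 : ∀ᶠ ρ : ℝ in 𝓝[>] 0, 0 < ρ ∧ ρ < min r (2 * (s * Real.cos (θ - α))) := by
    filter_upwards [Ioo_mem_nhdsGT (lt_min hr (by linarith : (0:ℝ) < 2 * (s * Real.cos (θ - α))))]
      with ρ hρ
    exact hρ
  obtain ⟨ρ, hρ, p, q⟩ := (hray.and h1).exists
  have e : V + (ρ : ℂ) * cis θ = pp V ρ θ := rfl
  rw [e] at hρ
  refine hd (y := pp V ρ θ) ?_ ?_ (subset_closure hρ)
  · rw [dist_pp V p.le]
    exact q.trans_le (min_le_left _ _)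
  · rw [dist_pp_sq]
    have q2 := q.trans_le (min_le_right _ _)
    have q3 := mul_pos p hc
    rcases hs with rfl | rfl <;> nlinarith

theorem both_signs492 {P : ℝ → Prop} {θ α₀ : ℝ} (hP : ∀ᶠ α in 𝓝 α₀, P α)
    (hc : Real.cos (θ - α₀) = 0) :
    (∃ α, P α ∧ 0 < Real.cos (θ - α)) ∧ ∃ α, P α ∧ Real.cos (θ - α) < 0 := by
  obtain ⟨r, hr, hd⟩ := Metric.eventually_nhds_iff.1 hP
  have hπ := Real.pi_pos
  set ε := min (r / 2) 1 with hε
  have e0 : 0 < ε := lt_min (by linarith) one_pos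
  have e1 : ε < r := (min_le_left _ _).trans_lt (by linarith)
  have e2 : ε ≤ 1 := min_le_right _ _
  have hs : 0 < Real.sin ε := Real.sin_pos_of_pos_of_lt_pi e0 (by linarith [Real.pi_gt_three])
  have p1 : P (α₀ + ε) := hd (by rw [Real.dist_eq, add_sub_cancel_left, abs_of_pos e0]; exact e1)
  have p2 : P (α₀ - ε) := hd (by
    rw [Real.dist_eq, show α₀ - ε - α₀ = -ε by ring, abs_neg, abs_of_pos e0]; exact e1)
  have c1 : Real.cos (θ - (α₀ + ε)) = Real.sin (θ - α₀) * Real.sin ε := by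
    rw [show θ - (α₀ + ε) = θ - α₀ - ε by ring, Real.cos_sub, hc]; ring
  have c2 : Real.cos (θ - (α₀ - ε)) = -(Real.sin (θ - α₀) * Real.sin ε) := by
    rw [show θ - (α₀ - ε) = θ - α₀ + ε by ring, Real.cos_add, hc]; ring
  have hsq : Real.sin (θ - α₀) * Real.sin (θ - α₀) = 1 := by
    have := Real.sin_sq_add_cos_sq (θ - α₀)
    rw [hc] at this
    linarith
  rcases mul_self_eq_one_iff.1 hsq with h | h
  · exact ⟨⟨_, p1, by rw [c1, h]; linarith⟩, ⟨_, p2, by rw [c2, h]; linarith⟩⟩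
  · exact ⟨⟨_, p2, by rw [c2, h]; linarith⟩, ⟨_, p1, by rw [c1, h]; linarith⟩⟩

/-- signed form -/
theorem both_signs492' {P : ℝ → Prop} {θ α₀ s : ℝ} (hs : s = 1 ∨ s = -1)
    (hP : ∀ᶠ α in 𝓝 α₀, P α) (hc : Real.cos (θ - α₀) = 0) :
    (∃ α, P α ∧ 0 < s * Real.cos (θ - α)) ∧ ∃ α, P α ∧ s * Real.cos (θ - α) < 0 := by
  obtain ⟨⟨α, h1, h2⟩, ⟨β, h3, h4⟩⟩ := both_signs492 hP hc
  rcases hs with rfl | rfl
  · exact ⟨⟨α, h1, by linarith⟩, ⟨β, h3, by linarith⟩⟩
  · exact ⟨⟨β, h3, by linarith⟩, ⟨α, h1, by linarith⟩⟩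

/-- **The four sectors** from the absences -/
theorem quad_core492 {V : ℂ} {a b m n : Fin 6} (hnd : [a, b, m, n].Nodup)
    (hT : ∀ᶠ w in 𝓝 V, T w ⊆ {a, b, m, n}) (hsub : ∀ x, T x ⊆ Pal U x) {φ ψ α₀ γ₀ s s' : ℝ}
    (hψ0 : 0 < ψ) (hψ1 : ψ < Real.pi) (hs : s = 1 ∨ s = -1) (hs' : s' = 1 ∨ s' = -1)
    (hA : ∀ᶠ α in 𝓝 α₀, Abs492 U V b α s ∧ Abs492 U V a α (-s) ∧ 0 < s * Real.cos (φ - α))
    (hB : ∀ᶠ γ in 𝓝 γ₀, Abs492 U V n γ s' ∧ Abs492 U V m γ (-s') ∧
      0 < s' * Real.cos (φ + ψ - γ))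
    (hcα : Real.cos (φ + ψ - α₀) = 0) (hcγ : Real.cos (φ - γ₀) = 0) :
    ∃ ρ₀, Quad T V a b m n φ ψ ρ₀ := by
  obtain ⟨⟨α₁, ⟨a1, a2, a3⟩, a4⟩, ⟨α₂, ⟨b1, b2, b3⟩, b4⟩⟩ := both_signs492' hs hA hcα
  obtain ⟨⟨γ₁, ⟨c1, c2, c3⟩, c4⟩, ⟨γ₂, ⟨d1, d2, d3⟩, d4⟩⟩ := both_signs492' hs' hB hcγ
  have hms : -s = 1 ∨ -s = -1 := by rcases hs with rfl | rfl <;> norm_num
  have hms' : -s' = 1 ∨ -s' = -1 := by rcases hs' with rfl | rfl <;> norm_num
  have cp : ∀ x y, Real.cos (x + Real.pi - y) = -Real.cos (x - y) := fun x y => by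
    rw [show x + Real.pi - y = x - y + Real.pi by ring, Real.cos_add_pi]
  have c2p : ∀ x y, Real.cos (x + 2 * Real.pi - y) = Real.cos (x - y) := fun x y => by
    rw [show x + 2 * Real.pi - y = x - y + 2 * Real.pi by ring, Real.cos_add_two_pi]
  -- sector 1
  obtain ⟨r1, hr1, k1⟩ := a1.sector hs (θ := φ) hψ0 hψ1 a3 a4
  obtain ⟨r2, hr2, k2⟩ := c1.sector hs' (θ := φ) hψ0 hψ1 c4 c3
  -- sector 2
  obtain ⟨r3, hr3, k3⟩ := b2.sector hms (θ := φ + ψ) (ψ := Real.pi - ψ) (by linarith) (by linarith)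
    (by linarith) (by
      rw [show φ + ψ + (Real.pi - ψ) - α₂ = φ + Real.pi - α₂ by ring, cp]; linarith)
  obtain ⟨r4, hr4, k4⟩ := d1.sector hs' (θ := φ + ψ) (ψ := Real.pi - ψ) (by linarith) (by linarith)
    d3 (by
      rw [show φ + ψ + (Real.pi - ψ) - γ₂ = φ + Real.pi - γ₂ by ring, cp]; linarith)
  -- sector 3
  obtain ⟨r5, hr5, k5⟩ := a2.sector hms (θ := φ + Real.pi) hψ0 hψ1 (by rw [cp]; linarith) (by
      rw [show φ + Real.pi + ψ - α₁ = φ + ψ + Real.pi - α₁ by ring, cp]; linarith)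
  obtain ⟨r6, hr6, k6⟩ := c2.sector hms' (θ := φ + Real.pi) hψ0 hψ1 (by rw [cp]; linarith) (by
      rw [show φ + Real.pi + ψ - γ₁ = φ + ψ + Real.pi - γ₁ by ring, cp]; linarith)
  -- sector 4
  obtain ⟨r7, hr7, k7⟩ := b1.sector hs (θ := φ + ψ + Real.pi) (ψ := Real.pi - ψ) (by linarith)
    (by linarith) (by rw [cp]; linarith) (by
      rw [show φ + ψ + Real.pi + (Real.pi - ψ) - α₂ = φ + 2 * Real.pi - α₂ by ring, c2p]; exact b3)
  obtain ⟨r8, hr8, k8⟩ := d2.sector hms' (θ := φ + ψ + Real.pi) (ψ := Real.pi - ψ) (by linarith)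
    (by linarith) (by rw [cp]; linarith) (by
      rw [show φ + ψ + Real.pi + (Real.pi - ψ) - γ₂ = φ + 2 * Real.pi - γ₂ by ring, c2p]; linarith)
  obtain ⟨r9, hr9, k9⟩ := Metric.eventually_nhds_iff.1 hT
  have hmin : ∃ ρ₀ > 0, ρ₀ ≤ r1 ∧ ρ₀ ≤ r2 ∧ ρ₀ ≤ r3 ∧ ρ₀ ≤ r4 ∧ ρ₀ ≤ r5 ∧ ρ₀ ≤ r6 ∧ ρ₀ ≤ r7 ∧
      ρ₀ ≤ r8 ∧ ρ₀ ≤ r9 := by
    refine ⟨min (min (min (min r1 r2) (min r3 r4)) (min (min r5 r6) (min r7 r8))) r9,
      lt_min (lt_min (lt_min (lt_min hr1 hr2) (lt_min hr3 hr4))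
        (lt_min (lt_min hr5 hr6) (lt_min hr7 hr8))) hr9, ?_, ?_, ?_, ?_, ?_, ?_, ?_, ?_, ?_⟩ <;>
      simp
  obtain ⟨ρ₀, h0, l1, l2, l3, l4, l5, l6, l7, l8, l9⟩ := hmin
  have hfour : ∀ ρ, 0 < ρ → ρ < ρ₀ → ∀ θ, T (pp V ρ θ) ⊆ {a, b, m, n} := fun ρ p q θ =>
    k9 (by rw [dist_pp V p.le]; linarith)
  have two : ∀ (w : ℂ) (i j x y : Fin 6), T w ⊆ {a, b, m, n} → i ∉ Pal U w → j ∉ Pal U w →
      (∀ z, z = a ∨ z = b ∨ z = m ∨ z = n → z ≠ i → z ≠ j → z = x ∨ z = y) → T w ⊆ {x, y} := by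
    intro w i j x y h1 h2 h3 h4 z hz
    have h5 := h1 hz
    simp only [mem_insert_iff, mem_singleton_iff] at h5
    have h6 := h4 z h5 (fun h => h2 (h ▸ hsub w hz)) (fun h => h3 (h ▸ hsub w hz))
    simpa using h6
  refine ⟨ρ₀, hnd, h0, hψ0, hψ1, fun ρ p q t t0 t1 => ?_, fun ρ p q t t0 t1 => ?_,
    fun ρ p q t t0 t1 => ?_, fun ρ p q t t0 t1 => ?_⟩
  · exact two _ b n a m (hfour ρ p q _) (k1 ρ p (by linarith) t t0 t1)
      (k2 ρ p (by linarith) t t0 t1) (fun z hz h1 h2 => by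
        rcases hz with hz | hz | hz | hz
        all_goals first
          | exact Or.inl hz
          | exact Or.inr hz
          | exact absurd hz h1
          | exact absurd hz h2)
  · have e : φ + t = φ + ψ + (t - ψ) := by ring
    rw [e]
    exact two _ a n m b (hfour ρ p q _) (k3 ρ p (by linarith) _ (by linarith) (by linarith))
      (k4 ρ p (by linarith) _ (by linarith) (by linarith)) (fun z hz h1 h2 => by
        rcases hz with hz | hz | hz | hz
        all_goals first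
          | exact Or.inl hz
          | exact Or.inr hz
          | exact absurd hz h1
          | exact absurd hz h2)
  · have e : φ + t = φ + Real.pi + (t - Real.pi) := by ring
    rw [e]
    exact two _ a m b n (hfour ρ p q _) (k5 ρ p (by linarith) _ (by linarith) (by linarith))
      (k6 ρ p (by linarith) _ (by linarith) (by linarith)) (fun z hz h1 h2 => by
        rcases hz with hz | hz | hz | hz
        all_goals first
          | exact Or.inl hz
          | exact Or.inr hz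
          | exact absurd hz h1
          | exact absurd hz h2)
  · have e : φ + t = φ + ψ + Real.pi + (t - (Real.pi + ψ)) := by ring
    rw [e]
    exact two _ b m n a (hfour ρ p q _) (k7 ρ p (by linarith) _ (by linarith) (by linarith))
      (k8 ρ p (by linarith) _ (by linarith) (by linarith)) (fun z hz h1 h2 => by
        rcases hz with hz | hz | hz | hz
        all_goals first
          | exact Or.inl hz
          | exact Or.inr hz
          | exact absurd hz h1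
          | exact absurd hz h2)

/-- the exact arcs near a direction of an arc -/
theorem Arc.eventually492 {V : ℂ} {α₀ : ℝ} {P : Set (Fin 6)} (h : Arc T V (V + cis α₀) P) :
    ∀ᶠ α in 𝓝 α₀, Arc T V (V + cis α) P := by
  have h1 := eventually_eventually_nhdsWithin.2 h.2
  have hc : Tendsto (fun α : ℝ => V + cis α) (𝓝 α₀) (𝓝[sphere V 1] (V + cis α₀)) := by
    refine tendsto_nhdsWithin_of_tendsto_nhds_of_eventually_within _ ?_
      (Eventually.of_forall fun α => mem_sphere.2 (dist_add_cis V α))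
    have : Continuous fun α : ℝ => V + cis α := continuous_const.add continuous_cis
    exact this.tendsto α₀
  filter_upwards [hc.eventually h1] with α hα
  exact ⟨dist_add_cis V α, hα⟩

/-- the two absences at a direction of an arc, from one ray -/
theorem Irr.abs492 (h : Irr U T) {V : ℂ} {a b c d : Fin 6} (hz : DPt T V a b c d) {α θ s : ℝ}
    (hα : Arc T V (V + cis α) {a, b}) (hray : Ray (U a) V (cis θ)) (hs : s = 1 ∨ s = -1)
    (hc : 0 < s * Real.cos (θ - α)) : Abs492 U V b α s ∧ Abs492 U V a α (-s) := by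
  rcases h.sides hz (dist_add_cis V α) with h1 | h1
  · obtain ⟨k1, k2⟩ := (h.sd_center hα h1).abs492
    rcases hs with rfl | rfl
    · exact ⟨k2, k1⟩
    · exact (k1.not_ray (Or.inr rfl) hray hc).elim
  · obtain ⟨k1, k2⟩ := (h.sd_center (by rw [pair_comm]; exact hα) h1).abs492
    rcases hs with rfl | rfl
    · exact (k2.not_ray (Or.inl rfl) hray hc).elim
    · refine ⟨k1, ?_⟩
      rw [neg_neg]
      exact k2

end Vale.Agent.P032.Six
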