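import Vale.Agent.P032.H492.Branch
import Vale.Agent.P032.H169.OneArc
import Vale.Agent.P032.H416.XDef0
import Vale.Agent.P032.H79.XA

/-!
# P032, L1+, row (T): no unit triangle at an M vertex

World `DF U T`, `NoThree T`.  `Md V a b c d e f` : an abstract predicate `V` is an M vertex with the
pairs `ab | cd` and the free colours `e`, `f` (all plain ends carry `e`).

* `disj492` : adjacent two-pair points with a common pair `{e, f}`: the other pairs are disjoint.
* `pair_uniq492` : the pairs of a two-pair point are unique.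
* `tri492` : no two adjacent points of order four on the circle of an M vertex, if all points of order
  four there have the pair `{e, f}` (`hEF`) and swapped apexes of H corners are excluded (`hH`).
-/

open Set Filter Topology Metric

noncomputable section

namespace Vale.Agent.P032.H492

open Vale.Agent.P032.Six Vale.Agent.P032.S5.H767 Vale.Agent.P032.H460 Vale.Agent.P032.H484 Vale.Agent.P032.H154

variable {U : Fin 6 → Set ℂ} {T : ℂ → Set (Fin 6)} {V y y1 y2 : ℂ}
  {a b c d e f p q r s u v x x' : Fin 6}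

/-- adjacent two-pair points with a common pair: the other pairs are disjoint -/
theorem disj492 (h : Irr U T) (h1 : DPt T y1 p q e f) (h2 : DPt T y2 p s e f)
    (d12 : dist y1 y2 = 1) : False := by
  have hd : dist y2 y1 = 1 := by rw [dist_comm]; exact d12
  have hnear := (pv_of_dpt h h1).near
  have key : ∀ (ρ : ℝ) (j : Fin 6), (j = e ∨ j = f) →
      (∀ᶠ θ : ℝ in 𝓝[>] 0, T (wc y1 y2 (ρ * θ)) ⊆ {p, j}) → False := by
    intro ρ j hj h3
    obtain ⟨θ, h4⟩ := h3.exists
    have h5 : T (wc y1 y2 (ρ * θ)) ⊆ T y1 := by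
      refine h4.trans ?_
      rw [h1.pal]
      intro i hi
      simp only [mem_insert_iff, mem_singleton_iff] at hi ⊢
      rcases hj with rfl | rfl <;> tauto
    rcases hnear _ (dist_wc hd _) h5 with h6 | h6
    · have h7 : q ∈ T (wc y1 y2 (ρ * θ)) := sub_of_closure h h6 (by simp)
      have h8 := h4 h7
      simp only [mem_insert_iff, mem_singleton_iff] at h8
      rcases h8 with h8 | h8
      · exact h1.ab h8.symm
      · rcases hj with rfl | rfl
        · exact h1.bc h8
        · exact h1.bd h8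
    · have h7 : e ∈ T (wc y1 y2 (ρ * θ)) := sub_of_closure h h6 (by simp)
      have h7' : f ∈ T (wc y1 y2 (ρ * θ)) := sub_of_closure h h6 (by simp)
      have h8 := h4 h7
      have h8' := h4 h7'
      simp only [mem_insert_iff, mem_singleton_iff] at h8 h8'
      rcases hj with rfl | rfl
      · rcases h8' with h8' | h8'
        · exact h1.ad h8'.symm
        · exact h1.cd h8'.symm
      · rcases h8 with h8 | h8
        · exact h1.ac h8.symm
        · exact h1.cd h8
  obtain ⟨σ, -, ⟨h3, -⟩ | ⟨h3, -⟩⟩ := h.branch492 h2 hd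
  · exact key σ e (Or.inl rfl) h3
  · exact key σ f (Or.inr rfl) h3

/-- the pairs of a two-pair point are unique -/
theorem pair_uniq492 (h : Irr U T) (hV : DPt T V a b c d) (hV' : DPt T V u v x x') :
    ({x, x'} : Set (Fin 6)) = {a, b} ∨ ({x, x'} : Set (Fin 6)) = {c, d} := by
  obtain ⟨g, hg, hgJ⟩ := hV'.arc2
  have h1 : T g = {x, x'} := hgJ.self_of_nhdsWithin hg
  have h2 : T g ⊆ T V := by
    rw [h1, hV'.pal]
    intro i hi
    simp only [mem_insert_iff, mem_singleton_iff] at hi ⊢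
    tauto
  rcases h.twoPairs hV g hg (hgJ.mono fun w hw => hw.trans h1.symm) h2 with h3 | h3
  · exact Or.inl (h1 ▸ h3)
  · exact Or.inr (h1 ▸ h3)

/-- **row (T)** -/
theorem tri492 (h : DF U T) (h3 : NoThree T)
    {Md : ℂ → Fin 6 → Fin 6 → Fin 6 → Fin 6 → Fin 6 → Fin 6 → Prop}
    (hdpt : ∀ {V a b c d e f}, Md V a b c d e f → DPt T V a b c d)
    (hnd : ∀ {V a b c d e f}, Md V a b c d e f → [a, b, c, d, e, f].Nodup)
    (hM : ∀ {V a b c d e f}, DPt T V a b c d → [a, b, c, d, e, f].Nodup → ¬ H383.Pf T V a b →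
      ¬ H383.Pf T V c d → Md V a b c d e f ∨ Md V a b c d f e)
    (hEF : ∀ {V a b c d e f}, Md V a b c d e f → ∀ y, dist y V = 1 → 4 ≤ (T y).ncard →
      ∃ p q, DPt T y p q e f)
    (hH : ∀ {V y g : ℂ} {a b c d e f p q r s : Fin 6}, Md V a b c d e f → DPt T V p q r s →
      DPt T y p q e f → dist y V = 1 → dist g V = 1 → dist g y = 1 → (T g).ncard ≤ 3 →
      g ∈ closure (Ex T y {e, f}) → False)
    (hV : Md V a b c d e f) (d1 : dist y1 V = 1) (d2 : dist y2 V = 1) (d12 : dist y1 y2 = 1)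
    (o1 : 4 ≤ (T y1).ncard) (o2 : 4 ≤ (T y2).ncard) : False := by
  have hirr := h.irr
  obtain ⟨p, q, hy1⟩ := hEF hV y1 d1 o1
  obtain ⟨r, s, hy2⟩ := hEF hV y2 d2 o2
  have hVd := hdpt hV
  have nd := hnd hV
  have oV : 4 ≤ (T V).ncard := by rw [hVd.ncard]
  have dV1 : dist V y1 = 1 := by rw [dist_comm]; exact d1
  have d21 : dist y2 y1 = 1 := by rw [dist_comm]; exact d12
  -- the other pairs are disjoint
  have hpr : p ≠ r := by rintro rfl; exact disj492 hirr hy1 hy2 d12
  have hps : p ≠ s := by rintro rfl; exact disj492 hirr hy1 hy2.swap12 d12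
  have hqr : q ≠ r := by rintro rfl; exact disj492 hirr hy1.swap12 hy2 d12
  have hqs : q ≠ s := by rintro rfl; exact disj492 hirr hy1.swap12 hy2.swap12 d12
  have n1 : [p, q, e, f, r, s].Nodup := by
    have k1 := hy1.ab; have k2 := hy1.ac; have k3 := hy1.ad; have k4 := hy1.bc
    have k5 := hy1.bd; have k6 := hy1.cd
    have m1 := hy2.ab; have m2 := hy2.ac; have m3 := hy2.ad; have m4 := hy2.bc
    have m5 := hy2.bd
    simp only [List.nodup_cons, List.mem_cons, List.not_mem_nil, or_false, not_or,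
      List.nodup_nil, and_true, not_false_eq_true]
    exact ⟨⟨k1, k2, k3, hpr, hps⟩, ⟨k4, k5, hqr, hqs⟩, ⟨k6, Ne.symm m2, Ne.symm m4⟩,
      ⟨Ne.symm m3, Ne.symm m5⟩, m1⟩
  obtain ⟨heV, hfV⟩ : e ∉ T V ∧ f ∉ T V := by
    rw [hVd.pal]
    simp only [List.nodup_cons, List.mem_cons, List.not_mem_nil, or_false, not_or,
      List.nodup_nil, and_true, not_false_eq_true] at nd
    obtain ⟨⟨ab, ac, ad, ae, af⟩, ⟨bc, bd, be, bf⟩, ⟨cd, ce, cf⟩, ⟨de, df⟩, ef⟩ := nd
    simp only [mem_insert_iff, mem_singleton_iff, not_or]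
    exact ⟨⟨Ne.symm ae, Ne.symm be, Ne.symm ce, Ne.symm de⟩,
      ⟨Ne.symm af, Ne.symm bf, Ne.symm cf, Ne.symm df⟩⟩
  have hpy2 : p ∉ T y2 := by
    rw [hy2.pal]
    rintro (k | k | k | k)
    · exact hpr k
    · exact hps k
    · exact hy1.ac k
    · exact hy1.ad k
  -- `y1` is not plain-free
  have hn := fun z1 z2 z3 e1 e2 e3 k1 k2 k3 => h3 y1 z1 z2 z3 o1 e1 e2 e3 k1 k2 k3
  have f1 : ¬ H383.Pf T y1 p q := by
    intro hp
    obtain ⟨s0, t0, -, -, -, -, ⟨-, k1, -⟩, ⟨-, k2, -⟩, k3⟩ := one_arc169 hirr hy1 hp hn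
    rcases k3 y2 d21 o2 with k4 | k4
    · exact hpy2 (k4 ▸ k1)
    · exact hpy2 (k4 ▸ k2)
  have f2 : ¬ H383.Pf T y1 e f := by
    intro hp
    obtain ⟨s0, t0, -, -, -, -, ⟨-, k1, -⟩, ⟨-, k2, -⟩, k3⟩ := one_arc169 hirr hy1.swap hp hn
    rcases k3 V dV1 oV with k4 | k4
    · exact heV (k4 ▸ k1)
    · exact heV (k4 ▸ k2)
  -- `y1` is an M vertex
  obtain ⟨x, x', hxx, hMy⟩ : ∃ x x', ({x, x'} : Set (Fin 6)) = {r, s} ∧ Md y1 p q e f x x' := by
    rcases hM hy1 n1 f1 f2 with k | k
    · exact ⟨r, s, rfl, k⟩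
    · exact ⟨s, r, pair_comm _ _, k⟩
  obtain ⟨u, v, hV'⟩ := hEF hMy V dV1 oV
  have nd1 := hnd hMy
  -- the pairs of `V`
  have huv : DPt T V p q x x' := by
    have hall : ∀ i : Fin 6, i ∈ T V → i ≠ e ∧ i ≠ f := fun i hi =>
      ⟨by rintro rfl; exact heV hi, by rintro rfl; exact hfV hi⟩
    have hu : u = p ∨ u = q := by
      have k1 := hall u (by rw [hV'.pal]; simp)
      have k2 := hV'.ac
      have k3 := hV'.ad
      have k4 := H79.all79 nd1 u
      tauto
    have hv : v = p ∨ v = q := by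
      have k1 := hall v (by rw [hV'.pal]; simp)
      have k2 := hV'.bc
      have k3 := hV'.bd
      have k4 := H79.all79 nd1 v
      tauto
    have huv := hV'.ab
    rcases hu with rfl | rfl <;> rcases hv with rfl | rfl
    · exact absurd rfl huv
    · exact hV'
    · exact hV'.swap12
    · exact absurd rfl huv
  -- the apex
  have hg1 : dist (V + y1 - y2) V = 1 := by
    rw [← d12, dist_eq_norm, dist_eq_norm]; congr 1; ring
  have hg2 : dist (V + y1 - y2) y1 = 1 := by
    rw [← d2, dist_comm y2 V, dist_eq_norm, dist_eq_norm]; congr 1; ring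
  have hne12 : y1 ≠ y2 := by rintro rfl; simp at d12
  have hg3 : (T (V + y1 - y2)).ncard ≤ 3 := by
    by_contra hcon
    push Not at hcon
    rcases h3 V y1 y2 (V + y1 - y2) oV d1 d2 hg1 o1 o2 hcon with k | k | k
    · exact hne12 k
    · have : V = y2 := by linear_combination -k
      rw [this] at d2
      simp at d2
    · have k1 : y1 - V = 2 * (y2 - V) := by linear_combination -k
      have k2 : ‖y1 - V‖ = 2 * ‖y2 - V‖ := by rw [k1, norm_mul]; norm_num
      rw [← dist_eq_norm, ← dist_eq_norm, d1, d2] at k2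
      norm_num at k2
  rcases h_apex hirr huv hy1 heV hfV dV1 hg1 hg2 hg3 with k | k
  · exact hH hMy hy1 huv dV1 hg2 hg1 hg3 k
  · exact hH hV huv hy1 d1 hg1 hg2 hg3 k

end Vale.Agent.P032.H492
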